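import Vale.Agent.P091.StmE
import Vale.Agent.P091.Atom

namespace Vale.Agent.P091

open MeasureTheory Real Filter Topology

namespace AtomEAux

open AtomAux

theorem num {K : ℕ} (hK : 2 ≤ K) : ∃ Nm : ℕ, 1 ≤ Nm ∧
    (∀ a ≤ 2 * 2 ^ (364000 * K ^ 2), 2 * 2 ^ K * a ≤ Nm) ∧ (∀ a ≤ K, 2 * 2 ^ K * a ≤ Nm) ∧
    2 * π * (3 * (Nm : ℝ) ^ 2) ≤ Real.exp (1000000 * (K : ℝ) ^ 2) := by
  have h1 : 2 * K ≤ K ^ 2 := by nlinarith
  have h2 : ((K ^ 2 : ℕ) : ℝ) = (K : ℝ) ^ 2 := Nat.cast_pow _ _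
  rw [← h2]
  generalize K ^ 2 = L at *
  have h3 : ∀ b a, a ≤ 2 ^ b → b ≤ 364000 * L + 1 → 2 * 2 ^ K * a ≤ 2 ^ (365000 * L) := by
    intro b a ha hb
    calc 2 * 2 ^ K * a ≤ 2 * 2 ^ K * 2 ^ b := Nat.mul_le_mul_left _ ha
      _ = 2 ^ (K + 1 + b) := by rw [pow_add, pow_succ']
      _ ≤ _ := Nat.pow_le_pow_right two_pos (by omega)
  refine ⟨2 ^ (365000 * L), Nat.one_le_two_pow, fun a ha => h3 _ a (by rwa [pow_succ']) le_rfl,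
    fun a ha => h3 K a (ha.trans Nat.lt_two_pow_self.le) (by omega), ?_⟩
  have h4 := two_pow (365000 * L)
  have h5 := two_pow 5
  have h6 : (4 : ℝ) ≤ L := by exact_mod_cast (by omega : 4 ≤ L)
  have h7 : 2 * π * 3 ≤ Real.exp (5 : ℕ) := by
    refine le_trans ?_ h5
    push_cast
    linarith [Real.pi_le_four]
  calc _ = 2 * π * 3 * ((2 ^ (365000 * L) : ℕ) : ℝ) ^ 2 := mul_assoc _ _ _ |>.symm
    _ ≤ Real.exp (5 : ℕ) * Real.exp (365000 * L : ℕ) ^ 2 := by gcongr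
    _ ≤ _ := by
        rw [pow_two, ← Real.exp_add, ← Real.exp_add]
        refine Real.exp_le_exp.2 ?_
        push_cast
        linarith

end AtomEAux

theorem atomE_pf (h1 : GoodEStmt) (h2 : LowE2Stmt) (h3 : LowE3Stmt) (h4 : AvAStmt) (h5 : AvBStmt)
    (h6 : G0Stmt) : AtomEStmt := by
  intro K hK
  obtain ⟨M, s, g3, g4, g5⟩ := h1 K hK
  obtain ⟨Nm, n1, n2, n3, n4⟩ := AtomEAux.num hK
  have hN : (1 : ℝ) ≤ Nm := by exact_mod_cast n1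
  have hN2 : (Nm : ℝ) ≤ 3 * (Nm : ℝ) ^ 2 := by nlinarith
  have d0 : 0 < 1 / (3 * (Nm : ℝ) ^ 2) := by positivity
  have d1 : 1 / (3 * (Nm : ℝ) ^ 2) ≤ 1 := (div_le_one (by positivity)).2 (hN.trans hN2)
  obtain ⟨a1, a2, a3, a4, a5, a6⟩ := h4 (2 ^ K) (fun j => π * (j + s j) / 2 ^ K) _
    Nat.one_le_two_pow d0 d1
  obtain ⟨⟨B, b1⟩, b2⟩ := h5 (2 ^ K) (fun j => π * (j + s j) / 2 ^ K) _ Nat.one_le_two_pow d0 d1
  obtain ⟨c1, c2, c3, -, c5⟩ := h6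
  have hK2 : (2 : ℝ) ≤ K := by exact_mod_cast hK
  refine ⟨⟨_, _, B, Nm, G0⟩, ⟨a1, a2, a3, a4, b1, c1, c2, c3⟩, rfl, ?_, a5.le,
    a6.trans (ENNReal.ofReal_le_ofReal ?_), ?_⟩
  · change 2 * π / (1 / (3 * (Nm : ℝ) ^ 2)) ≤ _
    rwa [div_div_eq_mul_div, div_one]
  · rw [mul_one_div, div_le_div_iff₀ (by positivity) (by linarith), one_mul]
    refine le_trans ?_ hN2
    exact_mod_cast n3 K le_rfl
  · intro x hx
    obtain ⟨j0, y, m, j1, j2, y1, rfl⟩ := c5 K hK x hx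
    have hj : j0 < 2 ^ K := by
      have : 0 < 2 ^ K := by positivity
      omega
    obtain ⟨t, e1, t2⟩ : ∃ t : ℕ, 2 * 2 ^ K * t ≤ Nm ∧ (K : ℝ) / 300 - 20 ≤
        ‖((1 / 2 ^ K : ℝ) : ℂ) * ∑ j ∈ Finset.range (2 ^ K),
          Dk (2 * 2 ^ K * t) (π * (j0 + y) / 2 ^ K - π * (j + s j) / 2 ^ K)‖ := by
      rcases le_total (100 / (K : ℝ)) |y - s j0| with h | h
      · obtain ⟨t, t1, t2⟩ := h2 K j0 (M j0) s y hK j1 j2 (fun j => (g4 j).trans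
          (one_div_le_one_div_of_le (by norm_num) (by nlinarith))) y1 (g5 j0 hj) h
        exact ⟨t, n2 t (t1.trans (Nat.mul_le_mul_left 2 (g3 j0).le)), t2⟩
      · obtain ⟨t, t1, t2⟩ := h3 K j0 s y hK j1 j2 g4 y1 h
        exact ⟨t, n3 t t1, t2⟩
    refine ⟨_, e1, ?_⟩
    rw [S_per]
    have e2 := b2 (2 * 2 ^ K * t) (π * (j0 + y) / 2 ^ K)
    have e3 : 3 * ((2 * 2 ^ K * t : ℕ) : ℝ) ^ 2 * (1 / (3 * (Nm : ℝ) ^ 2)) ≤ 1 := by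
      rw [mul_one_div, div_le_one (by positivity)]
      gcongr
    rw [Nat.cast_pow, Nat.cast_ofNat, norm_sub_rev] at e2
    exact le_trans (by linarith)
      (sub_le_comm.1 ((norm_sub_norm_le _ _).trans (e2.trans e3)))

end Vale.Agent.P091
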