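import Vale.Agent.P091.Stm

namespace Vale.Agent.P091

open MeasureTheory Real Filter Topology

theorem avA_pf (h1 : TriAStmt) (h2 : TriBStmt) : AvAStmt := by
  intro n p δ hn hδ hδ1
  obtain ⟨hc, hp, h0, hb, hv⟩ := h1 δ hδ hδ1
  have hi := (h2 δ hδ hδ1).1
  have n0 : (0 : ℝ) < n := by exact_mod_cast hn
  have hcj : ∀ j, Continuous fun x => tri δ (x - p j) := fun j =>
    hc.comp (continuous_id.sub continuous_const)
  refine ⟨continuous_const.mul (continuous_finsetSum _ fun j _ => hcj j), fun x => ?_,
    fun x => mul_nonneg (by positivity) (Finset.sum_nonneg fun j _ => h0 _), fun x => ?_, ?_, ?_⟩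
  · unfold av
    refine congrArg _ (Finset.sum_congr rfl fun j _ => ?_)
    rw [add_sub_right_comm, hp]
  · have := Finset.sum_le_card_nsmul (Finset.range n) (fun j => tri δ (x - p j)) _
      fun j _ => hb (x - p j)
    rw [Finset.card_range, nsmul_eq_mul] at this
    rw [av, one_div, inv_mul_le_iff₀ n0]
    exact this
  · have e : ∀ j ∈ Finset.range n, ∫ x in (0 : ℝ)..(2 * π), tri δ (x - p j) = 2 * π := by
      intro j _
      have h3 := hp.intervalIntegral_add_eq (0 - p j) 0
      rw [zero_add, hi, ← add_sub_right_comm, zero_add] at h3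
      rw [intervalIntegral.integral_comp_sub_right, h3]
    unfold av
    rw [intervalIntegral.integral_const_mul, intervalIntegral.integral_finsetSum
      fun j _ => (hcj j).intervalIntegrable _ _, Finset.sum_congr rfl e, Finset.sum_const,
      Finset.card_range, nsmul_eq_mul]
    field_simp
  · have hm : MeasurableSet {y | tri δ y ≠ 0} := (isOpen_ne_fun hc continuous_const).measurableSet
    have hs : {x | av n p δ x ≠ 0} ∩ Set.Ioc 0 (2 * π) ⊆ ⋃ j ∈ Finset.range n,
        {x | x - p j ∈ {y | tri δ y ≠ 0}} ∩ Set.Ioc 0 (2 * π) := fun x hx => by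
      obtain ⟨j, hj, h⟩ := Finset.exists_ne_zero_of_sum_ne_zero (right_ne_zero_of_mul hx.1)
      exact Set.mem_biUnion hj ⟨h, hx.2⟩
    refine (measure_mono hs).trans ((measure_biUnion_finset_le _ _).trans ?_)
    refine (Finset.sum_le_card_nsmul _ _ (ENNReal.ofReal (2 * δ)) fun j _ => ?_).trans_eq ?_
    · rw [vol_shift hm (fun x => by simp only [Set.mem_ofPred_eq, hp x]) (p j)]
      exact hv
    · rw [Finset.card_range, nsmul_eq_mul, ← ENNReal.ofReal_natCast,
        ← ENNReal.ofReal_mul n0.le]
      exact congrArg _ (by ring)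

end Vale.Agent.P091
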