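import Vale.Agent.P091.Stm

namespace Vale.Agent.P091

open MeasureTheory Real Filter Topology

namespace AvBAux

theorem S_sum {ι : Type} (T : Finset ι) (f : ι → ℝ → ℂ) (hf : ∀ i ∈ T, Continuous (f i)) (N : ℕ)
    (x : ℝ) : S (fun x => ∑ i ∈ T, f i x) N x = ∑ i ∈ T, S (f i) N x := by
  simp only [S, coef_sum T f hf, Finset.sum_mul]
  exact Finset.sum_comm

theorem S_av (h1 : TriAStmt) (n : ℕ) (p : ℕ → ℝ) {δ : ℝ} (h0 : 0 < δ) (hδ : δ ≤ 1) (N : ℕ)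
    (x : ℝ) : S (fun x => (av n p δ x : ℂ)) N x =
      ((1 / n : ℝ) : ℂ) * ∑ j ∈ Finset.range n, S (fun y => (tri δ y : ℂ)) N (x - p j) := by
  obtain ⟨c, pe, -⟩ := h1 δ h0 hδ
  have e : (fun x => (av n p δ x : ℂ)) =
      fun x => ((1 / n : ℝ) : ℂ) * ∑ j ∈ Finset.range n, (tri δ (x - p j) : ℂ) := by
    funext x
    rw [av, Complex.ofReal_mul, Complex.ofReal_sum]
  have pc : Function.Periodic (fun y => (tri δ y : ℂ)) (2 * π) := fun y => by
    simp only [pe y]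
  rw [e, S_smul, S_sum (Finset.range n) (fun j x => (tri δ (x - p j) : ℂ))
    fun j _ => Complex.continuous_ofReal.comp (c.comp (continuous_id.sub continuous_const))]
  exact congrArg _ (Finset.sum_congr rfl fun j _ => S_shift pc (p j) N x)

theorem avg_le {n : ℕ} (hn : 1 ≤ n) {g : ℕ → ℂ} {B : ℝ} (h : ∀ j, ‖g j‖ ≤ B) :
    ‖((1 / n : ℝ) : ℂ) * ∑ j ∈ Finset.range n, g j‖ ≤ B := by
  have n0 : (0 : ℝ) < n := by exact_mod_cast hn
  have k : ‖∑ j ∈ Finset.range n, g j‖ ≤ n * B := by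
    refine (norm_sum_le _ _).trans ((Finset.sum_le_sum fun j _ => h j).trans_eq ?_)
    rw [Finset.sum_const, Finset.card_range, nsmul_eq_mul]
  rw [norm_mul, Complex.norm_real, Real.norm_of_nonneg (by positivity), one_div, inv_mul_le_iff₀ n0]
  exact k

theorem near {f : ℝ → ℂ} {δ : ℝ} (h0 : 0 < δ) (h : ∀ k : ℤ, ‖coef f k - 1‖ ≤ |(k : ℝ)| * δ)
    (N : ℕ) (u : ℝ) : ‖S f N u - Dk N u‖ ≤ 3 * (N : ℝ) ^ 2 * δ := by
  rw [S, Dk, ← Finset.sum_sub_distrib]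
  have k1 : ∀ k ∈ Finset.Icc (-(N : ℤ)) (N : ℤ),
      ‖coef f k * Complex.exp ((k : ℂ) * (u : ℂ) * Complex.I) -
        Complex.exp ((k : ℂ) * (u : ℂ) * Complex.I)‖ ≤ N * δ := fun k hk => by
    rw [← sub_one_mul, norm_mul, norm_exp_pos, mul_one]
    refine (h k).trans (mul_le_mul_of_nonneg_right ?_ h0.le)
    have := abs_le.2 (Finset.mem_Icc.1 hk)
    exact_mod_cast this
  refine (norm_sum_le _ _).trans ((Finset.sum_le_sum k1).trans ?_)
  have c : (Finset.Icc (-(N : ℤ)) (N : ℤ)).card = 2 * N + 1 := by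
    rw [Int.card_Icc]
    omega
  rw [Finset.sum_const, c, nsmul_eq_mul]
  have q : (N : ℝ) ≤ (N : ℝ) ^ 2 := by exact_mod_cast Nat.le_self_pow two_ne_zero N
  push_cast
  nlinarith [mul_le_mul_of_nonneg_right q h0.le]

end AvBAux

theorem avB_pf (h1 : TriAStmt) (h2 : TriCStmt) : AvBStmt := by
  intro n p δ hn h0 hδ
  obtain ⟨c1, B, c2⟩ := h2 δ h0 hδ
  refine ⟨⟨B, fun N x => ?_⟩, fun N x => ?_⟩
  · rw [AvBAux.S_av h1 n p h0 hδ]
    exact AvBAux.avg_le hn fun j => (norm_S_le _ N _).trans (c2 N)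
  · rw [AvBAux.S_av h1 n p h0 hδ, ← mul_sub, ← Finset.sum_sub_distrib]
    exact AvBAux.avg_le hn fun j => AvBAux.near h0 c1 N _

end Vale.Agent.P091
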