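import Vale.Agent.P091.Stm

namespace Vale.Agent.P091

open MeasureTheory Real Filter Topology

namespace AvgAux

theorem sum_pair {Z G : Type} [Fintype Z] [DecidableEq Z] [Fintype G] [DecidableEq G]
    [AddCommGroup G] (x y : Z) (hxy : x ≠ y) (g : G → G → ℝ) :
    ((Fintype.card G : ℝ) ^ 2) * ∑ ω : Z → G, g (ω x) (ω y) =
      (Fintype.card (Z → G) : ℝ) * ∑ a : G, ∑ b : G, g a b := by
  have h1 : ∀ a b : G, ∑ ω : Z → G, g (ω x) (ω y) = ∑ ω : Z → G, g (ω x + a) (ω y + b) := by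
    intro a b
    rw [← Equiv.sum_comp (Equiv.addRight (Pi.single x a + Pi.single y b : Z → G))]
    refine Finset.sum_congr rfl (fun ω _ => ?_)
    simp [Pi.single_eq_of_ne hxy, Pi.single_eq_of_ne hxy.symm]
  have h2 : ∀ ω : Z → G, ∑ a : G, ∑ b : G, g (ω x + a) (ω y + b) = ∑ a : G, ∑ b : G, g a b := by
    intro ω
    rw [← Equiv.sum_comp (Equiv.addLeft (ω x)) (fun a => ∑ b : G, g a b)]
    refine Finset.sum_congr rfl (fun a _ => ?_)
    rw [← Equiv.sum_comp (Equiv.addLeft (ω y)) (fun b => g (Equiv.addLeft (ω x) a) b)]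
    rfl
  calc ((Fintype.card G : ℝ) ^ 2) * ∑ ω : Z → G, g (ω x) (ω y)
      = ∑ _a : G, ∑ _b : G, ∑ ω : Z → G, g (ω x) (ω y) := by
        simp only [Finset.sum_const, Finset.card_univ, nsmul_eq_mul]; ring
    _ = ∑ a : G, ∑ b : G, ∑ ω : Z → G, g (ω x + a) (ω y + b) :=
        Finset.sum_congr rfl (fun a _ => Finset.sum_congr rfl (fun b _ => h1 a b))
    _ = ∑ a : G, ∑ ω : Z → G, ∑ b : G, g (ω x + a) (ω y + b) :=
        Finset.sum_congr rfl (fun a _ => Finset.sum_comm)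
    _ = ∑ ω : Z → G, ∑ a : G, ∑ b : G, g (ω x + a) (ω y + b) := Finset.sum_comm
    _ = ∑ _ω : Z → G, ∑ a : G, ∑ b : G, g a b := Finset.sum_congr rfl (fun ω _ => h2 ω)
    _ = _ := by simp only [Finset.sum_const, Finset.card_univ, nsmul_eq_mul]

theorem geo (b : ℕ) : ∑ a ∈ Finset.range (b + 1), (2 : ℝ) ^ a ≤ 2 * 2 ^ b := by
  induction b with
  | zero => simp
  | succ n ih => rw [Finset.sum_range_succ, pow_succ]; linarith

theorem er_sum (m b : ℕ) : ∑ a ∈ Finset.range m, er a b ≤ 2 * π := by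
  have h1 : ∑ a ∈ Finset.range m, er a b
      = ∑ a ∈ (Finset.range m).filter (fun a => a ≤ b), π * 2 ^ a / 2 ^ b := by
    rw [Finset.sum_filter]; rfl
  have h2 : (Finset.range m).filter (fun a => a ≤ b) ⊆ Finset.range (b + 1) := by
    intro a ha
    rw [Finset.mem_filter] at ha
    exact Finset.mem_range.mpr (Nat.lt_succ_of_le ha.2)
  have h3 := Finset.sum_le_sum_of_subset_of_nonneg (f := fun a : ℕ => π * (2 : ℝ) ^ a / 2 ^ b) h2
    (fun a _ _ => by positivity)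
  rw [h1]
  refine h3.trans ?_
  rw [← Finset.sum_div, ← Finset.mul_sum, div_le_iff₀ (by positivity)]
  have := geo b
  have hp := Real.pi_pos
  nlinarith

theorem er_avg {Z : Type} [Fintype Z] [DecidableEq Z] (n : ℕ) (x y : Z) (hxy : x ≠ y) :
    ∑ ω : Z → Fin (n + 1), er (ω x) (ω y) ≤
      (Fintype.card (Z → Fin (n + 1)) : ℝ) * (2 * π / ((n + 1 : ℕ) : ℝ)) := by
  have h := sum_pair x y hxy (fun a b : Fin (n + 1) => er a b)
  have h2 : ∑ a : Fin (n + 1), ∑ b : Fin (n + 1), er a b ≤ ((n + 1 : ℕ) : ℝ) * (2 * π) := by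
    rw [Finset.sum_comm]
    calc ∑ b : Fin (n + 1), ∑ a : Fin (n + 1), er a b ≤ ∑ _b : Fin (n + 1), 2 * π := by
          refine Finset.sum_le_sum (fun b _ => ?_)
          rw [Fin.sum_univ_eq_sum_range (fun a => er a b)]
          exact er_sum _ _
      _ = _ := by simp
  rw [Fintype.card_fin] at h
  have hn : (0 : ℝ) < ((n + 1 : ℕ) : ℝ) := by positivity
  have hc : (0 : ℝ) ≤ (Fintype.card (Z → Fin (n + 1)) : ℝ) := by positivity
  have h3 := mul_le_mul_of_nonneg_left h2 hc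
  rw [← h] at h3
  rw [← mul_div_assoc, le_div_iff₀ hn]
  refine le_of_mul_le_mul_left ?_ hn
  nlinarith

end AvgAux

theorem avg_pf : AvgStmt := by
  classical
  intro m ι T w p q hm hw hpq
  obtain ⟨n, rfl⟩ : ∃ n, m = n + 1 := ⟨m - 1, by omega⟩
  set Z : Finset (ℕ × ℕ) := T.image p ∪ T.image q with hZ
  have hp : ∀ i ∈ T, p i ∈ Z := fun i hi =>
    Finset.mem_union_left _ (Finset.mem_image_of_mem p hi)
  have hq : ∀ i ∈ T, q i ∈ Z := fun i hi =>
    Finset.mem_union_right _ (Finset.mem_image_of_mem q hi)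
  let ex : (Z → Fin (n + 1)) → ℕ × ℕ → ℕ := fun ω z => if h : z ∈ Z then (ω ⟨z, h⟩ : ℕ) else 0
  have hsum : ∑ ω : Z → Fin (n + 1), ∑ i ∈ T, w i * er (ex ω (p i)) (ex ω (q i)) ≤
      ∑ _ω : Z → Fin (n + 1), (2 * π / ((n + 1 : ℕ) : ℝ)) * ∑ i ∈ T, w i := by
    rw [Finset.sum_comm, Finset.sum_const, Finset.card_univ, nsmul_eq_mul, ← mul_assoc,
      Finset.mul_sum]
    refine Finset.sum_le_sum (fun i hi => ?_)
    rw [← Finset.mul_sum, mul_comm]
    refine mul_le_mul_of_nonneg_right ?_ (hw i hi)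
    have := AvgAux.er_avg (Z := Z) n ⟨p i, hp i hi⟩ ⟨q i, hq i hi⟩
      (fun h => hpq i hi (congrArg Subtype.val h))
    refine le_trans (le_of_eq ?_) this
    refine Finset.sum_congr rfl (fun ω _ => ?_)
    simp only [ex, dif_pos (hp i hi), dif_pos (hq i hi)]
  obtain ⟨ω, -, hω⟩ := Finset.exists_le_of_sum_le Finset.univ_nonempty hsum
  refine ⟨ex ω, fun z => ?_, hω⟩
  simp only [ex]
  split_ifs with h
  · exact (ω ⟨z, h⟩).isLt
  · omega

end Vale.Agent.P091
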