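import Vale.Agent.P091.Defs

namespace Vale.Agent.P091

open MeasureTheory Real Filter Topology

theorem coef_shift {f : ℝ → ℂ} (hf : Function.Periodic f (2 * π)) (τ : ℝ) (k : ℤ) :
    coef (fun x => f (x - τ)) k = Complex.exp (-((k : ℂ) * (τ : ℂ) * Complex.I)) * coef f k := by
  unfold coef
  set F : ℝ → ℂ := fun y => f y * Complex.exp (-((k : ℂ) * (y : ℂ) * Complex.I)) with hF
  have hp : Function.Periodic F (2 * π) := by
    intro y
    simp only [hF, hf y]
    congr 1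
    have : -((k : ℂ) * ((y + 2 * π : ℝ) : ℂ) * Complex.I)
        = -((k : ℂ) * (y : ℂ) * Complex.I) + ((-k : ℤ) : ℂ) * (2 * π * Complex.I) := by
      push_cast; ring
    rw [this, Complex.exp_add, Complex.exp_int_mul_two_pi_mul_I, mul_one]
  have h1 : (fun x : ℝ => f (x - τ) * Complex.exp (-((k : ℂ) * (x : ℂ) * Complex.I)))
      = fun x : ℝ => Complex.exp (-((k : ℂ) * (τ : ℂ) * Complex.I)) * F (x - τ) := by
    funext x
    simp only [hF]
    have : -((k : ℂ) * (x : ℂ) * Complex.I)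
        = -((k : ℂ) * (τ : ℂ) * Complex.I) + -((k : ℂ) * ((x - τ : ℝ) : ℂ) * Complex.I) := by
      push_cast; ring
    rw [this, Complex.exp_add]; ring
  rw [h1, intervalIntegral.integral_const_mul, intervalIntegral.integral_comp_sub_right]
  have h2 := hp.intervalIntegral_add_eq (0 - τ) 0
  have h3 : 0 - τ + 2 * π = 2 * π - τ := by ring
  rw [h3, zero_add] at h2
  rw [h2]; ring

theorem S_shift {f : ℝ → ℂ} (hf : Function.Periodic f (2 * π)) (τ : ℝ) (N : ℕ) (x : ℝ) :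
    S (fun x => f (x - τ)) N x = S f N (x - τ) := by
  unfold S
  refine Finset.sum_congr rfl fun k _ => ?_
  rw [coef_shift hf]
  have : (k : ℂ) * ((x - τ : ℝ) : ℂ) * Complex.I
      = -((k : ℂ) * (τ : ℂ) * Complex.I) + (k : ℂ) * (x : ℂ) * Complex.I := by
    push_cast; ring
  rw [this, Complex.exp_add]; ring

theorem S_per (f : ℝ → ℂ) (N : ℕ) (x : ℝ) (m : ℤ) : S f N (x + m * (2 * π)) = S f N x := by
  unfold S
  refine Finset.sum_congr rfl fun k _ => ?_
  have : (k : ℂ) * ((x + m * (2 * π) : ℝ) : ℂ) * Complex.I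
      = (k : ℂ) * (x : ℂ) * Complex.I + ((k * m : ℤ) : ℂ) * (2 * π * Complex.I) := by
    push_cast; ring
  rw [this, Complex.exp_add, Complex.exp_int_mul_two_pi_mul_I, mul_one]

theorem norm_exp_neg (k : ℤ) (x : ℝ) : ‖Complex.exp (-((k : ℂ) * (x : ℂ) * Complex.I))‖ = 1 := by
  have : -((k : ℂ) * (x : ℂ) * Complex.I) = ((-(k * x) : ℝ) : ℂ) * Complex.I := by
    push_cast; ring
  rw [this, Complex.norm_exp_ofReal_mul_I]

theorem norm_exp_pos (k : ℤ) (x : ℝ) : ‖Complex.exp ((k : ℂ) * (x : ℂ) * Complex.I)‖ = 1 := by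
  have : (k : ℂ) * (x : ℂ) * Complex.I = (((k * x) : ℝ) : ℂ) * Complex.I := by
    push_cast; ring
  rw [this, Complex.norm_exp_ofReal_mul_I]

theorem norm_coef_le {h : ℝ → ℝ} (h0 : ∀ x, 0 ≤ h x) (k : ℤ) :
    ‖coef (fun x => (h x : ℂ)) k‖ ≤ (1 / (2 * π)) * ∫ x in (0 : ℝ)..(2 * π), h x := by
  unfold coef
  have hp : (0 : ℝ) ≤ 1 / (2 * π) := by positivity
  rw [norm_mul, Complex.norm_real, Real.norm_of_nonneg hp]
  refine mul_le_mul_of_nonneg_left ?_ hp
  refine (intervalIntegral.norm_integral_le_integral_norm (by positivity)).trans (le_of_eq ?_)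
  congr 1
  funext x
  rw [norm_mul, norm_exp_neg, mul_one, Complex.norm_real, Real.norm_of_nonneg (h0 x)]

theorem coef_smul (c : ℂ) (f : ℝ → ℂ) (k : ℤ) : coef (fun x => c * f x) k = c * coef f k := by
  unfold coef
  simp only [mul_assoc c]
  rw [intervalIntegral.integral_const_mul]; ring

theorem S_smul (c : ℂ) (f : ℝ → ℂ) (N : ℕ) (x : ℝ) : S (fun x => c * f x) N x = c * S f N x := by
  unfold S
  rw [Finset.mul_sum]
  refine Finset.sum_congr rfl fun k _ => ?_
  rw [coef_smul]; ring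

theorem coef_sum {ι : Type} (T : Finset ι) (f : ι → ℝ → ℂ) (hf : ∀ i ∈ T, Continuous (f i))
    (k : ℤ) : coef (fun x => ∑ i ∈ T, f i x) k = ∑ i ∈ T, coef (f i) k := by
  unfold coef
  rw [← Finset.mul_sum]
  congr 1
  simp only [Finset.sum_mul]
  refine intervalIntegral.integral_finset_sum fun i hi => ?_
  have := hf i hi
  exact Continuous.intervalIntegrable (by fun_prop) _ _

theorem norm_S_le (f : ℝ → ℂ) (N : ℕ) (x : ℝ) :
    ‖S f N x‖ ≤ ∑ k ∈ Finset.Icc (-(N : ℤ)) (N : ℤ), ‖coef f k‖ := by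
  unfold S
  refine (norm_sum_le _ _).trans (le_of_eq (Finset.sum_congr rfl fun k _ => ?_))
  rw [norm_mul, norm_exp_pos, mul_one]

theorem norm_S_le_of {f : ℝ → ℂ} {c : ℝ} (hc : ∀ k, ‖coef f k‖ ≤ c) (N : ℕ) (x : ℝ) :
    ‖S f N x‖ ≤ c * (2 * N + 1) := by
  refine (norm_S_le f N x).trans ((Finset.sum_le_sum fun k _ => hc k).trans (le_of_eq ?_))
  rw [Finset.sum_const, Int.card_Icc, nsmul_eq_mul]
  have : ((N : ℤ) + 1 - -(N : ℤ)).toNat = 2 * N + 1 := by omega
  rw [this]; push_cast; ring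

theorem lint_shift {h : ℝ → ENNReal} (hp : Function.Periodic h (2 * π)) (τ : ℝ) :
    ∫⁻ x in Set.Ioc 0 (2 * π), h (x - τ) = ∫⁻ x in Set.Ioc 0 (2 * π), h x := by
  have hT : (0 : ℝ) < 2 * π := by positivity
  have h1 : ∫⁻ x in Set.Ioc 0 (2 * π), h (x - τ) = ∫⁻ x in Set.Ioc (-τ) (-τ + 2 * π), h x := by
    have := (measurePreserving_sub_right (volume : Measure ℝ) τ).setLIntegral_comp_preimage_emb
      (MeasurableEquiv.subRight τ).measurableEmbedding h (Set.Ioc (-τ) (-τ + 2 * π))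
    rw [← this]
    congr 2
    ext x
    simp only [Set.mem_Ioc, Set.mem_preimage]
    constructor <;> rintro ⟨a, b⟩ <;> constructor <;> linarith
  rw [h1]
  have h2 := (isAddFundamentalDomain_Ioc hT (-τ)).setLIntegral_eq (isAddFundamentalDomain_Ioc hT 0)
    h (hp.map_vadd_zmultiples)
  rw [h2, zero_add]

theorem vol_shift {E : Set ℝ} (hm : MeasurableSet E) (hp : ∀ x, x + 2 * π ∈ E ↔ x ∈ E) (τ : ℝ) :
    volume ({x | x - τ ∈ E} ∩ Set.Ioc 0 (2 * π)) = volume (E ∩ Set.Ioc 0 (2 * π)) := by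
  have hper : Function.Periodic (E.indicator (1 : ℝ → ENNReal)) (2 * π) := by
    intro x
    by_cases hx : x ∈ E
    · simp [hx, (hp x).2 hx]
    · simp [hx, mt (hp x).1 hx]
  have h := lint_shift hper τ
  have hm' : MeasurableSet {x : ℝ | x - τ ∈ E} := hm.preimage (by fun_prop : Measurable fun x : ℝ => x - τ)
  have e : (fun x => E.indicator (1 : ℝ → ENNReal) (x - τ))
      = {x : ℝ | x - τ ∈ E}.indicator (1 : ℝ → ENNReal) := by
    funext x
    by_cases hx : x - τ ∈ E <;> simp [Set.indicator, hx]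
  rw [e, lintegral_indicator_one hm', lintegral_indicator_one hm, Measure.restrict_apply hm',
    Measure.restrict_apply hm] at h
  exact h

end Vale.Agent.P091
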