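import Vale.Agent.P091.Stm

namespace Vale.Agent.P091

open MeasureTheory Real Filter Topology

namespace BitsAux

theorem term (e : ℤ) (he : |e| ≤ 1) (a b : ℕ) (P : Prop) [Decidable P] (hP : P → a = b) :
    ∃ (z : ℤ) (x : ℝ), π * e * 2 ^ a / 2 ^ b =
      π * ((if P then e else 0 : ℤ) : ℝ) + 2 * π * z + x ∧ |x| ≤ if P then 0 else er a b := by
  have hb : (0 : ℝ) < 2 ^ b := by positivity
  by_cases h : P
  · refine ⟨0, 0, ?_, by simp [h]⟩
    rw [if_pos h, hP h]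
    field_simp
    simp
  · rw [if_neg h, if_neg h]
    by_cases hab : a ≤ b
    · refine ⟨0, π * e * 2 ^ a / 2 ^ b, by simp, ?_⟩
      have h1 : |(e : ℝ)| ≤ 1 := by exact_mod_cast he
      have h2 : (0 : ℝ) ≤ π * 2 ^ a / 2 ^ b := by positivity
      have h3 : π * e * 2 ^ a / 2 ^ b = e * (π * 2 ^ a / 2 ^ b) := by ring
      rw [er, if_pos hab, h3, abs_mul, abs_of_nonneg h2]
      exact mul_le_of_le_one_left h2 h1
    · obtain ⟨c, rfl⟩ : ∃ c, a = b + 1 + c := ⟨a - (b + 1), by omega⟩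
      refine ⟨e * 2 ^ c, 0, ?_, by simp [er, hab]⟩
      rw [pow_add, pow_add]
      push_cast
      field_simp
      ring

theorem fin (σ : ℂ) (d z : ℤ) (x θ : ℝ)
    (hσ : Complex.exp (((-(π * d) : ℝ) : ℂ) * Complex.I) = σ) (h : θ = π * d + 2 * π * z + x) :
    ‖Complex.exp (((-θ : ℝ) : ℂ) * Complex.I) - σ‖ ≤ |x| := by
  have e : ((-θ : ℝ) : ℂ) * Complex.I = ((-(π * d) : ℝ) : ℂ) * Complex.I +
      ((-z : ℤ) : ℂ) * (2 * π * Complex.I) + Complex.I * ((-x : ℝ) : ℂ) := by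
    rw [h]
    push_cast
    ring
  have h1 : ‖σ‖ = 1 := by rw [← hσ, Complex.norm_exp_ofReal_mul_I]
  rw [e, Complex.exp_add, Complex.exp_add, hσ, Complex.exp_int_mul_two_pi_mul_I, mul_one,
    ← mul_sub_one, norm_mul, h1, one_mul]
  refine Real.norm_exp_I_mul_ofReal_sub_one_le.trans (le_of_eq ?_)
  rw [Real.norm_eq_abs, abs_neg]

theorem bit_abs (k k' j : ℕ) : |(bit k j : ℤ) - (bit k' j : ℤ)| ≤ 1 := by
  have h1 : bit k j < 2 := Nat.mod_lt _ two_pos
  have h2 : bit k' j < 2 := Nat.mod_lt _ two_pos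
  rw [abs_le]
  omega

end BitsAux

open BitsAux in
theorem bits_pf (h : BitsAStmt) : BitsStmt := by
  intro K i0 ω j0 j h0 h1 hne
  have hA := h K j0 j h0 h1 hne
  choose Z X hZ hX using fun k k' : ℕ => term ((bit (k' - 1) j : ℤ) - (bit k' j : ℤ))
    (bit_abs _ _ _) (ω (k, j0 / 2 ^ k)) (ω (k', j / 2 ^ k'))
    ((k, j0 / 2 ^ k) = (k', j / 2 ^ k')) fun e => congrArg ω e
  have hD : ∑ k ∈ Finset.Icc 1 K, ∑ k' ∈ Finset.Icc 1 K,
      (if (k, j0 / 2 ^ k) = (k', j / 2 ^ k') then (bit (k' - 1) j : ℤ) - (bit k' j : ℤ) else 0) =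
      if j < j0 then 0 else 1 := by
    rw [← hA]
    refine Finset.sum_congr rfl fun k hk => ?_
    rw [Finset.sum_eq_single k]
    · simp only [Prod.mk.injEq, true_and]
    · intro b _ hb
      exact if_neg fun e => hb (congrArg Prod.fst e).symm
    · intro h2
      exact absurd hk h2
  have hθ : 2 * π * (MM K i0 ω j0 : ℝ) * ss K i0 ω j =
      π * ((if j < j0 then 0 else 1 : ℤ) : ℝ) +
        2 * π * ((∑ k ∈ Finset.Icc 1 K, ∑ k' ∈ Finset.Icc 1 K, Z k k' : ℤ) : ℝ) +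
        ∑ k ∈ Finset.Icc 1 K, ∑ k' ∈ Finset.Icc 1 K, X k k' := by
    have e1 : 2 * π * (MM K i0 ω j0 : ℝ) * ss K i0 ω j =
        π * ((∑ k ∈ Finset.Icc 1 K, (2 : ℝ) ^ (i0 + ω (k, j0 / 2 ^ k))) *
          ∑ k' ∈ Finset.Icc 1 K,
            ((bit (k' - 1) j : ℝ) - (bit k' j : ℝ)) / 2 ^ (i0 + ω (k', j / 2 ^ k'))) := by
      rw [MM, ss]
      push_cast
      ring
    rw [e1, ← hD, Finset.sum_mul_sum, Int.cast_sum, Int.cast_sum, Finset.mul_sum, Finset.mul_sum,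
      Finset.mul_sum, ← Finset.sum_add_distrib, ← Finset.sum_add_distrib]
    refine Finset.sum_congr rfl fun k _ => ?_
    rw [Int.cast_sum, Int.cast_sum, Finset.mul_sum, Finset.mul_sum, Finset.mul_sum,
      ← Finset.sum_add_distrib, ← Finset.sum_add_distrib]
    refine Finset.sum_congr rfl fun k' _ => ?_
    rw [← hZ k k', pow_add, pow_add]
    push_cast
    field_simp
  have hσ : Complex.exp (((-(π * ((if j < j0 then 0 else 1 : ℤ) : ℝ)) : ℝ) : ℂ) * Complex.I) =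
      sg j0 j := by
    unfold sg
    split_ifs
    · simp
    · simp [Complex.exp_neg]
  refine (fin _ _ _ _ _ hσ hθ).trans ((Finset.abs_sum_le_sum_abs _ _).trans
    (Finset.sum_le_sum fun k _ => (Finset.abs_sum_le_sum_abs _ _).trans
      (Finset.sum_le_sum fun k' _ => hX k k')))

end Vale.Agent.P091
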