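import Vale.Agent.P091.Stm

/-! P091: the telescoping sum of binary digits. -/

namespace Vale.Agent.P091

namespace BitsAAux

theorem gen (j0 j : ℕ) (h : j ≠ j0) (K : ℕ) :
    (∑ k ∈ Finset.Icc 1 K,
      if j0 / 2 ^ k = j / 2 ^ k then ((bit (k - 1) j : ℤ) - (bit k j : ℤ)) else 0)
      = if j0 / 2 ^ K = j / 2 ^ K then (if j < j0 then 0 else 1) - (bit K j : ℤ) else 0 := by
  induction K with
  | zero => simp [h.symm]
  | succ K ih =>
    rw [Finset.sum_Icc_succ_top (by omega), ih, Nat.add_sub_cancel]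
    have e1 : j / 2 ^ (K + 1) = j / 2 ^ K / 2 := by rw [pow_succ, Nat.div_div_eq_div_mul]
    have e2 : j0 / 2 ^ (K + 1) = j0 / 2 ^ K / 2 := by rw [pow_succ, Nat.div_div_eq_div_mul]
    have o1 : j ≤ j0 → j / 2 ^ K ≤ j0 / 2 ^ K := fun q => Nat.div_le_div_right q
    have o2 : j0 ≤ j → j0 / 2 ^ K ≤ j / 2 ^ K := fun q => Nat.div_le_div_right q
    simp only [bit, e1, e2]
    generalize j / 2 ^ K = a at *
    generalize j0 / 2 ^ K = b at *
    split_ifs <;> omega

end BitsAAux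

theorem bitsA_pf : BitsAStmt := by
  intro K j0 j h0 h1 h
  rw [BitsAAux.gen j0 j h K]
  simp [bit, Nat.div_eq_of_lt h0, Nat.div_eq_of_lt h1]

end Vale.Agent.P091
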