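import Vale.Agent.P091.StmE

namespace Vale.Agent.P091

open MeasureTheory Real Filter Topology

namespace CancAux

noncomputable def H (N : ℕ) : ℝ := ∑ d ∈ Finset.range N, 1 / ((d : ℝ) + 1)

lemma term_le (D e : ℝ) (hD : 1 ≤ D) (he : |e| ≤ 51 / 100) :
    |1 / (D + e) - 1 / D| ≤ (51 / 49) * (1 / D ^ 2) := by
  obtain ⟨h1, h2⟩ := abs_le.mp he
  have hD0 : 0 < D := by linarith
  have hp : 0 < D + e := by linarith
  have e1 : 1 / (D + e) - 1 / D = -e / (D * (D + e)) := by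
    field_simp
    ring
  rw [e1, abs_div, abs_neg, abs_of_pos (mul_pos hD0 hp), div_le_iff₀ (mul_pos hD0 hp)]
  have e2 : (51 / 49) * (1 / D ^ 2) * (D * (D + e)) = (51 / 49) * ((D + e) / D) := by
    field_simp
  rw [e2]
  have h3 : 49 / 100 ≤ (D + e) / D := by
    rw [le_div_iff₀ hD0]
    linarith
  linarith

lemma sq_sum (N : ℕ) :
    ∑ d ∈ Finset.range N, 1 / ((d : ℝ) + 1) ^ 2 ≤ 2 - 2 / (2 * (N : ℝ) + 1) := by
  induction N with
  | zero => simp
  | succ N ih =>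
    rw [Finset.sum_range_succ]
    have hN : (0 : ℝ) ≤ N := Nat.cast_nonneg N
    have h : 1 / ((N : ℝ) + 1) ^ 2 ≤ 2 / (2 * (N : ℝ) + 1) - 2 / (2 * ((N : ℝ) + 1) + 1) := by
      have e : 2 / (2 * (N : ℝ) + 1) - 2 / (2 * ((N : ℝ) + 1) + 1)
          = 1 / (((N : ℝ) + 1) ^ 2 - 1 / 4) := by
        have h1 : ((N : ℝ) + 1) ^ 2 - 1 / 4 ≠ 0 := by nlinarith
        have h2 : 2 * (N : ℝ) + 1 ≠ 0 := by positivity
        have h3 : 2 * ((N : ℝ) + 1) + 1 ≠ 0 := by positivity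
        rw [div_sub_div _ _ h2 h3, div_eq_div_iff (mul_ne_zero h2 h3) h1]
        ring
      rw [e]
      apply one_div_le_one_div_of_le
      · nlinarith
      · linarith
    push_cast
    linarith

lemma near (N : ℕ) (e : ℕ → ℝ) (he : ∀ j, |e j| ≤ 51 / 100) :
    |∑ d ∈ Finset.range N, 1 / ((d : ℝ) + 1 + e d) - H N| ≤ 3 := by
  unfold H
  rw [← Finset.sum_sub_distrib]
  refine (Finset.abs_sum_le_sum_abs _ _).trans ?_
  have h1 : ∑ d ∈ Finset.range N, |1 / ((d : ℝ) + 1 + e d) - 1 / ((d : ℝ) + 1)|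
      ≤ ∑ d ∈ Finset.range N, (51 / 49) * (1 / ((d : ℝ) + 1) ^ 2) := by
    refine Finset.sum_le_sum fun d _ => term_le _ _ ?_ (he d)
    have : (0 : ℝ) ≤ d := Nat.cast_nonneg d
    linarith
  rw [← Finset.mul_sum] at h1
  have h2 := sq_sum N
  have h3 : 0 ≤ 2 / (2 * (N : ℝ) + 1) := by positivity
  linarith

lemma H_diff (p q : ℕ) (h : p ≤ q) :
    0 ≤ H q - H p ∧ H q - H p ≤ ((q : ℝ) - p) / ((p : ℝ) + 1) := by
  induction q, h using Nat.le_induction with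
  | base => simp
  | succ q hq ih =>
    have e : H (q + 1) = H q + 1 / ((q : ℝ) + 1) := Finset.sum_range_succ _ _
    have hpq : (p : ℝ) ≤ q := by exact_mod_cast hq
    have hp0 : (0 : ℝ) ≤ p := Nat.cast_nonneg p
    have h1 : 0 ≤ 1 / ((q : ℝ) + 1) := by positivity
    have h2 : 1 / ((q : ℝ) + 1) ≤ 1 / ((p : ℝ) + 1) :=
      one_div_le_one_div_of_le (by positivity) (by linarith)
    have h3 : (((q + 1 : ℕ) : ℝ) - p) / ((p : ℝ) + 1)
        = ((q : ℝ) - p) / ((p : ℝ) + 1) + 1 / ((p : ℝ) + 1) := by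
      push_cast
      ring
    rw [e, h3]
    constructor <;> linarith [ih.1, ih.2]

lemma H_close (p q : ℕ) (h : p ≤ q) (h4 : q ≤ 4 * p + 3) : |H q - H p| ≤ 3 := by
  obtain ⟨h1, h2⟩ := H_diff p q h
  rw [abs_of_nonneg h1]
  refine h2.trans ?_
  have hp0 : (0 : ℝ) ≤ p := Nat.cast_nonneg p
  rw [div_le_iff₀ (by positivity)]
  have : (q : ℝ) ≤ 4 * p + 3 := by exact_mod_cast h4
  linarith

lemma split (a b : ℕ) (F : ℕ → ℝ) :
    ∑ j ∈ (Finset.range (a + 1 + b)).erase a, F j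
      = ∑ d ∈ Finset.range a, F (a - 1 - d) + ∑ d ∈ Finset.range b, F (a + 1 + d) := by
  have h1 : a ∈ Finset.range (a + 1 + b) := Finset.mem_range.mpr (by omega)
  have h2 := Finset.add_sum_erase (Finset.range (a + 1 + b)) F h1
  rw [Finset.sum_range_add, Finset.sum_range_succ] at h2
  rw [Finset.sum_range_reflect F a]
  linarith

end CancAux

open CancAux in
theorem canc_pf : CancStmt := by
  intro K j0 e _ h1 h2 he
  have hpos : 0 < 2 ^ K := Nat.two_pow_pos K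
  obtain ⟨b, hb⟩ : ∃ b, 2 ^ K = j0 + 1 + b := ⟨2 ^ K - j0 - 1, by omega⟩
  rw [hb, split]
  have e1 : ∑ d ∈ Finset.range j0, 1 / ((j0 : ℝ) - ((j0 - 1 - d : ℕ) : ℝ) + e (j0 - 1 - d))
      = ∑ d ∈ Finset.range j0, 1 / ((d : ℝ) + 1 + e (j0 - 1 - d)) := by
    refine Finset.sum_congr rfl fun d hd => ?_
    have hd' : d < j0 := Finset.mem_range.mp hd
    have : ((j0 - 1 - d : ℕ) : ℝ) = (j0 : ℝ) - 1 - d := by
      have h3 : j0 - 1 - d + (d + 1) = j0 := by omega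
      have h4 : ((j0 - 1 - d : ℕ) : ℝ) + ((d : ℝ) + 1) = j0 := by exact_mod_cast h3
      linarith
    rw [this]
    congr 1
    ring
  have e2 : ∑ d ∈ Finset.range b, 1 / ((j0 : ℝ) - ((j0 + 1 + d : ℕ) : ℝ) + e (j0 + 1 + d))
      = -∑ d ∈ Finset.range b, 1 / ((d : ℝ) + 1 + -e (j0 + 1 + d)) := by
    rw [← Finset.sum_neg_distrib]
    refine Finset.sum_congr rfl fun d _ => ?_
    rw [← div_neg]
    congr 1
    push_cast
    ring
  rw [e1, e2]
  have n1 := near j0 (fun d => e (j0 - 1 - d)) (fun d => he _)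
  have n2 := near b (fun d => -e (j0 + 1 + d)) (fun d => by rw [abs_neg]; exact he _)
  have n3 : |H j0 - H b| ≤ 3 := by
    rcases le_total j0 b with h | h
    · rw [abs_sub_comm]
      exact H_close j0 b h (by omega)
    · exact H_close b j0 h (by omega)
  obtain ⟨a1, a2⟩ := abs_le.mp n1
  obtain ⟨b1, b2⟩ := abs_le.mp n2
  obtain ⟨c1, c2⟩ := abs_le.mp n3
  rw [abs_le]
  constructor <;> linarith

end Vale.Agent.P091
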