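import Vale.Agent.P091.StmE

namespace Vale.Agent.P091

open MeasureTheory Real Filter Topology

namespace ColAux

theorem geoA (m : ℕ) : ∀ k : ℕ,
    ∑ v ∈ Finset.range m, (1 / 2 : ℝ) ^ Nat.dist v (m + k) ≤ (1 / 2) ^ k := by
  induction m with
  | zero => intro k; simp
  | succ m ih =>
    intro k
    have h := ih (k + 1)
    have e : Nat.dist m (m + (k + 1)) = k + 1 := by unfold Nat.dist; omega
    rw [Finset.sum_range_succ, show m + 1 + k = m + (k + 1) by ring, e]
    rw [pow_succ] at h ⊢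
    linarith

theorem geoB (u k : ℕ) :
    ∑ v ∈ Finset.range (u + k), (1 / 2 : ℝ) ^ Nat.dist v u ≤ 3 - 2 * (1 / 2) ^ k := by
  induction k with
  | zero =>
    have h := geoA u 0
    simp only [add_zero, pow_zero] at h ⊢
    linarith
  | succ k ih =>
    have e : Nat.dist (u + k) u = k := by unfold Nat.dist; omega
    rw [← add_assoc, Finset.sum_range_succ, e, pow_succ]
    linarith

theorem geo (m u : ℕ) : ∑ v ∈ Finset.range m, (1 / 2 : ℝ) ^ Nat.dist v u ≤ 3 := by
  rcases le_total m u with h | h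
  · obtain ⟨k, rfl⟩ := Nat.exists_eq_add_of_le h
    have h1 : (1 / 2 : ℝ) ^ k ≤ 1 := pow_le_one₀ (by norm_num) (by norm_num)
    linarith [geoA m k]
  · obtain ⟨k, rfl⟩ := Nat.exists_eq_add_of_le h
    have h1 : 0 ≤ (1 / 2 : ℝ) ^ k := by positivity
    linarith [geoB u k]

theorem split (T : Finset ℕ) (F : ℕ → ℕ → ℝ) (hF : ∀ x y, F x y = F y x) {a : ℕ} (ha : a ∈ T) :
    ∑ x ∈ T, ∑ y ∈ T.erase x, F x y =
      2 * ∑ b ∈ T.erase a, F a b + ∑ x ∈ T.erase a, ∑ y ∈ (T.erase a).erase x, F x y := by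
  rw [← Finset.add_sum_erase T (fun x => ∑ y ∈ T.erase x, F x y) ha, two_mul, add_assoc,
    add_right_inj, ← Finset.sum_add_distrib]
  refine Finset.sum_congr rfl fun x hx => ?_
  rw [← Finset.add_sum_erase (T.erase x) (F x)
    (Finset.mem_erase.2 ⟨(Finset.ne_of_mem_erase hx).symm, ha⟩), hF x a,
    Finset.erase_right_comm]

/-- total interaction -/
noncomputable def en (T : Finset ℕ) (w : ℕ → ℕ → ℝ) (c : ℕ → ℕ) : ℝ :=
  ∑ x ∈ T, ∑ y ∈ T.erase x, w x y * (1 / 2) ^ Nat.dist (c x) (c y)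

theorem exmin (m : ℕ) (T : Finset ℕ) (w : ℕ → ℕ → ℝ) (hm : 1 ≤ m) :
    ∃ c : ℕ → ℕ, (∀ a, c a < m) ∧ ∀ c' : ℕ → ℕ, (∀ a, c' a < m) → en T w c ≤ en T w c' := by
  have : Nonempty (T → Fin m) := ⟨fun _ => ⟨0, hm⟩⟩
  obtain ⟨d, hd⟩ := Finite.exists_min fun d : T → Fin m =>
    en T w fun a => if h : a ∈ T then d ⟨a, h⟩ else 0
  refine ⟨fun a => if h : a ∈ T then d ⟨a, h⟩ else 0, fun a => ?_, fun c' hc' => ?_⟩
  · dsimp only
    split_ifs with h
    · exact (d ⟨a, h⟩).2
    · exact hm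
  · refine (hd fun a => ⟨c' a, hc' a⟩).trans (le_of_eq ?_)
    refine Finset.sum_congr rfl fun x hx => Finset.sum_congr rfl fun y hy => ?_
    simp only [dif_pos hx, dif_pos (Finset.mem_of_mem_erase hy)]

end ColAux

open ColAux

theorem col_pf : ColStmt := by
  intro m T w hm h0 hs
  obtain ⟨c, hc, hmin⟩ := exmin m T w hm
  refine ⟨c, hc, fun a ha => ?_⟩
  have hv : ∀ v ∈ Finset.range m, ∑ b ∈ T.erase a, w a b * (1 / 2) ^ Nat.dist (c a) (c b) ≤
      ∑ b ∈ T.erase a, w a b * (1 / 2) ^ Nat.dist v (c b) := by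
    intro v hv
    have h := hmin (Function.update c a v) fun x => by
      rcases eq_or_ne x a with rfl | hx
      · rw [Function.update_self]; exact Finset.mem_range.1 hv
      · rw [Function.update_of_ne hx]; exact hc x
    unfold en at h
    rw [split T _ (fun x y => by rw [hs, Nat.dist_comm]) ha,
      split T _ (fun x y => by rw [hs, Nat.dist_comm]) ha] at h
    have e1 : ∑ b ∈ T.erase a, w a b * (1 / 2 : ℝ) ^
        Nat.dist (Function.update c a v a) (Function.update c a v b) =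
        ∑ b ∈ T.erase a, w a b * (1 / 2) ^ Nat.dist v (c b) :=
      Finset.sum_congr rfl fun b hb => by
        rw [Function.update_self, Function.update_of_ne (Finset.ne_of_mem_erase hb)]
    have e2 : ∑ x ∈ T.erase a, ∑ y ∈ (T.erase a).erase x, w x y * (1 / 2 : ℝ) ^
        Nat.dist (Function.update c a v x) (Function.update c a v y) =
        ∑ x ∈ T.erase a, ∑ y ∈ (T.erase a).erase x, w x y * (1 / 2) ^ Nat.dist (c x) (c y) :=
      Finset.sum_congr rfl fun x hx => Finset.sum_congr rfl fun y hy => by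
        rw [Function.update_of_ne (Finset.ne_of_mem_erase hx),
          Function.update_of_ne (Finset.ne_of_mem_erase (Finset.mem_of_mem_erase hy))]
    rw [e1, e2] at h
    linarith
  have h1 := Finset.sum_le_sum hv
  rw [Finset.sum_const, Finset.card_range, nsmul_eq_mul, Finset.sum_comm] at h1
  have h2 : ∑ b ∈ T.erase a, ∑ v ∈ Finset.range m, w a b * (1 / 2 : ℝ) ^ Nat.dist v (c b) ≤
      3 * ∑ b ∈ T.erase a, w a b := by
    rw [Finset.mul_sum]
    refine Finset.sum_le_sum fun b _ => ?_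
    rw [← Finset.mul_sum, mul_comm]
    exact mul_le_mul_of_nonneg_right (geo m (c b)) (h0 a b)
  have hm' : (0 : ℝ) < m := by exact_mod_cast hm
  rw [div_mul_eq_mul_div, le_div_iff₀ hm', mul_comm]
  exact h1.trans h2

end Vale.Agent.P091
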