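import Vale.Agent.P091.Stm

/-! The Dirichlet kernel. -/

namespace Vale.Agent.P091

open MeasureTheory Real Filter Topology

namespace DirAux

theorem step (N : ℕ) (u : ℝ) :
    Dk (N + 1) u = Dk N u + ((2 * Real.cos ((N + 1) * u) : ℝ) : ℂ) := by
  have e : Finset.Icc (-((N + 1 : ℕ) : ℤ)) ((N + 1 : ℕ) : ℤ) =
      insert (-((N : ℤ) + 1)) (insert ((N : ℤ) + 1) (Finset.Icc (-(N : ℤ)) (N : ℤ))) := by
    ext k
    simp only [Finset.mem_Icc, Finset.mem_insert]
    omega
  unfold Dk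
  rw [e, Finset.sum_insert (by simp only [Finset.mem_Icc, Finset.mem_insert]; omega),
    Finset.sum_insert (by simp only [Finset.mem_Icc]; omega)]
  push_cast
  rw [Complex.two_cos, ← neg_mul]
  ring

theorem closed (N : ℕ) (v : ℝ) :
    (Real.sin v : ℂ) * Dk N (2 * v) = (Real.sin (N * (2 * v) + v) : ℝ) := by
  induction N with
  | zero => simp [Dk]
  | succ N ih =>
    rw [step, mul_add, ih, ← Complex.ofReal_mul, ← Complex.ofReal_add, Complex.ofReal_inj,
      show (N : ℝ) * (2 * v) + v = (N + 1) * (2 * v) - v by ring, Nat.cast_succ, Real.sin_add,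
      Real.sin_sub]
    ring

theorem cot {v : ℝ} (h : |v| ≤ π / 2) : |v * Real.cos v - Real.sin v| ≤ 2 * (|v| * |Real.sin v|) := by
  have h0 := abs_nonneg v
  have h1 := Real.mul_abs_le_abs_sin h
  have hp := Real.pi_lt_d2
  have h2 : 3 / 5 ≤ 2 / π := by
    rw [le_div_iff₀ Real.pi_pos]
    linarith
  have h3 : 3 / 5 * |v| ≤ |Real.sin v| := (mul_le_mul_of_nonneg_right h2 h0).trans h1
  have h4 := Real.abs_sub_sin_le v
  have h5 : |Real.cos v - 1| ≤ |v| ^ 2 / 2 := by
    rw [abs_of_nonpos (sub_nonpos.2 (Real.cos_le_one v)), sq_abs]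
    linarith [Real.one_sub_sq_div_two_le_cos (x := v)]
  have h6 : |v * Real.cos v - Real.sin v| ≤ |v| * |Real.cos v - 1| + |v - Real.sin v| := by
    rw [← abs_mul, show v * Real.cos v - Real.sin v = v * (Real.cos v - 1) + (v - Real.sin v) by ring]
    exact abs_add_le _ _
  have h7 := mul_le_mul_of_nonneg_left h5 h0
  have h8 := mul_le_mul_of_nonneg_left h3 h0
  have h9 : |v| ^ 2 * |v| ≤ |v| ^ 2 * (8 / 5) :=
    mul_le_mul_of_nonneg_left (by linarith) (by positivity)
  nlinarith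

end DirAux

theorem dir_pf : DirStmt := by
  intro N u hu hπ
  obtain ⟨v, rfl⟩ : ∃ v, u = 2 * v := ⟨u / 2, by ring⟩
  have hv : v ≠ 0 := fun e => hu (by simp [e])
  have h1 : |v| ≤ π / 2 := by
    rw [abs_mul, abs_two] at hπ
    linarith
  have h2 : 0 < |Real.sin v| :=
    (mul_pos (by positivity) (abs_pos.2 hv)).trans_le (Real.mul_abs_le_abs_sin h1)
  have h3 : Real.sin v ≠ 0 := abs_pos.1 h2
  have e : Dk N (2 * v) = ((Real.sin (N * (2 * v) + v) / Real.sin v : ℝ) : ℂ) := by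
    rw [Complex.ofReal_div, ← DirAux.closed, mul_div_cancel_left₀ _ (Complex.ofReal_ne_zero.2 h3)]
  rw [e, ← Complex.ofReal_sub, Complex.norm_real, Real.norm_eq_abs, Real.sin_add]
  have e2 : (Real.sin (N * (2 * v)) * Real.cos v + Real.cos (N * (2 * v)) * Real.sin v) / Real.sin v -
      2 * Real.sin (N * (2 * v)) / (2 * v) = Real.sin (N * (2 * v)) *
        ((v * Real.cos v - Real.sin v) / (v * Real.sin v)) + Real.cos (N * (2 * v)) := by
    field_simp
    ring
  have h4 : |(v * Real.cos v - Real.sin v) / (v * Real.sin v)| ≤ 2 := by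
    rw [abs_div, abs_mul, div_le_iff₀ (mul_pos (abs_pos.2 hv) h2)]
    exact DirAux.cot h1
  rw [e2]
  refine (abs_add_le _ _).trans ?_
  rw [abs_mul]
  have h5 := mul_le_mul (Real.abs_sin_le_one (N * (2 * v))) h4 (abs_nonneg _) zero_le_one
  linarith [Real.abs_cos_le_one (N * (2 * v))]

end Vale.Agent.P091
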