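import Vale.Agent.P091.Stm

namespace Vale.Agent.P091

open MeasureTheory Real Filter Topology

namespace FinA1Aux

theorem gen {μ : Measure ℝ} (u : ℕ → ℝ → ℝ) (hm : ∀ r, Measurable (u r))
    (hi : ∀ r, Integrable (u r) μ) (h0 : ∀ r x, 0 ≤ u r x)
    (hs : Summable fun r => ∫ x, u r x ∂μ) :
    Integrable (fun x => (∑' r, ENNReal.ofReal (u r x)).toReal) μ ∧
    ∀ᵐ x ∂μ, HasSum (fun r => u r x) (∑' r, ENNReal.ofReal (u r x)).toReal := by
  have hmm : ∀ r, Measurable fun x => ENNReal.ofReal (u r x) := fun r => (hm r).ennreal_ofReal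
  have hM : Measurable fun x => ∑' r, ENNReal.ofReal (u r x) := Measurable.tsum hmm
  have hfin : ∫⁻ x, ∑' r, ENNReal.ofReal (u r x) ∂μ ≠ ⊤ := by
    rw [lintegral_tsum fun r => (hmm r).aemeasurable]
    have e : ∀ r, ∫⁻ x, ENNReal.ofReal (u r x) ∂μ = ENNReal.ofReal (∫ x, u r x ∂μ) := fun r =>
      (ofReal_integral_eq_lintegral_ofReal (hi r) (Eventually.of_forall (h0 r))).symm
    simp only [e]
    rw [← ENNReal.ofReal_tsum_of_nonneg (fun r => integral_nonneg (h0 r)) hs]
    exact ENNReal.ofReal_ne_top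
  refine ⟨integrable_toReal_of_lintegral_ne_top hM.aemeasurable hfin, ?_⟩
  filter_upwards [ae_lt_top hM hfin] with x hx
  have h1 := ENNReal.hasSum_toReal hx.ne
  have h2 : ∀ r, (ENNReal.ofReal (u r x)).toReal = u r x := fun r => ENNReal.toReal_ofReal (h0 r x)
  rw [ENNReal.tsum_toReal_eq (fun r => ENNReal.ofReal_ne_top)]
  simp only [h2] at h1 ⊢
  exact h1

end FinA1Aux

theorem finA1_pf : FinA1Stmt := by
  intro φ P η τ hC
  have hT : (0 : ℝ) ≤ 2 * π := by positivity
  set u : ℕ → ℝ → ℝ := fun r x => (P r).h (x - τ r) with hu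
  have hc : ∀ r, Continuous (u r) := fun r =>
    (hC r).2.2.2.1.1.comp (continuous_id.sub continuous_const)
  have hp : ∀ r, Function.Periodic (P r).h (2 * π) := fun r => (hC r).2.2.2.1.2.1
  have h0 : ∀ r x, 0 ≤ u r x := fun r x => (hC r).2.2.2.1.2.2.1 _
  set μ : Measure ℝ := volume.restrict (Set.Ioc 0 (2 * π)) with hμ
  have hi : ∀ r, Integrable (u r) μ := fun r => ((hc r).intervalIntegrable 0 (2 * π)).1
  have hle : ∀ r, ∫ x, u r x ∂μ ≤ (1 / 2) ^ r := by
    intro r
    have e1 : ∫ x, u r x ∂μ = ∫ x in (0 : ℝ)..(2 * π), (P r).h (x - τ r) :=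
      (intervalIntegral.integral_of_le hT).symm
    rw [e1, intervalIntegral.integral_comp_sub_right]
    have e2 := (hp r).intervalIntegral_add_eq (0 - τ r) 0
    have e3 : 0 - τ r + 2 * π = 2 * π - τ r := by ring
    rw [e3, zero_add] at e2
    rw [e2]
    exact (hC r).2.2.2.2.1.1.trans (hC r).2.1
  have hs : Summable fun r => ∫ x, u r x ∂μ :=
    Summable.of_nonneg_of_le (fun r => integral_nonneg (h0 r)) hle summable_geometric_two
  obtain ⟨hI, hH⟩ := FinA1Aux.gen u (fun r => (hc r).measurable) hi h0 hs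
  refine ⟨?_, ?_, ?_, ?_⟩
  · exact (Measurable.tsum fun r => (hc r).measurable.ennreal_ofReal).ennreal_toReal
  · intro x
    unfold ff
    congr 2
    funext r
    rw [show x + 2 * π - τ r = (x - τ r) + 2 * π by ring, hp r]
  · rw [intervalIntegrable_iff_integrableOn_Ioc_of_le hT]
    exact hI.ofReal
  · intro k
    unfold coef
    refine HasSum.mul_left _ ?_
    simp only [intervalIntegral.integral_of_le hT]
    set F : ℕ → ℝ → ℂ := fun r x =>
      (u r x : ℂ) * Complex.exp (-((k : ℂ) * (x : ℂ) * Complex.I)) with hF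
    have hFc : ∀ r, Continuous (F r) := by
      intro r
      have := hc r
      simp only [hF]
      fun_prop
    have hFi : ∀ r, Integrable (F r) μ := fun r => ((hFc r).intervalIntegrable 0 (2 * π)).1
    have hn : ∀ r x, ‖F r x‖ = u r x := by
      intro r x
      simp only [hF]
      rw [norm_mul, norm_exp_neg, mul_one, Complex.norm_real, Real.norm_of_nonneg (h0 r x)]
    have hS := hasSum_integral_of_summable_integral_norm hFi (by simpa only [hn] using hs)
    have e : ∫ x, ∑' r, F r x ∂μ =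
        ∫ x, (ff P τ x : ℂ) * Complex.exp (-((k : ℂ) * (x : ℂ) * Complex.I)) ∂μ := by
      refine integral_congr_ae ?_
      filter_upwards [hH] with x hx
      exact ((Complex.hasSum_ofReal.2 hx).mul_right _).tsum_eq
    rw [e] at hS
    exact hS

end Vale.Agent.P091
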