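import Vale.Agent.P091.Stm

namespace Vale.Agent.P091

open MeasureTheory Real Filter Topology

namespace FinA2Aux

theorem tail {φ : ℝ → ℝ} {P : ℕ → Pack} {η : ℕ → ℝ} (hc : Chain φ P η) {r s N : ℕ} (hs : r < s)
    (hN : N ≤ (P r).Nm) (y : ℝ) : ‖S (fun x => ((P s).h x : ℂ)) N y‖ ≤ (1 / 2) ^ s := by
  obtain ⟨h1, -, h3, h4, h5, -⟩ := hc s
  have a1 : (1 : ℝ) / (2 * π) ≤ 1 := by
    rw [div_le_one (by positivity)]
    linarith [pi_gt_three]
  have a2 : ∀ k, ‖coef (fun x => ((P s).h x : ℂ)) k‖ ≤ η s := fun k =>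
    (norm_coef_le h4.2.2.1 k).trans ((mul_le_mul_of_nonneg_left h5.1 (by positivity)).trans
      (mul_le_of_le_one_left h1.le a1))
  refine (norm_S_le_of a2 N y).trans (le_trans ?_ (h3 r hs))
  have a3 : (N : ℝ) ≤ (P r).Nm := by exact_mod_cast hN
  exact mul_le_mul_of_nonneg_left (by linarith) h1.le

end FinA2Aux

theorem finA2_pf (h : FinA1Stmt) : FinA2Stmt := by
  rintro φ P η τ hc x hx ⟨C, hC⟩
  obtain ⟨r, hr, hG⟩ := frequently_atTop.1 hx (⌈C⌉₊ + 1)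
  obtain ⟨N, hN, hB⟩ := (hc r).2.2.2.2.2.2 _ hG
  have hs : HasSum (fun s => S (fun y => ((P s).h y : ℂ)) N (x - τ s))
      (S (fun x => (ff P τ x : ℂ)) N x) := by
    have e : ∀ s, S (fun y => ((P s).h y : ℂ)) N (x - τ s) =
        S (fun y => ((P s).h (y - τ s) : ℂ)) N x := fun s =>
      (S_shift (f := fun y => ((P s).h y : ℂ))
        (fun y => by simp only [(hc s).2.2.2.1.2.1 y]) (τ s) N x).symm
    simp only [e]
    unfold S
    exact hasSum_sum fun k _ => ((h φ P η τ hc).2.2.2 k).mul_right _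
  have e := hs.summable.sum_add_tsum_nat_add (r + 1)
  rw [hs.tsum_eq, Finset.sum_range_succ] at e
  have b1 : ‖∑ s ∈ Finset.range r, S (fun y => ((P s).h y : ℂ)) N (x - τ s)‖ ≤
      ∑ s ∈ Finset.range r, (P s).B :=
    norm_sum_le_of_le _ fun s _ => (hc s).2.2.2.1.2.2.2.2.1 N _
  have b2 : ‖∑' s, S (fun y => ((P (s + (r + 1))).h y : ℂ)) N (x - τ (s + (r + 1)))‖ ≤ 1 := by
    have g := hasSum_geometric_two.mul_left (1 / 2 : ℝ)
    rw [show (1 / 2 : ℝ) * 2 = 1 by norm_num] at g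
    refine tsum_of_norm_bounded g fun s => (FinA2Aux.tail hc (by omega) hN _).trans ?_
    rw [← pow_succ']
    exact pow_le_pow_of_le_one (by norm_num) (by norm_num) (by omega)
  have b3 : ‖S (fun x => (ff P τ x : ℂ)) N x‖ ≤ C := hC ⟨N, rfl⟩
  have b4 : C + 1 ≤ r := by
    have : ((⌈C⌉₊ + 1 : ℕ) : ℝ) ≤ r := by exact_mod_cast hr
    push_cast at this
    linarith [Nat.le_ceil C]
  generalize ∑ s ∈ Finset.range r, S (fun y => ((P s).h y : ℂ)) N (x - τ s) = a at e b1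
  generalize ∑' s, S (fun y => ((P (s + (r + 1))).h y : ℂ)) N (x - τ (s + (r + 1))) = c at e b2
  generalize S (fun y => ((P r).h y : ℂ)) N (x - τ r) = b at e hB
  rw [← e] at b3
  have b5 : ‖b‖ ≤ ‖a + b + c‖ + ‖a‖ + ‖c‖ := by
    calc ‖b‖ = ‖a + b + c - a - c‖ := by congr 1; ring
      _ ≤ _ := (norm_sub_le _ _).trans (add_le_add_left (norm_sub_le _ _) _)
  linarith

end Vale.Agent.P091
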