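import Vale.Agent.P091.Stm

namespace Vale.Agent.P091

open MeasureTheory Real Filter Topology

namespace FinBAux

theorem meas_term (φ : ℝ → ℝ) (hφ : MonotoneOn φ (Set.Ici 0)) (h : ℝ → ℝ) (hc : Continuous h)
    (h0 : ∀ x, 0 ≤ h x) (F : ℝ) (hF : 0 ≤ F) :
    Measurable (fun y => ENNReal.ofReal (φ (F + h y))) := by
  have hm : Monotone (fun u : ℝ => φ (max u 0)) := by
    intro u v huv
    exact hφ (Set.mem_Ici.mpr (le_max_right _ _)) (Set.mem_Ici.mpr (le_max_right _ _))
      (max_le_max_right 0 huv)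
  have he : (fun y => ENNReal.ofReal (φ (F + h y))) =
      fun y => ENNReal.ofReal ((fun u : ℝ => φ (max u 0)) (F + h y)) := by
    funext y
    have : max (F + h y) 0 = F + h y := max_eq_left (add_nonneg hF (h0 y))
    simp only [this]
  rw [he]
  exact ENNReal.measurable_ofReal.comp
    (hm.measurable.comp (measurable_const.add hc.measurable))

end FinBAux

theorem finB_pf (h1 : FinB1Stmt) (h2 : FinB2Stmt) : FinBStmt := by
  intro φ P η τ hφ hC
  set g : ℕ → ℝ → ENNReal := fun r => {y | (P r).h y ≠ 0}.indicator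
    (fun y => ENNReal.ofReal (φ (∑ s ∈ Finset.range r, (P s).A + (P r).h y))) with hg
  have hA : ∀ s, 0 ≤ (P s).A := fun s => by
    obtain ⟨-, -, -, hB, -⟩ := hC s
    exact (hB.2.2.1 0).trans (hB.2.2.2.1 0)
  have hset : ∀ r, MeasurableSet {y | (P r).h y ≠ 0} := fun r => by
    obtain ⟨-, -, -, hB, -⟩ := hC r
    exact (isOpen_ne_fun hB.1 continuous_const).measurableSet
  have hgm : ∀ r, Measurable (g r) := fun r => by
    obtain ⟨-, -, -, hB, -⟩ := hC r
    exact (FinBAux.meas_term φ hφ.1 (P r).h hB.1 hB.2.2.1 _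
      (Finset.sum_nonneg fun s _ => hA s)).indicator (hset r)
  have hgp : ∀ r, Function.Periodic (g r) (2 * π) := fun r x => by
    obtain ⟨-, -, -, hB, -⟩ := hC r
    simp only [hg, Set.indicator, Set.mem_setOf_eq, hB.2.1 x]
  have hterm : ∀ r, ∫⁻ x in Set.Ioc 0 (2 * π), g r (x - τ r) ≤ ENNReal.ofReal ((1 / 2) ^ r) := by
    intro r
    obtain ⟨-, hη, -, -, -, hP, -⟩ := hC r
    rw [lint_shift (hgp r), hg, lintegral_indicator (hset r), Measure.restrict_restrict (hset r)]
    exact hP.trans (ENNReal.ofReal_le_ofReal hη)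
  calc ∫⁻ x in Set.Ioc 0 (2 * π), ENNReal.ofReal (φ (ff P τ x))
      ≤ ∫⁻ x in Set.Ioc 0 (2 * π), (ENNReal.ofReal (φ 0) + ∑' r, g r (x - τ r)) := by
        refine lintegral_mono_ae ?_
        filter_upwards [h2 φ P η τ hC] with x hx
        exact h1 φ P η τ hφ hC x hx
    _ = ENNReal.ofReal (φ 0) * volume (Set.Ioc 0 (2 * π)) +
          ∑' r, ∫⁻ x in Set.Ioc 0 (2 * π), g r (x - τ r) := by
        rw [lintegral_add_left measurable_const, setLIntegral_const, lintegral_tsum]
        intro r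
        exact ((hgm r).comp (measurable_id.sub_const _)).aemeasurable
    _ < ⊤ := by
        refine ENNReal.add_lt_top.mpr ⟨ENNReal.mul_lt_top ENNReal.ofReal_lt_top ?_, ?_⟩
        · rw [Real.volume_Ioc]; exact ENNReal.ofReal_lt_top
        · refine (ENNReal.tsum_le_tsum hterm).trans_lt ?_
          rw [← ENNReal.ofReal_tsum_of_nonneg (fun r => by positivity) summable_geometric_two]
          exact ENNReal.ofReal_lt_top

end Vale.Agent.P091
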