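import Vale.Agent.P091.Stm

namespace Vale.Agent.P091

open MeasureTheory Real Filter Topology

namespace FinB1Aux

theorem last {p : ℕ → Prop} (h : ∀ᶠ r in atTop, p r) (h0 : ¬ ∀ r, p r) :
    ∃ r, ¬ p r ∧ ∀ s, r < s → p s := by
  classical
  obtain ⟨N, hN⟩ := eventually_atTop.1 h
  obtain ⟨r₀, hr₀⟩ := not_forall.1 h0
  have hle : r₀ ≤ N := by
    by_contra q
    exact hr₀ (hN r₀ (not_le.1 q).le)
  refine ⟨Nat.findGreatest (fun r => ¬ p r) N, Nat.findGreatest_spec (P := fun r => ¬ p r) hle hr₀,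
    fun s hs => ?_⟩
  by_cases hsN : s ≤ N
  · exact not_not.1 (Nat.findGreatest_is_greatest (P := fun r => ¬ p r) hs hsN)
  · exact hN s (not_le.1 hsN).le

end FinB1Aux

theorem finB1_pf : FinB1Stmt := by
  intro φ P η τ hφ hc x hx
  have hb : ∀ r, Base (P r) := fun r => (hc r).2.2.2.1
  have h0 : ∀ r y, 0 ≤ (P r).h y := fun r => (hb r).2.2.1
  have hA : ∀ r y, (P r).h y ≤ (P r).A := fun r => (hb r).2.2.2.1
  by_cases hall : ∀ r, (P r).h (x - τ r) = 0
  · have : ff P τ x = 0 := by simp [ff, hall]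
    rw [this]
    exact le_self_add
  · obtain ⟨r, hr, hgt⟩ := FinB1Aux.last hx hall
    have e : ff P τ x = ∑ s ∈ Finset.range (r + 1), (P s).h (x - τ s) := by
      rw [ff, tsum_eq_sum (s := Finset.range (r + 1)) fun s hs => by
        rw [hgt s (by simpa using hs), ENNReal.ofReal_zero],
        ← ENNReal.ofReal_sum_of_nonneg fun s _ => h0 s _,
        ENNReal.toReal_ofReal (Finset.sum_nonneg fun s _ => h0 s _)]
    have hle : ff P τ x ≤ ∑ s ∈ Finset.range r, (P s).A + (P r).h (x - τ r) := by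
      rw [e, Finset.sum_range_succ]
      exact add_le_add_left (Finset.sum_le_sum fun s _ => hA s _) _
    have hnn : 0 ≤ ff P τ x := ENNReal.toReal_nonneg
    refine le_trans ?_ (le_trans (ENNReal.le_tsum r) le_add_self)
    rw [Set.indicator_of_mem (show x - τ r ∈ {y | (P r).h y ≠ 0} from hr)]
    exact ENNReal.ofReal_le_ofReal (hφ.1 hnn (hnn.trans hle) hle)

theorem finB2_pf : FinB2Stmt := by
  intro φ P η τ hc
  have hb : ∀ r, Base (P r) := fun r => (hc r).2.2.2.1
  have hm : ∀ r, MeasurableSet {y | (P r).h y ≠ 0} := fun r =>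
    (isOpen_ne_fun (hb r).1 continuous_const).measurableSet
  have hv : ∀ r, (volume.restrict (Set.Ioc 0 (2 * π))) {x | x - τ r ∈ {y | (P r).h y ≠ 0}} ≤
      ENNReal.ofReal ((1 / 2) ^ r) := fun r => by
    rw [Measure.restrict_apply' measurableSet_Ioc, vol_shift (hm r) fun y => by
      show (P r).h (y + 2 * π) ≠ 0 ↔ (P r).h y ≠ 0
      rw [(hb r).2.1 y]]
    exact (hc r).2.2.2.2.1.2.trans (ENNReal.ofReal_le_ofReal (hc r).2.1)
  have hs : ∑' r, (volume.restrict (Set.Ioc 0 (2 * π))) {x | x - τ r ∈ {y | (P r).h y ≠ 0}} ≠ ⊤ := by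
    refine ne_top_of_le_ne_top ?_ (ENNReal.tsum_le_tsum hv)
    rw [← ENNReal.ofReal_tsum_of_nonneg (fun r => by positivity) summable_geometric_two]
    exact ENNReal.ofReal_ne_top
  filter_upwards [ae_eventually_notMem hs] with x hx
  filter_upwards [hx] with r hr
  exact not_not.1 hr

end Vale.Agent.P091
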