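import Vale.Agent.P091.StmE

/-! The periodic set `G0`. -/

namespace Vale.Agent.P091

open MeasureTheory Real Filter Topology

namespace G0Aux

theorem meas : MeasurableSet G0 := by
  have e : G0 = ⋃ m : ℤ, Set.Icc (π / 4 + m * (2 * π)) (3 * π / 4 + m * (2 * π)) := by
    ext x
    simp only [G0, Set.mem_ofPred_eq, Set.mem_iUnion, Set.mem_Icc]
    exact exists_congr fun m => ⟨fun h => ⟨by linarith [h.1], by linarith [h.2]⟩,
      fun h => ⟨by linarith [h.1], by linarith [h.2]⟩⟩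
  rw [e]
  exact MeasurableSet.iUnion fun m => measurableSet_Icc

theorem per (x : ℝ) : x + 2 * π ∈ G0 ↔ x ∈ G0 := by
  constructor
  · rintro ⟨m, h1, h2⟩
    refine ⟨m - 1, ?_, ?_⟩ <;> push_cast <;> linarith
  · rintro ⟨m, h1, h2⟩
    refine ⟨m + 1, ?_, ?_⟩ <;> push_cast <;> linarith

theorem vol : ENNReal.ofReal (π / 8) ≤ volume (G0 ∩ Set.Ioc 0 (2 * π)) := by
  have hp := pi_pos
  have h : Set.Icc (π / 4) (3 * π / 4) ⊆ G0 ∩ Set.Ioc 0 (2 * π) := fun x hx =>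
    ⟨⟨0, by simpa using hx.1, by simpa using hx.2⟩, by linarith [hx.1], by linarith [hx.2]⟩
  refine le_trans ?_ (measure_mono h)
  rw [Real.volume_Icc]
  exact ENNReal.ofReal_le_ofReal (by linarith)

theorem freq (x : ℝ) : ∃ᶠ r : ℕ in atTop, x - (r : ℝ) * (π / 2) ∈ G0 := by
  have hp : 0 < π / 2 := by positivity
  rw [frequently_atTop]
  intro N
  have h1 := Int.floor_le ((x - π / 4) / (π / 2))
  have h2 := Int.lt_floor_add_one ((x - π / 4) / (π / 2))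
  rw [le_div_iff₀ hp] at h1
  rw [div_lt_iff₀ hp] at h2
  generalize ⌊(x - π / 4) / (π / 2)⌋ = q at h1 h2
  obtain ⟨r, hr⟩ := Int.eq_ofNat_of_zero_le (a := q + 4 * (N + |q|))
    (by linarith [neg_abs_le q, abs_nonneg q, Int.natCast_nonneg N])
  have h3 : (r : ℝ) = q + 4 * ((N + |q| : ℤ) : ℝ) := by exact_mod_cast hr.symm
  refine ⟨r, ?_, -(N + |q|), ?_, ?_⟩
  · have : (N : ℤ) ≤ r := by linarith [neg_abs_le q, abs_nonneg q, Int.natCast_nonneg N]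
    exact_mod_cast this
  · rw [h3, Int.cast_neg]
    linarith
  · rw [h3, Int.cast_neg]
    linarith

theorem rnd (K : ℕ) (hK : 2 ≤ K) (x : ℝ) (hx : x ∈ G0) : ∃ (j0 : ℕ) (y : ℝ) (m : ℤ),
    2 ^ K ≤ 4 * j0 ∧ 4 * j0 ≤ 3 * 2 ^ K ∧ |y| ≤ 1 / 2 ∧
      x = π * (j0 + y) / 2 ^ K + m * (2 * π) := by
  obtain ⟨L, rfl⟩ := Nat.exists_eq_add_of_le' hK
  obtain ⟨m, h1, h2⟩ := hx
  have hp := pi_pos
  have hL : (0 : ℝ) < 2 ^ L := by positivity
  obtain ⟨z, hz⟩ : ∃ z : ℝ, z = (x - m * (2 * π)) * (4 * 2 ^ L) / π := ⟨_, rfl⟩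
  have z1 : (2 : ℝ) ^ L ≤ z := by
    rw [hz, le_div_iff₀ hp]
    nlinarith
  have z2 : z ≤ 3 * 2 ^ L := by
    rw [hz, div_le_iff₀ hp]
    nlinarith
  have f1 := Nat.floor_le (a := z + 1 / 2) (by linarith)
  have f2 := Nat.lt_floor_add_one (z + 1 / 2)
  have f3 : 2 ^ L ≤ ⌊z + 1 / 2⌋₊ := Nat.le_floor (by push_cast; linarith)
  have f4 : ⌊z + 1 / 2⌋₊ < 3 * 2 ^ L + 1 := (Nat.floor_lt (by linarith)).2 (by push_cast; linarith)
  have f5 : 2 ^ (L + 2) = 4 * 2 ^ L := by ring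
  refine ⟨⌊z + 1 / 2⌋₊, z - ⌊z + 1 / 2⌋₊, m, by rw [f5]; omega, by rw [f5]; omega,
    abs_le.2 ⟨by linarith, by linarith⟩, ?_⟩
  rw [add_sub_cancel, hz]
  field_simp
  ring

end G0Aux

theorem g0_pf : G0Stmt := ⟨G0Aux.meas, G0Aux.per, G0Aux.vol, G0Aux.freq, G0Aux.rnd⟩

end Vale.Agent.P091
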