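import Vale.Agent.P091.Stm

namespace Vale.Agent.P091

open MeasureTheory Real Filter Topology

namespace GoodAux

theorem markov (T : Finset ℕ) (f : ℕ → ℝ) (c : ℝ) (hc : 0 < c) (hf : ∀ j ∈ T, 0 ≤ f j)
    (hs : ∑ j ∈ T, f j ≤ T.card * (c / 2)) :
    T.card ≤ 2 * (T.filter (fun j => f j ≤ c)).card := by
  have h1 := Finset.card_filter_add_card_filter_not (s := T) (fun j => f j ≤ c)
  have h2 : ((T.filter (fun j => ¬ f j ≤ c)).card : ℝ) * c ≤ ∑ j ∈ T, f j := by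
    calc ((T.filter (fun j => ¬ f j ≤ c)).card : ℝ) * c
        = ∑ _j ∈ T.filter (fun j => ¬ f j ≤ c), c := by
          rw [Finset.sum_const, nsmul_eq_mul]
      _ ≤ ∑ j ∈ T.filter (fun j => ¬ f j ≤ c), f j := by
          refine Finset.sum_le_sum fun j hj => ?_
          exact (not_le.1 (Finset.mem_filter.1 hj).2).le
      _ ≤ ∑ j ∈ T, f j :=
          Finset.sum_le_sum_of_subset_of_nonneg (Finset.filter_subset _ _)
            (fun j hj _ => hf j hj)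
  have h3 : ((T.filter (fun j => ¬ f j ≤ c)).card : ℝ) * 2 ≤ T.card := by
    have : ((T.filter (fun j => ¬ f j ≤ c)).card : ℝ) * 2 * c ≤ T.card * c := by nlinarith
    exact le_of_mul_le_mul_right this hc
  have h4 : (T.filter (fun j => ¬ f j ≤ c)).card * 2 ≤ T.card := by exact_mod_cast h3
  omega

theorem mm_lt (K : ℕ) (hK : 2 ≤ K) (ω : ℕ × ℕ → ℕ) (hω : ∀ z, ω z < 11000 * K ^ 2) (j : ℕ) :
    MM K (K + 12) ω j < 2 ^ (12000 * K ^ 2) := by
  unfold MM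
  have h1 : ∑ k ∈ Finset.Icc 1 K, 2 ^ (K + 12 + ω (k, j / 2 ^ k)) ≤
      (Finset.Icc 1 K).card • 2 ^ (K + 12 + 11000 * K ^ 2) := by
    refine Finset.sum_le_card_nsmul _ _ _ fun k _ => ?_
    exact Nat.pow_le_pow_right (by norm_num) (by have := hω (k, j / 2 ^ k); omega)
  rw [Nat.card_Icc, smul_eq_mul] at h1
  have h2 : K + 1 - 1 < 2 ^ K := by
    have := @Nat.lt_two_pow_self K
    omega
  have h3 : (K + 1 - 1) * 2 ^ (K + 12 + 11000 * K ^ 2) < 2 ^ K * 2 ^ (K + 12 + 11000 * K ^ 2) :=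
    Nat.mul_lt_mul_of_pos_right h2 (by positivity)
  rw [← pow_add] at h3
  have h4 : 2 ^ (K + (K + 12 + 11000 * K ^ 2)) ≤ 2 ^ (12000 * K ^ 2) :=
    Nat.pow_le_pow_right (by norm_num) (by nlinarith)
  omega

theorem bit_le (k j : ℕ) : 0 ≤ (bit k j : ℝ) ∧ (bit k j : ℝ) ≤ 1 := by
  refine ⟨by positivity, ?_⟩
  have : bit k j ≤ 1 := by unfold bit; omega
  exact_mod_cast this

theorem ss_le (K : ℕ) (ω : ℕ × ℕ → ℕ) (j : ℕ) : |ss K (K + 12) ω j| ≤ 1 / 4000 := by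
  unfold ss
  have h1 : |∑ k ∈ Finset.Icc 1 K,
      ((bit (k - 1) j : ℝ) - (bit k j : ℝ)) / 2 ^ (K + 12 + ω (k, j / 2 ^ k))| ≤
      (Finset.Icc 1 K).card • ((1 : ℝ) / 2 ^ (K + 12)) := by
    refine (Finset.abs_sum_le_sum_abs _ _).trans ?_
    refine Finset.sum_le_card_nsmul _ _ _ fun k _ => ?_
    rw [abs_div, abs_of_pos (by positivity : (0 : ℝ) < 2 ^ (K + 12 + ω (k, j / 2 ^ k)))]
    have ha := bit_le (k - 1) j
    have hb := bit_le k j
    refine div_le_div₀ (by norm_num) (abs_le.2 ⟨by linarith, by linarith⟩) (by positivity) ?_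
    exact pow_le_pow_right₀ (by norm_num) (by omega)
  rw [Nat.card_Icc, nsmul_eq_mul] at h1
  have h2 : ((K + 1 - 1 : ℕ) : ℝ) ≤ 2 ^ K := by
    have : K + 1 - 1 ≤ 2 ^ K := by
      have := @Nat.lt_two_pow_self K
      omega
    exact_mod_cast this
  have h3 : ((K + 1 - 1 : ℕ) : ℝ) * ((1 : ℝ) / 2 ^ (K + 12)) ≤ 1 / 4096 := by
    calc ((K + 1 - 1 : ℕ) : ℝ) * ((1 : ℝ) / 2 ^ (K + 12)) ≤ 2 ^ K * ((1 : ℝ) / 2 ^ (K + 12)) :=
          mul_le_mul_of_nonneg_right h2 (by positivity)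
      _ = 1 / 4096 := by rw [pow_add]; field_simp; norm_num
  rw [abs_mul, abs_of_pos (by norm_num : (0 : ℝ) < 1 / 2)]
  linarith

end GoodAux

theorem good_pf (h : GoodAStmt) : GoodStmt := by
  intro K hK
  obtain ⟨ω, hω, hs⟩ := h K hK
  have hK' : (0 : ℝ) < K := by exact_mod_cast (by omega : 0 < K)
  refine ⟨MM K (K + 12) ω, ss K (K + 12) ω, (Finset.range (2 ^ K)).filter (fun j0 =>
    ∑ j ∈ (Finset.range (2 ^ K)).erase j0,
      dev (MM K (K + 12) ω j0) (ss K (K + 12) ω j) j0 j / |(j0 : ℝ) - j| ≤ (K : ℝ) / 200),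
    Finset.filter_subset _ _, ?_, GoodAux.mm_lt K hK ω hω, GoodAux.ss_le K ω,
    fun j0 hj => (Finset.mem_filter.1 hj).2⟩
  have := GoodAux.markov (Finset.range (2 ^ K)) (fun j0 =>
    ∑ j ∈ (Finset.range (2 ^ K)).erase j0,
      dev (MM K (K + 12) ω j0) (ss K (K + 12) ω j) j0 j / |(j0 : ℝ) - j|) ((K : ℝ) / 200)
    (by positivity) (fun j0 _ => Finset.sum_nonneg fun j _ =>
      div_nonneg (norm_nonneg _) (abs_nonneg _)) (by
      rw [Finset.card_range]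
      refine hs.trans (le_of_eq ?_)
      push_cast
      ring)
  rwa [Finset.card_range] at this

end Vale.Agent.P091
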