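import Vale.Agent.P091.Stm

namespace Vale.Agent.P091

open MeasureTheory Real Filter Topology

theorem goodA_pf (h1 : BitsStmt) (h2 : AvgStmt) (h3 : HarmStmt) : GoodAStmt := by
  intro K hK
  classical
  let T0 : Finset ((Σ _ : ℕ, ℕ) × ℕ × ℕ) :=
    ((Finset.range (2 ^ K)).sigma fun j0 => (Finset.range (2 ^ K)).erase j0) ×ˢ
      (Finset.Icc 1 K ×ˢ Finset.Icc 1 K)
  let w : ((Σ _ : ℕ, ℕ) × ℕ × ℕ) → ℝ := fun i => 1 / |(i.1.1 : ℝ) - i.1.2|
  let p : ((Σ _ : ℕ, ℕ) × ℕ × ℕ) → ℕ × ℕ := fun i => (i.2.1, i.1.1 / 2 ^ i.2.1)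
  let q : ((Σ _ : ℕ, ℕ) × ℕ × ℕ) → ℕ × ℕ := fun i => (i.2.2, i.1.2 / 2 ^ i.2.2)
  have hw : ∀ i, 0 ≤ w i := fun i => by positivity
  have hK0 : 0 < K := by omega
  have hKr : (0 : ℝ) < K := by exact_mod_cast hK0
  obtain ⟨ω, hω, hs⟩ := h2 (11000 * K ^ 2) _ (T0.filter fun i => p i ≠ q i) w p q
    (Nat.succ_le_of_lt (by positivity)) (fun i _ => hw i) (fun i hi => (Finset.mem_filter.1 hi).2)
  refine ⟨ω, hω, ?_⟩
  have e1 : ∑ j0 ∈ Finset.range (2 ^ K), ∑ j ∈ (Finset.range (2 ^ K)).erase j0,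
      dev (MM K (K + 12) ω j0) (ss K (K + 12) ω j) j0 j / |(j0 : ℝ) - j| ≤
      ∑ i ∈ T0.filter (fun i => p i ≠ q i), w i * er (ω (p i)) (ω (q i)) := by
    rw [Finset.sum_filter, Finset.sum_product, Finset.sum_sigma]
    refine Finset.sum_le_sum fun j0 hj0 => Finset.sum_le_sum fun j hj => ?_
    have a := h1 K (K + 12) ω j0 j (Finset.mem_range.1 hj0)
      (Finset.mem_range.1 (Finset.mem_of_mem_erase hj)) (Finset.ne_of_mem_erase hj)
    refine (div_le_div_of_nonneg_right a (abs_nonneg _)).trans (le_of_eq ?_)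
    rw [Finset.sum_product, Finset.sum_div]
    refine Finset.sum_congr rfl fun k _ => ?_
    rw [Finset.sum_div]
    refine Finset.sum_congr rfl fun k' _ => ?_
    simp only [p, q, w]
    by_cases h : (k, j0 / 2 ^ k) = (k', j / 2 ^ k')
    · rw [if_pos h, if_neg (not_not.2 h), zero_div]
    · rw [if_neg h, if_pos h]
      ring
  have e2 : ∑ i ∈ T0.filter (fun i => p i ≠ q i), w i ≤ 2 ^ K * ((K : ℝ) ^ 2 * (4 * K)) := by
    refine (Finset.sum_le_sum_of_subset_of_nonneg (Finset.filter_subset _ _)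
      fun i _ _ => hw i).trans ?_
    rw [Finset.sum_product, Finset.sum_sigma]
    refine (Finset.sum_le_sum (g := fun _ => (K : ℝ) ^ 2 * (4 * K)) fun j0 hj0 => ?_).trans ?_
    · refine le_trans (le_of_eq ?_) (mul_le_mul_of_nonneg_left
        (h3 K j0 hK (Finset.mem_range.1 hj0)).2 (sq_nonneg (K : ℝ)))
      rw [Finset.mul_sum]
      refine Finset.sum_congr rfl fun j _ => ?_
      simp only [w, Finset.sum_const, Finset.card_product, Nat.card_Icc, nsmul_eq_mul,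
        Nat.add_sub_cancel]
      push_cast
      ring
    · simp
  refine e1.trans (hs.trans ((mul_le_mul_of_nonneg_left e2 (by positivity)).trans ?_))
  have e3 : 2 * π / ((11000 * K ^ 2 : ℕ) : ℝ) * (2 ^ K * ((K : ℝ) ^ 2 * (4 * K))) =
      2 ^ K * ((K : ℝ) * (8 * π / 11000)) := by
    push_cast
    field_simp
    ring
  rw [e3]
  refine mul_le_mul_of_nonneg_left ?_ (by positivity)
  have := Real.pi_lt_d2
  nlinarith

end Vale.Agent.P091
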