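import Vale.Agent.P091.StmE

namespace Vale.Agent.P091

open MeasureTheory Real Filter Topology

namespace GoodEAux

theorem mm_lt (K : ℕ) (hK : 2 ≤ K) (ω : ℕ × ℕ → ℕ)
    (hω : ∀ k a, k ≤ K → ω (k, a) < 363000 * K ^ 2) (j : ℕ) :
    MM K (3 * K + 7) ω j < 2 ^ (364000 * K ^ 2) := by
  unfold MM
  have h1 : ∑ k ∈ Finset.Icc 1 K, 2 ^ (3 * K + 7 + ω (k, j / 2 ^ k)) ≤
      (Finset.Icc 1 K).card • 2 ^ (3 * K + 7 + 363000 * K ^ 2) := by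
    refine Finset.sum_le_card_nsmul _ _ _ fun k hk => ?_
    exact Nat.pow_le_pow_right (by norm_num)
      (Nat.add_le_add_left (hω k (j / 2 ^ k) (Finset.mem_Icc.1 hk).2).le _)
  rw [Nat.card_Icc, smul_eq_mul, Nat.add_sub_cancel] at h1
  have h3 : K * 2 ^ (3 * K + 7 + 363000 * K ^ 2) < 2 ^ K * 2 ^ (3 * K + 7 + 363000 * K ^ 2) :=
    Nat.mul_lt_mul_of_pos_right Nat.lt_two_pow_self (by positivity)
  rw [← pow_add] at h3
  have h4 : 2 ^ (K + (3 * K + 7 + 363000 * K ^ 2)) ≤ 2 ^ (364000 * K ^ 2) :=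
    Nat.pow_le_pow_right (by norm_num) (by nlinarith)
  exact (h1.trans_lt h3).trans_le h4

theorem bit_le (k j : ℕ) : 0 ≤ (bit k j : ℝ) ∧ (bit k j : ℝ) ≤ 1 := by
  refine ⟨by positivity, ?_⟩
  have : bit k j ≤ 1 := by unfold bit; omega
  exact_mod_cast this

theorem ss_le (K : ℕ) (hK : 2 ≤ K) (ω : ℕ × ℕ → ℕ) (j : ℕ) :
    |ss K (3 * K + 7 + 1) ω j| ≤ 1 / (100 * (K : ℝ) ^ 2) := by
  unfold ss
  have h1 : |∑ k ∈ Finset.Icc 1 K,
      ((bit (k - 1) j : ℝ) - (bit k j : ℝ)) / 2 ^ (3 * K + 7 + 1 + ω (k, j / 2 ^ k))| ≤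
      (Finset.Icc 1 K).card • ((1 : ℝ) / 2 ^ (3 * K + 7 + 1)) := by
    refine (Finset.abs_sum_le_sum_abs _ _).trans ?_
    refine Finset.sum_le_card_nsmul _ _ _ fun k _ => ?_
    rw [abs_div, abs_of_pos (by positivity : (0 : ℝ) < 2 ^ (3 * K + 7 + 1 + ω (k, j / 2 ^ k)))]
    have ha := bit_le (k - 1) j
    have hb := bit_le k j
    refine div_le_div₀ (by norm_num) (abs_le.2 ⟨by linarith, by linarith⟩) (by positivity) ?_
    exact pow_le_pow_right₀ (by norm_num) (by omega)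
  rw [Nat.card_Icc, nsmul_eq_mul, Nat.add_sub_cancel] at h1
  have k0 : (0 : ℝ) < K := by exact_mod_cast (by omega : 0 < K)
  have h2 : (K : ℝ) ≤ 2 ^ K := by exact_mod_cast (Nat.lt_two_pow_self (n := K)).le
  have h3 : (K : ℝ) ^ 3 ≤ (2 ^ K) ^ 3 := pow_le_pow_left₀ k0.le h2 3
  have h4 : (2 : ℝ) ^ (3 * K + 7 + 1) = 256 * (2 ^ K) ^ 3 := by ring
  have h5 : (K : ℝ) * ((1 : ℝ) / 2 ^ (3 * K + 7 + 1)) ≤ 1 / (100 * (K : ℝ) ^ 2) := by
    rw [mul_one_div, div_le_div_iff₀ (by positivity) (by positivity), h4]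
    nlinarith [pow_pos k0 3]
  have h6 : 0 < 1 / (100 * (K : ℝ) ^ 2) := by positivity
  rw [abs_mul, abs_of_pos (by norm_num : (0 : ℝ) < 1 / 2)]
  linarith

end GoodEAux

theorem goodE_pf (h : GoodE2Stmt) : GoodEStmt := by
  intro K hK
  obtain ⟨ω, hω, hs⟩ := h K hK
  exact ⟨MM K (3 * K + 7) ω, ss K (3 * K + 7 + 1) ω, GoodEAux.mm_lt K hK ω hω,
    GoodEAux.ss_le K hK ω, hs⟩

end Vale.Agent.P091
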