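import Vale.Agent.P091.StmE

namespace Vale.Agent.P091

open MeasureTheory Real Filter Topology

theorem goodE1_pf (h1 : ColStmt) (h2 : NodeStmt) (h3 : WtStmt) : GoodE1Stmt := by
  intro K hK
  obtain ⟨c, hc, hs⟩ := h1 (121000 * K) (Finset.range (2 ^ K)) (wt K) (by omega)
    (fun a b => by unfold wt; split_ifs <;> positivity)
    (fun a b => by unfold wt; rw [Nat.dist_comm, abs_sub_comm])
  refine ⟨c, hc, fun k j0 hj => ?_⟩
  have ha : j0 / 2 ^ k < 2 ^ K := (Nat.div_le_self _ _).trans_lt hj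
  have hm : ∀ j ∈ (Finset.range (2 ^ K)).filter (fun j => j / 2 ^ k ≠ j0 / 2 ^ k),
      j / 2 ^ k ∈ (Finset.range (2 ^ K)).erase (j0 / 2 ^ k) := fun j hj' => by
    obtain ⟨j1, j2⟩ := Finset.mem_filter.1 hj'
    exact Finset.mem_erase.2 ⟨j2, Finset.mem_range.2
      ((Nat.div_le_self _ _).trans_lt (Finset.mem_range.1 j1))⟩
  have K0 : (0 : ℝ) < K := by exact_mod_cast (by omega : 0 < K)
  have fin : (3 / ((121000 * K : ℕ) : ℝ)) * (16 * K) = 48 / 121000 := by
    push_cast
    field_simp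
    norm_num
  rw [← Finset.sum_fiberwise_of_maps_to hm, ← fin]
  refine le_trans (Finset.sum_le_sum fun b hb => ?_) ((hs _ (Finset.mem_range.2 ha)).trans
    (mul_le_mul_of_nonneg_left (h3 K _ hK ha) (by positivity)))
  refine le_trans ?_ (mul_le_mul_of_nonneg_right (h2 K k j0 b hK hj (Finset.mem_erase.1 hb).1)
    (by positivity))
  rw [Finset.sum_mul]
  refine le_trans (le_of_eq (Finset.sum_congr rfl fun j hj' => ?_))
    (Finset.sum_le_sum_of_subset_of_nonneg (fun j hj' => ?_) fun _ _ _ => by positivity)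
  · rw [(Finset.mem_filter.1 hj').2]
    ring
  · obtain ⟨j1, j2⟩ := Finset.mem_filter.1 hj'
    exact Finset.mem_filter.2 ⟨(Finset.mem_filter.1 j1).1, j2⟩

end Vale.Agent.P091
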