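import Vale.Agent.P091.StmE

namespace Vale.Agent.P091

open MeasureTheory Real Filter Topology

namespace GoodE2Aux

theorem er_zero {a b : ℕ} (h : b + 2 ≤ a) : er2 a b = 0 := if_neg (by omega)

theorem er_le {a b n : ℕ} (h : a + n ≤ b) : er2 a b ≤ (π / 2) / 2 ^ n := by
  unfold er2
  rw [if_pos (by omega), div_le_div_iff₀ (by positivity) (by positivity), mul_assoc, ← pow_add]
  exact mul_le_mul_of_nonneg_left (pow_le_pow_right₀ one_le_two h) (by positivity)

theorem er_same (a b : ℕ) : er2 a b ≤ 2 * π * (1 / 2) ^ Nat.dist a b := by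
  have hp := pi_pos
  rcases le_or_gt a b with h | h
  · rw [Nat.dist_eq_sub_of_le h]
    refine (er_le (n := b - a) (by omega)).trans ?_
    rw [one_div, inv_pow, div_eq_mul_inv]
    exact mul_le_mul_of_nonneg_right (by linarith) (by positivity)
  · rcases eq_or_lt_of_le (Nat.succ_le_of_lt h) with h1 | h1
    · have h2 : a = b + 1 := h1.symm
      subst h2
      have h3 : Nat.dist (b + 1) b = 1 := by
        rw [Nat.dist_eq_sub_of_le_right (by omega)]; omega
      unfold er2
      rw [if_pos le_rfl, h3, pow_succ]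
      refine le_of_eq ?_
      field_simp
    · rw [er_zero (by omega)]
      positivity

/-- the contribution of one level -/
noncomputable def lev (c : ℕ → ℕ) (a b : ℕ) : ℝ :=
  if b ≠ a then 2 * π * (1 / 2) ^ Nat.dist (c a) (c b) else 0

theorem lev_nonneg (c : ℕ → ℕ) (a b : ℕ) : 0 ≤ lev c a b := by
  unfold lev
  split_ifs
  · positivity
  · exact le_rfl

theorem term_le {N : ℕ} {c : ℕ → ℕ} (hc : ∀ a, c a < N) (k k' a b : ℕ) :
    (if (k, a) = (k', b) then 0 else er2 (2 * N * k + c a) (2 * N * k' + c b)) ≤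
      (if k = k' then lev c a b else 0) + (π / 2) / 2 ^ N := by
  have he : 0 ≤ (π / 2) / 2 ^ N := by positivity
  have ha := hc a
  have hb := hc b
  rcases lt_trichotomy k k' with h | h | h
  · rw [if_neg (fun e => h.ne (congrArg Prod.fst e)), if_neg h.ne, zero_add]
    have : 2 * N * (k + 1) ≤ 2 * N * k' := Nat.mul_le_mul_left _ h
    rw [mul_add] at this
    exact er_le (by omega)
  · subst h
    rw [if_pos rfl]
    by_cases e : b = a
    · subst e
      rw [if_pos rfl]
      exact add_nonneg (lev_nonneg _ _ _) he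
    · rw [if_neg (fun e' => e (congrArg Prod.snd e').symm)]
      refine (er_same _ _).trans ?_
      unfold lev
      rw [Nat.dist_add_add_left, if_pos e]
      exact le_add_of_nonneg_right he
  · rw [if_neg (fun e => h.ne' (congrArg Prod.fst e)), if_neg h.ne', zero_add]
    have : 2 * N * (k' + 1) ≤ 2 * N * k := Nat.mul_le_mul_left _ h
    rw [mul_add] at this
    rw [er_zero (by omega)]
    exact he

theorem cross {K : ℕ} (hK : 2 ≤ K) :
    (K : ℝ) * (K * ((π / 2) / 2 ^ (121000 * K))) * (4 * K) ≤ K / 400 := by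
  have h1 : (K : ℝ) ≤ 2 ^ K := by exact_mod_cast (Nat.lt_two_pow_self (n := K)).le
  have h2 : (2 : ℝ) ^ (12 + K + K) ≤ 2 ^ (121000 * K) := pow_le_pow_right₀ one_le_two (by omega)
  have h0 : (0 : ℝ) ≤ K := Nat.cast_nonneg _
  have h3 : (K : ℝ) * K ≤ 2 ^ K * 2 ^ K := mul_le_mul h1 h1 h0 (by positivity)
  have h4 : 800 * π * ((K : ℝ) * K) ≤ 2 ^ 12 * (2 ^ K * 2 ^ K) :=
    mul_le_mul (by linarith [pi_lt_d2]) h3 (by positivity) (by positivity)
  rw [pow_add, pow_add, mul_assoc] at h2
  have h5 := h4.trans h2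
  generalize (2 : ℝ) ^ (121000 * K) = P at h5 ⊢
  have hK' : (2 : ℝ) ≤ K := by exact_mod_cast hK
  have hP : 0 < P := lt_of_lt_of_le (by positivity) h5
  have h6 : (K : ℝ) * (K * ((π / 2) / P)) * (4 * K) = (800 * π * ((K : ℝ) * K) / P) * (K / 400) := by
    field_simp
    ring
  rw [h6]
  exact mul_le_of_le_one_left (by positivity) ((div_le_one hP).mpr h5)

end GoodE2Aux

open GoodE2Aux in
theorem goodE2_pf (h1 : Bits2Stmt) (h2 : GoodE1Stmt) (h3 : HarmStmt) : GoodE2Stmt := by
  intro K hK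
  obtain ⟨c, hc, hs⟩ := h2 K hK
  refine ⟨fun z => 2 * (121000 * K) * z.1 + c z.2, fun k a hk => ?_, fun j0 hj0 => ?_⟩
  · have h4 : 2 * (121000 * K) * k ≤ 2 * (121000 * K) * K := Nat.mul_le_mul_left _ hk
    have h5 : K ≤ K * K := Nat.le_mul_self K
    have h6 := hc a
    show 2 * (121000 * K) * k + c a < 363000 * K ^ 2
    nlinarith
  · have hd : ∀ j ∈ (Finset.range (2 ^ K)).erase j0,
        dq (MM K (3 * K + 7) (fun z => 2 * (121000 * K) * z.1 + c z.2) j0)
          (ss K (3 * K + 7 + 1) (fun z => 2 * (121000 * K) * z.1 + c z.2) j) j0 j / |(j0 : ℝ) - j| ≤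
        ∑ k ∈ Finset.Icc 1 K, lev c (j0 / 2 ^ k) (j / 2 ^ k) / |(j0 : ℝ) - j| +
          (K : ℝ) * (K * ((π / 2) / 2 ^ (121000 * K))) * (1 / |(j0 : ℝ) - j|) := by
      intro j hj
      rw [Finset.mem_erase, Finset.mem_range] at hj
      rw [← Finset.sum_div, mul_one_div, ← add_div]
      refine div_le_div_of_nonneg_right ?_ (abs_nonneg _)
      refine (h1 K _ _ j0 j hj0 hj.2 hj.1).trans ?_
      refine (Finset.sum_le_sum (fun k _ => Finset.sum_le_sum (fun k' _ =>
        term_le hc k k' (j0 / 2 ^ k) (j / 2 ^ k')))).trans (le_of_eq ?_)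
      simp only [Finset.sum_add_distrib, Finset.sum_const, Nat.card_Icc, Nat.add_sub_cancel,
        nsmul_eq_mul]
      congr 1
      refine Finset.sum_congr rfl (fun k hk => ?_)
      rw [Finset.sum_ite_eq, if_pos hk]
    refine (Finset.sum_le_sum hd).trans ?_
    rw [Finset.sum_add_distrib, Finset.sum_comm, ← Finset.mul_sum]
    have hA : ∀ k ∈ Finset.Icc 1 K, ∑ j ∈ (Finset.range (2 ^ K)).erase j0,
        lev c (j0 / 2 ^ k) (j / 2 ^ k) / |(j0 : ℝ) - j| ≤ 1 / 400 := by
      intro k _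
      refine (Finset.sum_le_sum_of_subset_of_nonneg (Finset.erase_subset _ _)
        (fun j _ _ => div_nonneg (lev_nonneg _ _ _) (abs_nonneg _))).trans ?_
      have h7 := mul_le_mul_of_nonneg_left (hs k j0 hj0) (show 0 ≤ 2 * π by positivity)
      rw [Finset.mul_sum, Finset.sum_filter] at h7
      refine le_trans (le_of_eq ?_) (h7.trans (by linarith [pi_lt_d2]))
      refine Finset.sum_congr rfl (fun j _ => ?_)
      unfold lev
      split_ifs
      · rw [mul_div_assoc]
      · rw [zero_div]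
    have hB := Finset.sum_le_sum hA
    rw [Finset.sum_const, Nat.card_Icc, Nat.add_sub_cancel, nsmul_eq_mul] at hB
    have hC := (mul_le_mul_of_nonneg_left (h3 K j0 hK hj0).2
      (show 0 ≤ (K : ℝ) * (K * ((π / 2) / 2 ^ (121000 * K))) by positivity)).trans (cross hK)
    linarith

end Vale.Agent.P091
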