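import Vale.Agent.P091.Stm

namespace Vale.Agent.P091

open MeasureTheory Real Filter Topology

namespace GsAux

theorem gs_eq (K : ℕ) (J : Finset ℕ) : gs K J = ⋃ j ∈ J, ⋃ m : ℤ,
    Set.Icc (π / 2 ^ K * (j + 1 / 8) + m * (2 * π)) (π / 2 ^ K * (j + 3 / 8) + m * (2 * π)) := by
  have hc : 0 < π / 2 ^ K := by positivity
  ext x
  simp only [gs, Set.mem_ofPred_eq, Set.mem_iUnion, Set.mem_Icc, exists_prop, mul_div_right_comm]
  generalize π / 2 ^ K = c at hc
  refine exists_congr fun j => and_congr_right fun _ => ⟨?_, ?_⟩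
  · rintro ⟨y, h1, h2, m, rfl⟩
    exact ⟨m, by gcongr, by gcongr⟩
  · rintro ⟨m, h1, h2⟩
    refine ⟨(x - m * (2 * π)) / c - j, ?_, ?_, m, ?_⟩
    · rw [le_sub_iff_add_le, le_div_iff₀ hc]
      linarith
    · rw [sub_le_iff_le_add, div_le_iff₀ hc]
      linarith
    · field_simp
      ring

end GsAux

theorem gs_pf : GsStmt := by
  intro K J hJ hc
  have c0 : 0 < π / 2 ^ K := by positivity
  refine ⟨?_, fun x => ⟨?_, ?_⟩, ?_⟩
  · rw [GsAux.gs_eq]
    exact J.measurableSet_biUnion fun j _ => MeasurableSet.iUnion fun m => measurableSet_Icc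
  · rintro ⟨j, hj, y, h1, h2, m, h⟩
    exact ⟨j, hj, y, h1, h2, m - 1, by push_cast; linarith⟩
  · rintro ⟨j, hj, y, h1, h2, m, h⟩
    exact ⟨j, hj, y, h1, h2, m + 1, by push_cast; linarith⟩
  have hs : (⋃ j ∈ J, Set.Icc (π / 2 ^ K * (j + 1 / 8)) (π / 2 ^ K * (j + 3 / 8))) ⊆
      gs K J ∩ Set.Ioc 0 (2 * π) := by
    refine Set.iUnion₂_subset fun j hj x hx => ⟨?_, lt_of_lt_of_le (by positivity) hx.1, ?_⟩
    · rw [GsAux.gs_eq]
      exact Set.mem_iUnion₂.2 ⟨j, hj, Set.mem_iUnion.2 ⟨0, by simpa using hx⟩⟩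
    · have h1 : (j : ℝ) + 1 ≤ 2 ^ K := by exact_mod_cast Finset.mem_range.1 (hJ hj)
      have h2 : π / 2 ^ K * (j + 3 / 8) ≤ π / 2 ^ K * 2 ^ K := by
        gcongr
        linarith
      rw [div_mul_cancel₀ _ (by positivity)] at h2
      linarith [hx.2, pi_pos]
  refine le_trans ?_ (measure_mono hs)
  have hd : ∀ i j : ℕ, i < j → Disjoint (Set.Icc (π / 2 ^ K * (i + 1 / 8)) (π / 2 ^ K * (i + 3 / 8)))
      (Set.Icc (π / 2 ^ K * (j + 1 / 8)) (π / 2 ^ K * (j + 3 / 8))) := fun i j h => by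
    have h1 : (i : ℝ) + 1 ≤ j := by exact_mod_cast h
    refine Set.disjoint_left.2 fun x a b => ?_
    have := le_of_mul_le_mul_left (b.1.trans a.2) c0
    linarith
  rw [measure_biUnion_finset (fun i _ j _ h => (lt_or_gt_of_ne h).elim (hd i j)
    fun h => (hd j i h).symm) fun _ _ => measurableSet_Icc]
  have e : ∀ j : ℕ, π / 2 ^ K * (j + 3 / 8) - π / 2 ^ K * (j + 1 / 8) = π / 2 ^ K / 4 :=
    fun j => by ring
  simp only [Real.volume_Icc, e, Finset.sum_const]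
  rw [← ENNReal.ofReal_nsmul, nsmul_eq_mul]
  refine ENNReal.ofReal_le_ofReal ?_
  have h1 : (2 : ℝ) ^ K ≤ 2 * J.card := by exact_mod_cast hc
  have h2 := mul_le_mul_of_nonneg_left h1 c0.le
  rw [div_mul_cancel₀ _ (by positivity)] at h2
  linarith

end Vale.Agent.P091
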