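import Vale.Agent.P091.Stm

namespace Vale.Agent.P091

open MeasureTheory Real Filter Topology

namespace HarmAux

theorem split (a m : ℕ) : ∑ j ∈ (Finset.range (a + 1 + m)).erase a, 1 / |(a : ℝ) - j| =
    (harmonic a : ℝ) + (harmonic m : ℝ) := by
  rw [Finset.sum_erase _ (by simp), Finset.sum_range_add, Finset.sum_range_succ,
    ← Finset.sum_range_reflect _ a, sub_self, abs_zero, div_zero, add_zero, harmonic, harmonic]
  push_cast
  refine congrArg₂ _ (Finset.sum_congr rfl fun j hj => ?_) (Finset.sum_congr rfl fun j _ => ?_)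
  · have h := Finset.mem_range.1 hj
    rw [Nat.sub_sub, Nat.cast_sub (by omega), sub_sub_cancel, Nat.abs_cast, one_div, add_comm]
    push_cast
    rfl
  · rw [show (a : ℝ) - (a + 1 + j) = -(j + 1) by ring, abs_neg, abs_of_pos (by positivity), one_div]

theorem up {n K : ℕ} (h : n ≤ 2 ^ K) : (harmonic n : ℝ) ≤ 1 + K := by
  refine (harmonic_le_one_add_log n).trans (add_le_add_right ?_ _)
  rcases n.eq_zero_or_pos with rfl | h0
  · simp
  have : Real.log n ≤ Real.log (2 ^ K) :=
    Real.log_le_log (Nat.cast_pos.2 h0) (by exact_mod_cast h)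
  rw [Real.log_pow] at this
  nlinarith [Real.log_two_lt_d9, (Nat.cast_nonneg K : (0 : ℝ) ≤ K)]

end HarmAux

theorem harm_pf : HarmStmt := by
  intro K a hK h
  obtain ⟨m, hm⟩ : ∃ m, 2 ^ K = a + 1 + m := ⟨2 ^ K - (a + 1), by omega⟩
  have u1 := HarmAux.up (n := a) (K := K) (by omega)
  have u2 := HarmAux.up (n := m) (K := K) (by omega)
  have k2 : (2 : ℝ) ≤ K := by exact_mod_cast hK
  rw [hm, HarmAux.split]
  refine ⟨?_, by linarith⟩
  have l1 := log_add_one_le_harmonic a
  have l2 := log_add_one_le_harmonic m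
  have l3 : Real.log (2 ^ K) ≤ Real.log ((a + 1 : ℕ) * (m + 1 : ℕ)) :=
    Real.log_le_log (by positivity) (by
      have : 2 ^ K ≤ (a + 1) * (m + 1) := by nlinarith [Nat.zero_le (a * m)]
      exact_mod_cast this)
  rw [Real.log_pow, Real.log_mul (by positivity) (by positivity)] at l3
  nlinarith [Real.log_two_gt_d9]

end Vale.Agent.P091
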