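import Vale.Agent.P091.Stm

/-! Lower bound for the average of the Dirichlet kernels. -/

namespace Vale.Agent.P091

open MeasureTheory Real Filter Topology

namespace LowAux

theorem one (h1 : DirStmt) {n j0 j : ℕ} (m : ℕ) {z : ℝ} (h0 : j0 < n) (hj : j < n) (z0 : 0 < z)
    (z1 : z < 1) :
    ‖((1 / n : ℝ) : ℂ) * Dk (2 * n * m) (π * ((j0 : ℝ) - j + z) / n) -
      ((2 / π * Real.sin (2 * π * m * z) / ((j0 : ℝ) - j + z) : ℝ) : ℂ)‖ ≤ 3 / n := by
  have a0 : (j0 : ℝ) + 1 ≤ n := by exact_mod_cast h0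
  have a1 : (j : ℝ) + 1 ≤ n := by exact_mod_cast hj
  have b0 : (0 : ℝ) ≤ j0 := Nat.cast_nonneg _
  have b1 : (0 : ℝ) ≤ j := Nat.cast_nonneg _
  have n0 : (0 : ℝ) < n := by linarith
  have d0 : (j0 : ℝ) - j + z ≠ 0 := by
    rcases le_or_gt j j0 with h | h
    · have : (j : ℝ) ≤ j0 := by exact_mod_cast h
      linarith
    · have : (j0 : ℝ) + 1 ≤ j := by exact_mod_cast h
      linarith
  have k := h1 (2 * n * m) (π * ((j0 : ℝ) - j + z) / n)
    (div_ne_zero (mul_ne_zero pi_ne_zero d0) n0.ne') (by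
      rw [abs_div, abs_mul, abs_of_pos pi_pos, abs_of_pos n0, div_le_iff₀ n0]
      exact mul_le_mul_of_nonneg_left (abs_le.2 ⟨by linarith, by linarith⟩) pi_pos.le)
  have e : ((2 * n * m : ℕ) : ℝ) * (π * ((j0 : ℝ) - j + z) / n) =
      2 * π * m * z + ((m * ((j0 : ℤ) - j) : ℤ) : ℝ) * (2 * π) := by
    push_cast
    field_simp
    ring
  rw [e, Real.sin_add_int_mul_two_pi] at k
  have e2 : 2 / π * Real.sin (2 * π * m * z) / ((j0 : ℝ) - j + z) =
      1 / n * (2 * Real.sin (2 * π * m * z) / (π * ((j0 : ℝ) - j + z) / n)) := by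
    field_simp
  rw [e2, Complex.ofReal_mul, ← mul_sub, norm_mul, Complex.norm_real,
    Real.norm_of_nonneg (by positivity)]
  exact (mul_le_mul_of_nonneg_left k (by positivity)).trans_eq (by ring)

end LowAux

theorem low_pf (h1 : DirStmt) (h2 : LowAStmt) : LowStmt := by
  intro K j0 M s y hK h0 hs y0 y1 hd
  obtain ⟨t, t1, ht⟩ := h2 K j0 M s y hK h0 hs y0 y1 hd
  refine ⟨t, t1, ?_⟩
  have z0 : ∀ j, 1 / 9 ≤ y - s j ∧ y - s j < 1 := fun j => by
    have := abs_le.1 (hs j)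
    constructor <;> linarith [this.1, this.2]
  obtain ⟨g, hg⟩ : ∃ g : ℕ → ℝ, ∀ j, g j =
      2 / π * Real.sin (2 * π * ((M : ℝ) + t) * (y - s j)) / ((j0 : ℝ) - j + y - s j) :=
    ⟨_, fun _ => rfl⟩
  simp only [← hg] at ht
  have k : ∀ j ∈ Finset.range (2 ^ K), ‖((1 / 2 ^ K : ℝ) : ℂ) *
      Dk (2 * 2 ^ K * (M + t)) (π * (j0 + y) / 2 ^ K - π * (j + s j) / 2 ^ K) - (g j : ℂ)‖ ≤
      3 / 2 ^ K := fun j hj => by
    have := LowAux.one h1 (M + t) h0 (Finset.mem_range.1 hj) (by linarith [(z0 j).1]) (z0 j).2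
    rw [Nat.cast_pow, Nat.cast_ofNat, Nat.cast_add, ← add_sub_assoc] at this
    rwa [hg, show π * (j0 + y) / 2 ^ K - π * (j + s j) / 2 ^ K =
      π * ((j0 : ℝ) - j + y - s j) / 2 ^ K by ring]
  have k2 := (norm_sum_le _ _).trans (Finset.sum_le_sum k)
  rw [Finset.sum_sub_distrib, ← Finset.mul_sum, ← Complex.ofReal_sum, Finset.sum_const,
    Finset.card_range, nsmul_eq_mul, Nat.cast_pow, Nat.cast_ofNat,
    mul_div_cancel₀ _ (by positivity), ← Finset.add_sum_erase _ g (Finset.mem_range.2 h0)] at k2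
  have k3 : |g j0| ≤ 6 := by
    have := (z0 j0).1
    rw [hg, sub_self, zero_add, abs_div, abs_mul, abs_of_pos (by linarith : 0 < y - s j0),
      abs_of_pos (by positivity : 0 < 2 / π), div_le_iff₀ (by linarith)]
    have a : 2 / π ≤ 2 / 3 := by gcongr; exact pi_gt_three.le
    nlinarith [Real.abs_sin_le_one (2 * π * ((M : ℝ) + t) * (y - s j0)),
      abs_nonneg (Real.sin (2 * π * ((M : ℝ) + t) * (y - s j0)))]
  have k4 := norm_sub_norm_le ((g j0 + ∑ j ∈ (Finset.range (2 ^ K)).erase j0, g j : ℝ) : ℂ)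
    (((1 / 2 ^ K : ℝ) : ℂ) * ∑ j ∈ Finset.range (2 ^ K),
      Dk (2 * 2 ^ K * (M + t)) (π * (j0 + y) / 2 ^ K - π * (j + s j) / 2 ^ K))
  rw [norm_sub_rev, Complex.norm_real, Real.norm_eq_abs, add_comm (g j0)] at k4
  rw [add_comm (g j0)] at k2
  have k5 := abs_add_le (∑ j ∈ (Finset.range (2 ^ K)).erase j0, g j + g j0) (-g j0)
  rw [add_neg_cancel_right, abs_neg] at k5
  linarith

end Vale.Agent.P091
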