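import Vale.Agent.P091.Stm

namespace Vale.Agent.P091

open MeasureTheory Real Filter Topology

namespace LowAAux

theorem sin_big {y : ℝ} (h1 : 1 / 8 ≤ y) (h2 : y ≤ 3 / 8) : 2 / 3 ≤ Real.sin (2 * π * y) := by
  have e : 2 * π * y = π * (2 * y - 1 / 2) + π / 2 := by ring
  rw [e, Real.sin_add_pi_div_two]
  refine le_trans ?_ Real.one_sub_sq_div_two_le_cos
  have p1 := Real.pi_lt_d2
  have p2 := Real.pi_pos
  have a1 : (2 * y - 1 / 2) ^ 2 ≤ 1 / 16 := by nlinarith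
  have a2 : π ^ 2 ≤ 10 := by nlinarith
  have a3 : π ^ 2 * (2 * y - 1 / 2) ^ 2 ≤ 10 * (1 / 16) :=
    mul_le_mul a2 a1 (sq_nonneg _) (by norm_num)
  rw [mul_pow]
  linarith

theorem pick (M : ℕ) {y : ℝ} (h1 : 1 / 8 ≤ y) (h2 : y ≤ 3 / 8) : ∃ t : ℕ, t ≤ 1 ∧
    1 / 3 ≤ |Real.sin (2 * π * ((M : ℝ) + t) * y)| := by
  by_contra hc
  have a0 : |Real.sin (2 * π * ((M : ℝ) + (0 : ℕ)) * y)| < 1 / 3 :=
    not_le.1 fun h => hc ⟨0, zero_le_one, h⟩
  have a1 : |Real.sin (2 * π * ((M : ℝ) + (1 : ℕ)) * y)| < 1 / 3 :=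
    not_le.1 fun h => hc ⟨1, le_rfl, h⟩
  have e : 2 * π * y = 2 * π * ((M : ℝ) + (1 : ℕ)) * y - 2 * π * ((M : ℝ) + (0 : ℕ)) * y := by
    push_cast
    ring
  have b := sin_big h1 h2
  rw [e, Real.sin_sub] at b
  generalize 2 * π * ((M : ℝ) + (1 : ℕ)) * y = α at a1 b
  generalize 2 * π * ((M : ℝ) + (0 : ℕ)) * y = β at a0 b
  have c1 : Real.sin α * Real.cos β ≤ |Real.sin α| := by
    refine (le_abs_self _).trans ?_
    rw [abs_mul]
    exact mul_le_of_le_one_right (abs_nonneg _) (Real.abs_cos_le_one _)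
  have c2 : -(Real.cos α * Real.sin β) ≤ |Real.sin β| := by
    refine (neg_le_abs _).trans ?_
    rw [abs_mul]
    exact mul_le_of_le_one_left (abs_nonneg _) (Real.abs_cos_le_one _)
  linarith

theorem trig (α β γ σ : ℝ) : |Real.sin (α - β - γ) - σ * Real.sin α| ≤
    ‖Complex.exp (((-β : ℝ) : ℂ) * Complex.I) - (σ : ℂ)‖ + |γ| := by
  have h1 : |Real.sin (α - β - γ) - Real.sin (α - β)| ≤ |γ| := by
    refine (Real.abs_sin_sub_sin_le _ _).trans (le_of_eq ?_)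
    rw [sub_sub_cancel_left, abs_neg]
  have h2 : Real.sin (α - β) - σ * Real.sin α = (Complex.exp ((α : ℂ) * Complex.I) *
      (Complex.exp (((-β : ℝ) : ℂ) * Complex.I) - (σ : ℂ))).im := by
    rw [mul_sub, ← Complex.exp_add, ← add_mul, ← Complex.ofReal_add, Complex.sub_im,
      Complex.exp_ofReal_mul_I_im, mul_comm _ (σ : ℂ), Complex.im_ofReal_mul,
      Complex.exp_ofReal_mul_I_im, ← sub_eq_add_neg]
  have h3 : |Real.sin (α - β) - σ * Real.sin α| ≤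
      ‖Complex.exp (((-β : ℝ) : ℂ) * Complex.I) - (σ : ℂ)‖ := by
    rw [h2]
    refine (Complex.abs_im_le_norm _).trans (le_of_eq ?_)
    rw [norm_mul, Complex.norm_exp_ofReal_mul_I, one_mul]
  have h4 := abs_sub_le (Real.sin (α - β - γ)) (Real.sin (α - β)) (σ * Real.sin α)
  linarith

theorem term {a D w δ : ℝ} (ha : 1 ≤ a) (h1 : 3 / 5 * a ≤ D) (h2 : D ≤ 3 / 2 * a) (hδ : 0 ≤ δ)
    (hw : 1 / 3 - δ ≤ w) : 2 / 9 * (1 / a) - 5 / 3 * (δ / a) ≤ w / D := by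
  have hD : 0 < D := by linarith
  have ha0 : 0 < a := by linarith
  have b1 : 2 / 9 * (1 / a) ≤ 1 / 3 / D := by
    rw [mul_one_div, div_le_div_iff₀ ha0 hD]
    linarith
  have b2 : δ / D ≤ 5 / 3 * (δ / a) := by
    rw [← mul_div_assoc, div_le_div_iff₀ hD ha0]
    nlinarith
  have b3 : (1 / 3 - δ) / D ≤ w / D := div_le_div_of_nonneg_right hw hD.le
  rw [sub_div] at b3
  linarith

theorem one (M t j0 j : ℕ) (s y ε : ℝ) (ht : t ≤ 1) (hj : j ≠ j0) (hs : |s| ≤ 1 / 4000)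
    (h1 : 1 / 8 ≤ y) (h2 : y ≤ 3 / 8) (hε : |ε| = 1)
    (hu : 1 / 3 ≤ ε * Real.sin (2 * π * ((M : ℝ) + t) * y)) :
    1 / 5 * (1 / |(j0 : ℝ) - j|) - 5 / 3 * (dev M s j0 j / |(j0 : ℝ) - j|) ≤
      ε * (Real.sin (2 * π * ((M : ℝ) + t) * (y - s)) / ((j0 : ℝ) - j + y - s)) := by
  have p1 := Real.pi_lt_d2
  have p2 := Real.pi_pos
  obtain ⟨s1, s2⟩ := abs_le.1 hs
  obtain ⟨σ, σ1, σ2, σ3, σ4⟩ : ∃ σ : ℝ, sg j0 j = (σ : ℂ) ∧ (σ = 1 ∨ σ = -1) ∧
      |(j0 : ℝ) - j| = σ * ((j0 : ℝ) - j) ∧ 1 ≤ |(j0 : ℝ) - j| := by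
    unfold sg
    by_cases h : j < j0
    · have h' : (j : ℝ) + 1 ≤ j0 := by exact_mod_cast h
      have e : |(j0 : ℝ) - j| = j0 - j := abs_of_nonneg (by linarith)
      exact ⟨1, by rw [if_pos h, Complex.ofReal_one], Or.inl rfl, by rw [e, one_mul],
        by rw [e]; linarith⟩
    · have h' : (j0 : ℝ) + 1 ≤ j := by exact_mod_cast (by omega : j0 + 1 ≤ j)
      have e : |(j0 : ℝ) - j| = -(j0 - j) := abs_of_nonpos (by linarith)
      exact ⟨-1, by rw [if_neg h, Complex.ofReal_neg, Complex.ofReal_one], Or.inr rfl,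
        by rw [e, neg_one_mul], by rw [e]; linarith⟩
  have g := trig (2 * π * ((M : ℝ) + t) * y) (2 * π * M * s) (2 * π * t * s) σ
  have e1 : 2 * π * ((M : ℝ) + t) * y - 2 * π * M * s - 2 * π * t * s =
      2 * π * ((M : ℝ) + t) * (y - s) := by ring
  have g0 : |2 * π * t * s| ≤ 1 / 600 := by
    have t1 : (t : ℝ) ≤ 1 := by exact_mod_cast ht
    have t0 : (0 : ℝ) ≤ t := Nat.cast_nonneg t
    rw [abs_mul, abs_of_nonneg (by positivity)]
    have : 2 * π * t ≤ 6.3 := by nlinarith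
    have := mul_le_mul this hs (abs_nonneg _) (by norm_num)
    linarith
  have hd : dev M s j0 j = ‖Complex.exp (((-(2 * π * M * s) : ℝ) : ℂ) * Complex.I) - (σ : ℂ)‖ := by
    rw [dev, σ1]
  rw [e1, ← hd] at g
  have d0 : 0 ≤ dev M s j0 j := norm_nonneg _
  generalize Real.sin (2 * π * ((M : ℝ) + t) * (y - s)) = v at g ⊢
  generalize Real.sin (2 * π * ((M : ℝ) + t) * y) = u at g hu
  generalize dev M s j0 j = D at g d0 ⊢
  have hσ : σ * σ = 1 := by rcases σ2 with h | h <;> rw [h] <;> norm_num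
  have hσ' : |σ| = 1 := by rcases σ2 with h | h <;> rw [h] <;> norm_num
  have w1 : |ε * σ * (v - σ * u)| ≤ D + 1 / 600 := by
    rw [abs_mul, abs_mul, hε, hσ', one_mul, one_mul]
    linarith
  have w2 : ε * σ * (v - σ * u) = ε * σ * v - ε * u := by
    linear_combination (-(ε * u)) * hσ
  have w3 : 1 / 3 - (D + 1 / 600) ≤ ε * σ * v := by
    have := (abs_le.1 w1).1
    linarith
  have w4 := term (a := |(j0 : ℝ) - j|) (D := σ * ((j0 : ℝ) - j + y - s)) σ4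
    (by rcases σ2 with h | h <;> rw [h] at σ3 ⊢ <;> linarith)
    (by rcases σ2 with h | h <;> rw [h] at σ3 ⊢ <;> linarith) (by linarith) w3
  have σ0 : σ ≠ 0 := fun h => by rw [h, zero_mul] at hσ; exact zero_ne_one hσ
  have w5 : ε * σ * v / (σ * ((j0 : ℝ) - j + y - s)) = ε * (v / ((j0 : ℝ) - j + y - s)) := by
    rw [mul_comm ε σ, mul_assoc, mul_div_mul_left _ _ σ0, mul_div_assoc]
  have w6 : 0 ≤ 1 / |(j0 : ℝ) - j| := by positivity
  rw [w5, add_div, ← mul_one_div (1 / 600)] at w4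
  linarith

end LowAAux

open LowAAux

theorem lowA_pf (h : HarmStmt) : LowAStmt := by
  intro K j0 M s y hK hj hs h1 h2 hd
  obtain ⟨t, ht, hu⟩ := pick M h1 h2
  refine ⟨t, ht, ?_⟩
  obtain ⟨ε, hε, hu'⟩ : ∃ ε : ℝ, |ε| = 1 ∧ 1 / 3 ≤ ε * Real.sin (2 * π * ((M : ℝ) + t) * y) := by
    rcases le_abs.1 hu with h' | h'
    · exact ⟨1, abs_one, by rwa [one_mul]⟩
    · exact ⟨-1, by rw [abs_neg, abs_one], by rwa [neg_one_mul]⟩
  have a1 := Finset.sum_le_sum (s := (Finset.range (2 ^ K)).erase j0) fun j hj' =>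
    one M t j0 j (s j) y ε ht (Finset.ne_of_mem_erase hj') (hs j) h1 h2 hε hu'
  rw [Finset.sum_sub_distrib, ← Finset.mul_sum, ← Finset.mul_sum, ← Finset.mul_sum] at a1
  have a2 := (h K j0 hK hj).1
  simp only [mul_div_assoc (2 / π)]
  rw [← Finset.mul_sum, abs_mul, abs_of_pos (by positivity : (0 : ℝ) < 2 / π)]
  generalize ∑ j ∈ (Finset.range (2 ^ K)).erase j0,
    Real.sin (2 * π * ((M : ℝ) + t) * (y - s j)) / ((j0 : ℝ) - j + y - s j) = X at a1 ⊢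
  have a3 : ε * X ≤ |X| := by
    refine (le_abs_self _).trans (le_of_eq ?_)
    rw [abs_mul, hε, one_mul]
  have a4 : 1 / 2 ≤ 2 / π := by
    rw [div_le_div_iff₀ (by norm_num) Real.pi_pos]
    linarith [Real.pi_le_four]
  have a5 := mul_le_mul_of_nonneg_right a4 (abs_nonneg X)
  have a6 : (0 : ℝ) ≤ K := Nat.cast_nonneg K
  linarith

end Vale.Agent.P091
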