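import Vale.Agent.P091.StmE

namespace Vale.Agent.P091

open MeasureTheory Real Filter Topology

namespace LowE1Aux

theorem im_bd (α β : ℝ) (w : ℂ) :
    |Real.sin (α - β) - (Complex.exp ((α : ℂ) * Complex.I) * w).im| ≤
      ‖Complex.exp (((-β : ℝ) : ℂ) * Complex.I) - w‖ := by
  have h2 : Real.sin (α - β) - (Complex.exp ((α : ℂ) * Complex.I) * w).im =
      (Complex.exp ((α : ℂ) * Complex.I) * (Complex.exp (((-β : ℝ) : ℂ) * Complex.I) - w)).im := by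
    rw [mul_sub, ← Complex.exp_add, ← add_mul, ← Complex.ofReal_add, Complex.sub_im,
      Complex.exp_ofReal_mul_I_im, ← sub_eq_add_neg]
  rw [h2]
  refine (Complex.abs_im_le_norm _).trans (le_of_eq ?_)
  rw [norm_mul, Complex.norm_exp_ofReal_mul_I, one_mul]

theorem sq_bd (β : ℝ) (w : ℂ) (hw : ‖w‖ = 1) :
    ‖Complex.exp (((-(2 * β) : ℝ) : ℂ) * Complex.I) - w ^ 2‖ ≤
      2 * ‖Complex.exp (((-β : ℝ) : ℂ) * Complex.I) - w‖ := by
  have e : Complex.exp (((-(2 * β) : ℝ) : ℂ) * Complex.I) =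
      Complex.exp (((-β : ℝ) : ℂ) * Complex.I) ^ 2 := by
    rw [pow_two, ← Complex.exp_add]
    congr 1
    push_cast
    ring
  rw [e, sq_sub_sq, norm_mul]
  refine mul_le_mul_of_nonneg_right ((norm_add_le _ _).trans ?_) (norm_nonneg _)
  rw [Complex.norm_exp_ofReal_mul_I, hw]
  norm_num

theorem term {A B v a D e δ σ ε : ℝ} (hσ : σ = 1 ∨ σ = -1) (hD : a = σ * D) (ha : 1 ≤ a)
    (he : |e| ≤ 51 / 100) (hv : |v - (A * σ + B)| ≤ 2 * δ) (hε : |ε| = 1) (hA : 7 / 20 ≤ ε * A) :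
    23 / 100 * (1 / a) + ε * B * (1 / (D + e)) - 41 / 10 * (δ / a) ≤ ε * (v / (D + e)) := by
  obtain ⟨e1, e2⟩ := abs_le.1 he
  have hσ2 : σ * σ = 1 := by rcases hσ with h | h <;> rw [h] <;> norm_num
  have hσ' : |σ| = 1 := by rcases hσ with h | h <;> rw [h] <;> norm_num
  have σ0 : σ ≠ 0 := fun h => by rw [h, zero_mul] at hσ2; exact zero_ne_one hσ2
  have hδ : 0 ≤ δ := by linarith [abs_nonneg (v - (A * σ + B))]
  have d1 : 49 / 100 * a ≤ σ * (D + e) := by rcases hσ with h | h <;> rw [h] at hD ⊢ <;> linarith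
  have d2 : σ * (D + e) ≤ 151 / 100 * a := by rcases hσ with h | h <;> rw [h] at hD ⊢ <;> linarith
  have w1 : |ε * σ * (v - (A * σ + B))| ≤ 2 * δ := by
    rw [abs_mul, abs_mul, hε, hσ', one_mul, one_mul]
    exact hv
  have w2 : ε * σ * (v - (A * σ + B)) = ε * σ * v - ε * A - ε * σ * B := by
    linear_combination (-(ε * A)) * hσ2
  have w3 : 7 / 20 + ε * σ * B - 2 * δ ≤ ε * σ * v := by
    have := (abs_le.1 w1).1
    linarith
  have w5 : ∀ x : ℝ, ε * σ * x / (σ * (D + e)) = ε * (x / (D + e)) := fun x => by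
    rw [mul_comm ε σ, mul_assoc, mul_div_mul_left _ _ σ0, mul_div_assoc]
  have ha0 : 0 < a := by linarith
  have hd0 : 0 < σ * (D + e) := by linarith
  have b3 := div_le_div_of_nonneg_right w3 hd0.le
  rw [sub_div, add_div, w5, w5] at b3
  have b1 : 23 / 100 * (1 / a) ≤ 7 / 20 / (σ * (D + e)) := by
    rw [mul_one_div, div_le_div_iff₀ ha0 hd0]
    linarith
  have b2 : 2 * δ / (σ * (D + e)) ≤ 41 / 10 * (δ / a) := by
    rw [← mul_div_assoc, div_le_div_iff₀ hd0 ha0]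
    nlinarith [mul_le_mul_of_nonneg_left d1 hδ, mul_nonneg hδ ha0.le]
  have b4 : ε * B * (1 / (D + e)) = ε * (B / (D + e)) := by ring
  linarith

theorem sgn (j0 j : ℕ) (hj : j ≠ j0) : ∃ σ : ℝ, ((σ = 1 ∧ sq j0 j = 1) ∨
    (σ = -1 ∧ sq j0 j = -Complex.I)) ∧ |(j0 : ℝ) - j| = σ * ((j0 : ℝ) - j) ∧ 1 ≤ |(j0 : ℝ) - j| := by
  unfold sq
  by_cases h : j < j0
  · have h' : (j : ℝ) + 1 ≤ j0 := by exact_mod_cast h
    have e : |(j0 : ℝ) - j| = j0 - j := abs_of_nonneg (by linarith)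
    exact ⟨1, Or.inl ⟨rfl, if_pos h⟩, by rw [e, one_mul], by rw [e]; linarith⟩
  · have h' : (j0 : ℝ) + 1 ≤ j := by exact_mod_cast (by omega : j0 + 1 ≤ j)
    have e : |(j0 : ℝ) - j| = -(j0 - j) := abs_of_nonpos (by linarith)
    exact ⟨-1, Or.inr ⟨rfl, if_neg h⟩, by rw [e, neg_one_mul], by rw [e]; linarith⟩

theorem pick (θ : ℝ) : ∃ (c : ℕ) (A B : ℝ), c ≤ 2 ∧ 7 / 20 ≤ |A| ∧ |B| ≤ 1 ∧
    ∀ (β σ : ℝ) (w : ℂ), ((σ = 1 ∧ w = 1) ∨ (σ = -1 ∧ w = -Complex.I)) →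
      |Real.sin (c * θ - c * β) - (A * σ + B)| ≤
        2 * ‖Complex.exp (((-β : ℝ) : ℂ) * Complex.I) - w‖ := by
  by_cases h : 1 / 2 ≤ |Real.sin (2 * θ)|
  · refine ⟨2, Real.sin (2 * θ), 0, le_rfl, by linarith, by simp, fun β σ w hw => ?_⟩
    have n : ‖w‖ = 1 := by rcases hw with ⟨-, rfl⟩ | ⟨-, rfl⟩ <;> simp
    refine le_trans (le_of_eq ?_) ((im_bd (2 * θ) (2 * β) (w ^ 2)).trans (sq_bd β w n))
    have e : w ^ 2 = (σ : ℂ) := by rcases hw with ⟨rfl, rfl⟩ | ⟨rfl, rfl⟩ <;> simp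
    rw [e, Complex.im_mul_ofReal, Complex.exp_ofReal_mul_I_im, Nat.cast_ofNat, add_zero]
  · have s1 := Real.abs_sin_le_one θ
    have c1 := Real.abs_cos_le_one θ
    refine ⟨1, (Real.sin θ + Real.cos θ) / 2, (Real.sin θ - Real.cos θ) / 2, one_le_two, ?_, ?_,
      fun β σ w hw => ?_⟩
    · have h1 := (abs_lt.1 (not_le.1 h)).1
      rw [Real.sin_two_mul] at h1
      refine abs_le_of_sq_le_sq' ?_ (abs_nonneg _) |>.2
      rw [sq_abs]
      nlinarith [Real.sin_sq_add_cos_sq θ]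
    · rw [abs_le] at s1 c1 ⊢
      constructor <;> linarith [s1.1, s1.2, c1.1, c1.2]
    · have g := im_bd θ β w
      have e : (Complex.exp ((θ : ℂ) * Complex.I) * w).im =
          (Real.sin θ + Real.cos θ) / 2 * σ + (Real.sin θ - Real.cos θ) / 2 := by
        rcases hw with ⟨rfl, rfl⟩ | ⟨rfl, rfl⟩
        · rw [mul_one, Complex.exp_ofReal_mul_I_im]
          ring
        · rw [mul_neg, Complex.neg_im, Complex.mul_I_im, Complex.exp_ofReal_mul_I_re]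
          ring
      rw [e] at g
      rw [Nat.cast_one, one_mul, one_mul]
      linarith [norm_nonneg (Complex.exp (((-β : ℝ) : ℂ) * Complex.I) - w)]

end LowE1Aux

open LowE1Aux

theorem lowE1_pf (h1 : HarmStmt) (h2 : CancStmt) : LowE1Stmt := by
  intro K j0 M s y hK l1 l2 hs hy hd
  obtain ⟨c, A, B, hc, hA, hB, hp⟩ := pick (2 * π * M * y)
  refine ⟨c * M, Nat.mul_le_mul_right M hc, ?_⟩
  obtain ⟨ε, hε, hA'⟩ : ∃ ε : ℝ, |ε| = 1 ∧ 7 / 20 ≤ ε * A := by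
    rcases le_abs.1 hA with h' | h'
    · exact ⟨1, abs_one, by rwa [one_mul]⟩
    · exact ⟨-1, by rw [abs_neg, abs_one], by rwa [neg_one_mul]⟩
  have he : ∀ j, |y - s j| ≤ 51 / 100 := fun j => by
    linarith [abs_sub y (s j), hs j]
  have a1 := Finset.sum_le_sum (s := (Finset.range (2 ^ K)).erase j0)
    (f := fun j : ℕ => 23 / 100 * (1 / |(j0 : ℝ) - j|) + ε * B * (1 / ((j0 : ℝ) - j + (y - s j))) -
      41 / 10 * (dq M (s j) j0 j / |(j0 : ℝ) - j|))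
    (g := fun j : ℕ => ε * (Real.sin (2 * π * ((c * M : ℕ) : ℝ) * (y - s j)) /
      ((j0 : ℝ) - j + (y - s j)))) fun j hj => by
      obtain ⟨σ, σ1, σ2, σ3⟩ := sgn j0 j (Finset.ne_of_mem_erase hj)
      have g := hp (2 * π * M * s j) σ (sq j0 j) σ1
      have e : (c : ℝ) * (2 * π * M * y) - c * (2 * π * M * s j) =
          2 * π * ((c * M : ℕ) : ℝ) * (y - s j) := by
        push_cast
        ring
      rw [e] at g
      exact term (σ1.imp And.left And.left) σ2 σ3 (he j) g hε hA'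
  rw [Finset.sum_sub_distrib, Finset.sum_add_distrib, ← Finset.mul_sum, ← Finset.mul_sum,
    ← Finset.mul_sum, ← Finset.mul_sum] at a1
  have hj : j0 < 2 ^ K := by
    have : 0 < 2 ^ K := Nat.two_pow_pos K
    omega
  have a2 := (h1 K j0 hK hj).1
  have a7 := h2 K j0 (fun j => y - s j) hK l1 l2 he
  simp only [mul_div_assoc (2 / π)]
  rw [← Finset.mul_sum, abs_mul, abs_of_pos (by positivity : (0 : ℝ) < 2 / π)]
  generalize ∑ j ∈ (Finset.range (2 ^ K)).erase j0,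
    Real.sin (2 * π * ((c * M : ℕ) : ℝ) * (y - s j)) / ((j0 : ℝ) - j + (y - s j)) = X at a1 ⊢
  generalize ∑ j ∈ (Finset.range (2 ^ K)).erase j0, 1 / ((j0 : ℝ) - j + (y - s j)) = Y at a1 a7
  have a3 : ε * X ≤ |X| := by
    refine (le_abs_self _).trans (le_of_eq ?_)
    rw [abs_mul, hε, one_mul]
  have a8 : |ε * B * Y| ≤ 10 := by
    rw [abs_mul, abs_mul, hε, one_mul]
    exact (mul_le_of_le_one_left (abs_nonneg _) hB).trans a7
  have a9 := (abs_le.1 a8).1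
  have a4 : 1 / 2 ≤ 2 / π := by
    rw [div_le_div_iff₀ (by norm_num) Real.pi_pos]
    linarith [Real.pi_le_four]
  have a5 := mul_le_mul_of_nonneg_right a4 (abs_nonneg X)
  have a6 : (0 : ℝ) ≤ K := Nat.cast_nonneg K
  linarith

end Vale.Agent.P091
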