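import Vale.Agent.P091.StmE

namespace Vale.Agent.P091

open MeasureTheory Real Filter Topology

namespace LowE2Aux

theorem tri (A B : ℂ) (a b K : ℝ) (h1 : ‖A - (a : ℂ)‖ ≤ 1) (h2 : ‖B - (b : ℂ)‖ ≤ 3)
    (h3 : |a| ≤ K / 150) (h4 : K / 60 - 10 ≤ |b|) (hK : 0 ≤ K) :
    K / 300 - 20 ≤ ‖A + B‖ := by
  have e : (b : ℂ) = (A + B) - (A - (a : ℂ)) - (B - (b : ℂ)) - (a : ℂ) := by ring
  have h5 : ‖(b : ℂ)‖ ≤ ‖A + B‖ + ‖A - (a : ℂ)‖ + ‖B - (b : ℂ)‖ + ‖(a : ℂ)‖ := by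
    calc ‖(b : ℂ)‖ = ‖(A + B) - (A - (a : ℂ)) - (B - (b : ℂ)) - (a : ℂ)‖ := by rw [← e]
      _ ≤ ‖(A + B) - (A - (a : ℂ)) - (B - (b : ℂ))‖ + ‖(a : ℂ)‖ := norm_sub_le _ _
      _ ≤ ‖(A + B) - (A - (a : ℂ))‖ + ‖B - (b : ℂ)‖ + ‖(a : ℂ)‖ := by
          gcongr; exact norm_sub_le _ _
      _ ≤ ‖A + B‖ + ‖A - (a : ℂ)‖ + ‖B - (b : ℂ)‖ + ‖(a : ℂ)‖ := by
          gcongr; exact norm_sub_le _ _
  rw [Complex.norm_real, Complex.norm_real, Real.norm_eq_abs, Real.norm_eq_abs] at h5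
  linarith

theorem small (K x e : ℝ) (hK : 0 < K) (he : 100 / K ≤ |e|) :
    |2 / π * Real.sin x / e| ≤ K / 150 := by
  have hp : (3 : ℝ) < π := Real.pi_gt_three
  have h0 : 0 < |e| := lt_of_lt_of_le (by positivity) he
  have h1 : 100 ≤ |e| * K := by rwa [div_le_iff₀ hK] at he
  have h2 : 2 / π ≤ 2 / 3 := by gcongr
  have h3 : |2 / π * Real.sin x| ≤ 2 / 3 := by
    rw [abs_mul, abs_of_pos (by positivity : (0 : ℝ) < 2 / π)]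
    calc 2 / π * |Real.sin x| ≤ 2 / π * 1 := by gcongr; exact Real.abs_sin_le_one x
      _ ≤ 2 / 3 := by linarith
  rw [abs_div, div_le_iff₀ h0]
  nlinarith

end LowE2Aux

theorem lowE2_pf (h1 : TermStmt) (h2 : RestStmt) (h3 : LowE1Stmt) : LowE2Stmt := by
  intro K j0 M s y hK hj1 hj2 hs hy hd he
  obtain ⟨m, hm, hlow⟩ := h3 K j0 M s y hK hj1 hj2 hs hy hd
  refine ⟨m, hm, ?_⟩
  have hKr : (0 : ℝ) < K := by exact_mod_cast (by omega : 0 < K)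
  have hpow : 0 < 2 ^ K := by positivity
  have hj0 : j0 ∈ Finset.range (2 ^ K) := by rw [Finset.mem_range]; omega
  have h4 : 4 ≤ 2 ^ K := by
    calc 4 = 2 ^ 2 := by norm_num
      _ ≤ 2 ^ K := Nat.pow_le_pow_right (by norm_num) hK
  have h4r : (4 : ℝ) ≤ ((2 ^ K : ℕ) : ℝ) := by exact_mod_cast h4
  have he0 : 0 < |y - s j0| := lt_of_lt_of_le (by positivity) he
  have hne : (((0 : ℤ) : ℝ)) + (y - s j0) ≠ 0 := by
    simpa using abs_pos.mp he0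
  have hle : |(((0 : ℤ) : ℝ)) + (y - s j0)| ≤ ((2 ^ K : ℕ) : ℝ) := by
    have := abs_sub y (s j0)
    have := hs j0
    simp only [Int.cast_zero, zero_add]
    linarith
  have hT := h1 (2 ^ K) m 0 (y - s j0) hpow hne hle
  have hR := h2 K j0 m s y hK hj1 hj2 hs hy
  rw [← Finset.add_sum_erase _ _ hj0, mul_add]
  have h31 : (3 : ℝ) / ((2 ^ K : ℕ) : ℝ) ≤ 1 := by
    rw [div_le_one (by linarith)]; linarith
  have harg : π * ((j0 : ℝ) + y) / 2 ^ K - π * ((j0 : ℝ) + s j0) / 2 ^ K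
      = π * ((((0 : ℤ) : ℝ)) + (y - s j0)) / ((2 ^ K : ℕ) : ℝ) := by
    push_cast; ring
  have hc : (1 / 2 ^ K : ℝ) = 1 / ((2 ^ K : ℕ) : ℝ) := by push_cast; ring
  refine LowE2Aux.tri _ _
    (2 / π * Real.sin (2 * π * m * (y - s j0)) / ((((0 : ℤ) : ℝ)) + (y - s j0))) _ K ?_ hR ?_ hlow
    hKr.le
  · rw [harg, hc]
    exact hT.trans h31
  · apply LowE2Aux.small _ _ _ hKr
    simpa using he

end Vale.Agent.P091
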