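import Vale.Agent.P091.StmE

namespace Vale.Agent.P091

open MeasureTheory Real Filter Topology

namespace LowE3Aux

theorem dk_low (N : ℕ) (u : ℝ) (h : N * |u| ≤ π / 3) : (N : ℝ) ≤ ‖Dk N u‖ := by
  refine le_trans ?_ (Complex.re_le_norm _)
  unfold Dk
  rw [Complex.re_sum]
  have h1 : ∀ k ∈ Finset.Icc (-(N : ℤ)) (N : ℤ),
      (1 / 2 : ℝ) ≤ (Complex.exp ((k : ℂ) * (u : ℂ) * Complex.I)).re := by
    intro k hk
    have e : (k : ℂ) * (u : ℂ) * Complex.I = (((k * u) : ℝ) : ℂ) * Complex.I := by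
      push_cast; ring
    rw [e, Complex.exp_ofReal_mul_I_re, ← cos_abs, ← cos_pi_div_three]
    have h2 : |(k : ℝ)| ≤ N := by exact_mod_cast abs_le.2 (Finset.mem_Icc.1 hk)
    refine cos_le_cos_of_nonneg_of_le_pi (abs_nonneg _) (by linarith [pi_pos]) ?_
    rw [abs_mul]
    exact (mul_le_mul_of_nonneg_right h2 (abs_nonneg u)).trans h
  refine le_trans ?_ (Finset.sum_le_sum h1)
  rw [Finset.sum_const, Int.card_Icc, nsmul_eq_mul]
  have : ((N : ℤ) + 1 - -(N : ℤ)).toNat = 2 * N + 1 := by omega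
  rw [this]
  push_cast
  linarith

theorem tri3 (c A B : ℂ) (r : ℝ) (h1 : ‖c * B - (r : ℂ)‖ ≤ 3) (h2 : |r| ≤ 8) :
    ‖c * A‖ - 11 ≤ ‖c * (A + B)‖ := by
  have h3 := norm_add_le (c * B - (r : ℂ)) (r : ℂ)
  rw [sub_add_cancel, Complex.norm_real, Real.norm_eq_abs] at h3
  have h4 := norm_sub_le (c * (A + B)) (c * B)
  rw [mul_add, add_sub_cancel_right, ← mul_add] at h4
  linarith

end LowE3Aux

open LowE3Aux in
theorem lowE3_pf (h1 : RestStmt) (h2 : SmallTStmt) : LowE3Stmt := by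
  intro K j0 s y hK ha hb hs hy hd
  have hK2 : (2 : ℝ) ≤ K := by exact_mod_cast hK
  have hs' : ∀ j, |s j| ≤ 1 / 100 := fun j => (hs j).trans
    (one_div_le_one_div_of_le (by norm_num) (by nlinarith))
  obtain ⟨m, hm⟩ : ∃ m, m = K / 600 := ⟨_, rfl⟩
  have hmK : m ≤ K := by omega
  have m1 : (600 : ℝ) * m ≤ K := by exact_mod_cast (by omega : 600 * m ≤ K)
  have m2 : (K : ℝ) ≤ 600 * m + 600 := by exact_mod_cast (by omega : K ≤ 600 * m + 600)
  have hp : 0 < 2 ^ K := by positivity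
  have hj : j0 ∈ Finset.range (2 ^ K) := Finset.mem_range.2 (by omega)
  refine ⟨m, hmK, ?_⟩
  rw [← Finset.add_sum_erase _ _ hj]
  refine le_trans ?_ (tri3 _ _ _ _ (h1 K j0 m s y hK ha hb hs' hy) (h2 K j0 m s y hK ha hb hs hy hmK))
  have hP : (0 : ℝ) < 2 ^ K := by positivity
  have e : π * (j0 + y) / 2 ^ K - π * (j0 + s j0) / 2 ^ K = π * (y - s j0) / 2 ^ K := by ring
  have hl := dk_low (2 * 2 ^ K * m) (π * (y - s j0) / 2 ^ K) (by
    have e2 : ((2 * 2 ^ K * m : ℕ) : ℝ) * |π * (y - s j0) / 2 ^ K| = 2 * π * (m * |y - s j0|) := by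
      rw [abs_div, abs_mul, abs_of_pos pi_pos, abs_of_pos hP]
      push_cast
      field_simp
    have h3 : |y - s j0| * K ≤ 100 := (le_div_iff₀ (by linarith)).1 hd
    have h4 : m * |y - s j0| ≤ 1 / 6 := by nlinarith [abs_nonneg (y - s j0)]
    rw [e2]
    nlinarith [pi_pos])
  rw [e, norm_mul, Complex.norm_real, Real.norm_of_nonneg (by positivity)]
  have h5 := mul_le_mul_of_nonneg_left hl (by positivity : (0 : ℝ) ≤ 1 / 2 ^ K)
  have e3 : (1 / 2 ^ K : ℝ) * ((2 * 2 ^ K * m : ℕ) : ℝ) = 2 * m := by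
    push_cast
    field_simp
  rw [e3] at h5
  linarith

end Vale.Agent.P091
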