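import Vale.Agent.P091.Stm

namespace Vale.Agent.P091

open MeasureTheory Real Filter Topology

theorem phiB_pf : PhiBStmt := by
  intro φ a F Q c η₁ η₂ hB hQ hc h1 h2 hφ hv hi
  obtain ⟨hcont, -, h0, -⟩ := hB
  have e : ∫⁻ x in Set.Ioc 0 (2 * π), ENNReal.ofReal (a.h x) ≤ ENNReal.ofReal η₂ := by
    rw [← ofReal_integral_eq_lintegral_ofReal (hcont.intervalIntegrable 0 (2 * π)).1
      (ae_of_all _ h0), ← intervalIntegral.integral_of_le two_pi_pos.le]
    exact ENNReal.ofReal_le_ofReal hi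
  refine (lintegral_mono (g := fun x => ENNReal.ofReal Q +
    ENNReal.ofReal c * ENNReal.ofReal (a.h x)) fun x => ?_).trans ?_
  · beta_reduce
    rw [← ENNReal.ofReal_mul hc, ← ENNReal.ofReal_add hQ (mul_nonneg hc (h0 x))]
    exact ENNReal.ofReal_le_ofReal (hφ x)
  · rw [lintegral_add_left measurable_const, setLIntegral_const,
      lintegral_const_mul' _ _ ENNReal.ofReal_ne_top,
      ENNReal.ofReal_add (mul_nonneg hQ h1) (mul_nonneg hc h2), ENNReal.ofReal_mul hQ,
      ENNReal.ofReal_mul hc]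
    gcongr
    exact (lintegral_mono_set Set.inter_subset_right).trans e

theorem trans_pf (h : TransBStmt) : TransStmt := by
  intro G h1 h2 h3
  choose t ht using fun i : ℕ =>
    h (fun l => G (Nat.pair i l)) (fun _ => h1 _) (fun _ => h2 _) fun _ => h3 _
  refine ⟨fun r => t r.unpair.1 r.unpair.2, ?_⟩
  filter_upwards [ae_all_iff.2 ht] with x hx
  refine frequently_atTop.2 fun i => ?_
  obtain ⟨l, hl⟩ := hx i
  exact ⟨Nat.pair i l, Nat.left_le_pair i l, by simpa only [Nat.unpair_pair] using hl⟩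

end Vale.Agent.P091
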