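import Vale.Agent.P091.Stm

namespace Vale.Agent.P091

open MeasureTheory Real Filter Topology

namespace SeqAux

/-- The state after `r` steps: sums of `A`, of `B` and of `2 Nm + 1`. -/
noncomputable def stt (st : ℝ → ℝ → ℝ → Pack) : ℕ → ℝ × ℝ × ℝ
  | 0 => (0, 0, 0)
  | r + 1 =>
    let u := stt st r
    let a := st ((1 / 2) ^ r / (1 + |u.2.2|)) u.1 ((r : ℝ) + 1 + u.2.1)
    (u.1 + a.A, u.2.1 + a.B, u.2.2 + (2 * (a.Nm : ℝ) + 1))

noncomputable def et (st : ℝ → ℝ → ℝ → Pack) (r : ℕ) : ℝ :=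
  (1 / 2) ^ r / (1 + |(stt st r).2.2|)

noncomputable def pk (st : ℝ → ℝ → ℝ → Pack) (r : ℕ) : Pack :=
  st (et st r) (stt st r).1 ((r : ℝ) + 1 + (stt st r).2.1)

theorem stt_eq (st : ℝ → ℝ → ℝ → Pack) (r : ℕ) :
    stt st r = (∑ s ∈ Finset.range r, (pk st s).A, ∑ s ∈ Finset.range r, (pk st s).B,
      ∑ s ∈ Finset.range r, (2 * ((pk st s).Nm : ℝ) + 1)) := by
  induction r with
  | zero => simp [stt]
  | succ r ih =>
    rw [Finset.sum_range_succ, Finset.sum_range_succ, Finset.sum_range_succ]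
    have h : stt st (r + 1) = ((stt st r).1 + (pk st r).A, (stt st r).2.1 + (pk st r).B,
        (stt st r).2.2 + (2 * ((pk st r).Nm : ℝ) + 1)) := rfl
    rw [h, ih]

theorem et_pos (st : ℝ → ℝ → ℝ → Pack) (r : ℕ) : 0 < et st r := by
  unfold et
  positivity

end SeqAux

open SeqAux in
theorem seq_pf (h : StepStmt) : SeqStmt := by
  intro φ hφ
  have h1 : ∀ η F T : ℝ, ∃ a : Pack, 0 < η →
      Base a ∧ Small η a ∧ Phi φ η |F| a ∧ Big T a := by
    intro η F T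
    by_cases hη : 0 < η
    · obtain ⟨a, ha⟩ := h φ hφ η |F| T hη (abs_nonneg F)
      exact ⟨a, fun _ => ha⟩
    · exact ⟨⟨fun _ => 0, 0, 0, 0, ∅⟩, fun h' => absurd h' hη⟩
  choose st hst using h1
  have hp : ∀ r, Base (pk st r) ∧ Small (et st r) (pk st r) ∧
      Phi φ (et st r) |(stt st r).1| (pk st r) ∧
      Big ((r : ℝ) + 1 + (stt st r).2.1) (pk st r) := fun r => hst _ _ _ (et_pos st r)
  have hA : ∀ r, 0 ≤ (pk st r).A := fun r =>
    le_trans ((hp r).1.2.2.1 0) ((hp r).1.2.2.2.1 0)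
  refine ⟨pk st, et st, fun r => ?_⟩
  obtain ⟨hb, hs, hph, hbig⟩ := hp r
  have e := stt_eq st r
  have e1 : (stt st r).1 = ∑ s ∈ Finset.range r, (pk st s).A := by rw [e]
  have e2 : (stt st r).2.1 = ∑ s ∈ Finset.range r, (pk st s).B := by rw [e]
  have e3 : (stt st r).2.2 = ∑ s ∈ Finset.range r, (2 * ((pk st s).Nm : ℝ) + 1) := by rw [e]
  have hq : (0 : ℝ) < (1 / 2) ^ r := by positivity
  have hd : (0 : ℝ) < 1 + |(stt st r).2.2| := by positivity
  refine ⟨et_pos st r, ?_, ?_, hb, hs, ?_, ?_⟩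
  · unfold et
    rw [div_le_iff₀ hd]
    nlinarith [abs_nonneg (stt st r).2.2]
  · intro s hs'
    have hle : 2 * ((pk st s).Nm : ℝ) + 1 ≤ (stt st r).2.2 := by
      rw [e3]
      exact Finset.single_le_sum (f := fun s => 2 * ((pk st s).Nm : ℝ) + 1)
        (fun i _ => by positivity) (Finset.mem_range.mpr hs')
    unfold et
    rw [div_mul_eq_mul_div, div_le_iff₀ hd]
    have : 2 * ((pk st s).Nm : ℝ) + 1 ≤ 1 + |(stt st r).2.2| := by
      linarith [le_abs_self (stt st r).2.2]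
    exact mul_le_mul_of_nonneg_left this hq.le
  · rw [e1, abs_of_nonneg (Finset.sum_nonneg fun i _ => hA i)] at hph
    exact hph
  · rw [e2] at hbig
    exact hbig

end Vale.Agent.P091
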