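import Vale.Agent.P091.Stm

namespace Vale.Agent.P091

open MeasureTheory Real Filter Topology

theorem step_pf (h1 : AtomStmt) (h2 : StepAStmt) (h3 : ScaleStmt) (h4 : PhiBStmt) : StepStmt := by
  intro φ hφ η F T hη hF
  obtain ⟨U, u1, u2⟩ : ∃ U : ℝ, T ≤ U ∧ 1 ≤ U := ⟨max T 1, le_max_left _ _, le_max_right _ _⟩
  have p0 := pi_pos
  have u0 : 0 < U := by linarith
  have e0 : 0 < η / (160000 * π * U) := by positivity
  obtain ⟨Q, q0, hQ⟩ := h2 φ hφ _ F e0 hF
  obtain ⟨K, hK⟩ := exists_nat_ge (4200 + 400 * U + 400 * π * U / η + 1 / η + 2 * Q / η)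
  have a1 : 0 ≤ 400 * π * U / η := by positivity
  have a2 : 0 ≤ 1 / η := by positivity
  have a3 : 0 ≤ 2 * Q / η := by positivity
  have k1 : (4200 : ℝ) ≤ K := by linarith
  have k0 : (0 : ℝ) < K := by linarith
  have k2 : 400 * U ≤ K := by linarith
  have k3 : 400 * π * U ≤ K * η := (div_le_iff₀ hη).1 (by linarith)
  have k4 : 1 ≤ K * η := (div_le_iff₀ hη).1 (by linarith)
  have k5 : 2 * Q ≤ K * η := (div_le_iff₀ hη).1 (by linarith)
  obtain ⟨a, b1, b2, b3, b4, b5⟩ := h1 K (by exact_mod_cast (by linarith : (2 : ℝ) ≤ K))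
  obtain ⟨c, hc⟩ : ∃ c : ℝ, c * K = 200 * U := ⟨200 * U / K, div_mul_cancel₀ _ k0.ne'⟩
  have c0 : 0 < c := (mul_pos_iff_of_pos_right k0).1 (by rw [hc]; positivity)
  have c1 : 2 * c ≤ 1 := le_of_mul_le_mul_right (by linarith) k0
  have c2 : c * (2 * π) ≤ η := le_of_mul_le_mul_right (by
    rw [mul_right_comm, hc]; linarith) k0
  have c3 : T ≤ c * ((K : ℝ) / 100 - 21) := by
    have := mul_le_mul_of_nonneg_left k1 c0.le
    linarith
  obtain ⟨s1, s2⟩ := h3 a c _ c0 b1 b5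
  have es : {x | c * a.h x ≠ 0} = {x | a.h x ≠ 0} := by
    ext x
    simp [c0.ne']
  have i1 : (∫ x in (0 : ℝ)..(2 * π), c * a.h x) ≤ c * (2 * π) := by
    rw [intervalIntegral.integral_const_mul]
    exact mul_le_mul_of_nonneg_left b3 c0.le
  have v1 : volume ({x | c * a.h x ≠ 0} ∩ Set.Ioc 0 (2 * π)) ≤ ENNReal.ofReal (1 / (K : ℝ)) := by
    rw [es]
    exact b4
  refine ⟨_, s1, ⟨i1.trans c2, v1.trans (ENNReal.ofReal_le_ofReal ?_)⟩, ?_, fun x hx => ?_⟩
  · rw [div_le_iff₀ k0]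
    linarith
  · have := h4 φ _ F Q (η / (160000 * π * U) * (200 * K)) (1 / K) (c * (2 * π)) s1 q0
      (by positivity) (by positivity) (by positivity) (fun x => hQ (200 * K) (c * a.h x)
        (by positivity) (mul_nonneg c0.le (b1.2.2.1 x)) ?_) v1 i1
    · refine le_trans this (ENNReal.ofReal_le_ofReal ?_)
      have e1 : η / (160000 * π * U) * (200 * K) * (c * (2 * π)) = η / 2 := by
        rw [show η / (160000 * π * U) * (200 * K) * (c * (2 * π)) =
          η / (160000 * π * U) * (400 * π * (c * K)) by ring, hc]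
        field_simp
        ring
      have e2 : Q * (1 / K) ≤ η / 2 := by
        rw [mul_one_div, div_le_iff₀ k0]
        linarith
      linarith
    · have := mul_le_mul_of_nonneg_right c1 (b1.2.2.1 x)
      rw [show (200 * (K : ℝ)) ^ 2 = 40000 * (K : ℝ) ^ 2 by ring]
      linarith [b1.2.2.2.1 x]
  · obtain ⟨N, n1, n2⟩ := s2 x hx
    exact ⟨N, n1, c3.trans n2⟩

end Vale.Agent.P091
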