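import Vale.Agent.P091.Stm

namespace Vale.Agent.P091

open MeasureTheory Real Filter Topology

theorem stepA_pf : StepAStmt := by
  rintro φ ⟨hm, h0, ht⟩ ε F hε hF
  obtain ⟨u₀, hu⟩ := eventually_atTop.1
    ((ht.eventually_le_const (half_pos hε)).and (eventually_ge_atTop 3))
  have u3 := (hu u₀ le_rfl).2
  have w1 := le_max_left F u₀
  have w2 := le_max_right F u₀
  obtain ⟨w, hw⟩ : ∃ w, w = max F u₀ := ⟨_, rfl⟩
  rw [← hw] at w1 w2
  have Q0 := h0 (F + w) (by linarith)
  refine ⟨φ (F + w), Q0, fun L v hL hv h => ?_⟩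
  rcases le_total v w with k | k
  · have := hm (a := F + v) (b := F + w) (Set.mem_Ici.2 (by linarith))
      (Set.mem_Ici.2 (by linarith)) (by linarith)
    linarith [mul_nonneg (mul_nonneg hε.le hL) hv]
  · have a1 := hm (a := F + v) (b := 2 * v) (Set.mem_Ici.2 (by linarith))
      (Set.mem_Ici.2 (by linarith)) (by linarith)
    have a2 := (hu (2 * v) (by linarith)).1
    have a3 : 0 < √(Real.log (2 * v)) := Real.sqrt_pos.2 (Real.log_pos (by linarith))
    have a4 : √(Real.log (2 * v)) ≤ L :=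
      Real.sqrt_le_iff.2 ⟨hL, (Real.log_le_iff_le_exp (by linarith)).2 h⟩
    rw [div_le_iff₀ (mul_pos (by linarith) a3)] at a2
    linarith [mul_le_mul_of_nonneg_left a4 (mul_nonneg hε.le hv)]

theorem scale_pf : ScaleStmt := by
  rintro a c T hc ⟨h1, h2, h3, h4, h5, h6⟩ hb
  have e : ∀ N x, ‖S (fun x => ((c * a.h x : ℝ) : ℂ)) N x‖ =
      c * ‖S (fun x => (a.h x : ℂ)) N x‖ := fun N x => by
    simp only [Complex.ofReal_mul, S_smul, norm_mul, Complex.norm_real, Real.norm_of_nonneg hc.le]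
  refine ⟨⟨continuous_const.mul h1, fun x => congrArg (c * ·) (h2 x),
    fun x => mul_nonneg hc.le (h3 x), fun x => mul_le_mul_of_nonneg_left (h4 x) hc.le,
    fun N x => (e N x).trans_le (mul_le_mul_of_nonneg_left (h5 N x) hc.le), h6⟩, fun x hx => ?_⟩
  obtain ⟨N, hN, k⟩ := hb x hx
  exact ⟨N, hN, (mul_le_mul_of_nonneg_left k hc.le).trans_eq (e N x).symm⟩

end Vale.Agent.P091
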