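import Vale.Agent.P091.Stm

namespace Vale.Agent.P091

open MeasureTheory Real Filter Topology

namespace TransAAux

theorem compl_le {G : Set ℝ} (hG : MeasurableSet G)
    (h : ENNReal.ofReal (π / 8) ≤ volume (G ∩ Set.Ioc 0 (2 * π))) :
    volume (Gᶜ ∩ Set.Ioc 0 (2 * π)) ≤ ENNReal.ofReal (15 / 16) * ENNReal.ofReal (2 * π) := by
  have hp := pi_pos
  have h1 := measure_inter_add_diff (μ := volume) (Set.Ioc 0 (2 * π)) hG
  rw [Real.volume_Ioc, sub_zero, Set.inter_comm, Set.diff_eq, Set.inter_comm _ Gᶜ] at h1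
  have h2 : ENNReal.ofReal (2 * π) =
      ENNReal.ofReal (π / 8) + ENNReal.ofReal (15 / 16) * ENNReal.ofReal (2 * π) := by
    rw [← ENNReal.ofReal_mul (by norm_num), ← ENNReal.ofReal_add (by positivity) (by positivity)]
    refine congrArg _ ?_
    ring
  refine ENNReal.le_of_add_le_add_left (a := ENNReal.ofReal (π / 8)) ENNReal.ofReal_ne_top ?_
  rw [← h2, ← h1]
  exact add_le_add_left h _

end TransAAux

theorem transA_pf : TransAStmt := by
  intro E G hE hG hp hv _
  have hpi := pi_pos
  set h : ℝ → ENNReal := Gᶜ.indicator 1 with hh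
  have hm : Measurable h := measurable_one.indicator hG.compl
  have hper : Function.Periodic h (2 * π) := by
    intro x
    by_cases hx : x ∈ G
    · simp [hh, hx, (hp x).2 hx]
    · simp [hh, hx, mt (hp x).1 hx]
  have hm2 : Measurable (Function.uncurry fun σ x : ℝ => h (x + σ)) :=
    hm.comp (measurable_snd.add measurable_fst)
  have h1 : ∫⁻ σ in Set.Ioc 0 (2 * π), ∫⁻ x in E, h (x + σ) =
      volume (Gᶜ ∩ Set.Ioc 0 (2 * π)) * volume E := by
    rw [lintegral_lintegral_swap hm2.aemeasurable, ← setLIntegral_const]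
    refine lintegral_congr fun x => ?_
    have h2 := lint_shift hper (-x)
    simp only [sub_neg_eq_add] at h2
    simp only [add_comm x]
    rw [h2, hh, lintegral_indicator_one hG.compl, Measure.restrict_apply hG.compl]
  have hI : volume (Set.Ioc 0 (2 * π)) = ENNReal.ofReal (2 * π) := by
    rw [Real.volume_Ioc, sub_zero]
  have hI0 : ENNReal.ofReal (2 * π) ≠ 0 := by
    rw [Ne, ENNReal.ofReal_eq_zero, not_le]; positivity
  obtain ⟨σ, -, hσ⟩ := exists_le_setLAverage (μ := volume) (s := Set.Ioc 0 (2 * π))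
    (f := fun σ => ∫⁻ x in E, h (x + σ)) (by rwa [hI]) (by rw [hI]; exact ENNReal.ofReal_ne_top)
    hm2.lintegral_prod_right.aemeasurable
  rw [setLAverage_eq, h1, hI] at hσ
  refine ⟨-σ, ?_⟩
  have hm3 : MeasurableSet {x : ℝ | x - -σ ∈ G} :=
    hG.preimage (by fun_prop : Measurable fun x : ℝ => x - -σ)
  have e : (fun x => h (x + σ)) = {x : ℝ | x - -σ ∈ G}ᶜ.indicator 1 := by
    funext x
    by_cases hx : x + σ ∈ G <;> simp [hh, Set.indicator, hx]
  rw [e, lintegral_indicator_one hm3.compl, Measure.restrict_apply hm3.compl,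
    Set.inter_comm] at hσ
  refine hσ.trans (ENNReal.div_le_of_le_mul ?_)
  rw [mul_right_comm]
  exact mul_le_mul_left (TransAAux.compl_le hG hv) _

end Vale.Agent.P091
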