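import Vale.Agent.P091.Stm

namespace Vale.Agent.P091

open MeasureTheory Real Filter Topology

namespace TransBAux

theorem null_of_per {Z : Set ℝ} (hp : ∀ x, x + 2 * π ∈ Z ↔ x ∈ Z)
    (h0 : volume (Z ∩ Set.Ioc 0 (2 * π)) = 0) : volume Z = 0 := by
  have hT : (0 : ℝ) < 2 * π := by positivity
  have hper : Function.Periodic (fun x => x ∈ Z) (2 * π) := fun x => propext (hp x)
  have hsub : Z ⊆ ⋃ m : ℤ, (fun x => x + -(m • (2 * π))) ⁻¹' (Z ∩ Set.Ioc 0 (2 * π)) := by
    intro x hx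
    refine Set.mem_iUnion.2 ⟨toIocDiv hT 0 x, ?_, ?_⟩
    · have := hper.sub_zsmul_eq (x := x) (toIocDiv hT 0 x)
      rw [sub_eq_add_neg] at this
      exact this.mpr hx
    · have := toIocMod_mem_Ioc hT 0 x
      rw [zero_add, toIocMod, sub_eq_add_neg] at this
      exact this
  refine measure_mono_null hsub (measure_iUnion_null fun m => ?_)
  rw [measure_preimage_add_right]
  exact h0

end TransBAux

theorem transB_pf (h : TransAStmt) : TransBStmt := by
  intro G hG hp hv
  have key : ∀ (r : ℕ) (E : {E : Set ℝ // MeasurableSet E ∧ E ⊆ Set.Ioc 0 (2 * π)}), ∃ τ : ℝ,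
      volume (E.1 \ {x | x - τ ∈ G r}) ≤ ENNReal.ofReal (15 / 16) * volume E.1 :=
    fun r E => h E.1 (G r) E.2.1 (hG r) (hp r) (hv r) E.2.2
  choose t ht using key
  have hm : ∀ (r : ℕ) (τ : ℝ), MeasurableSet {x | x - τ ∈ G r} :=
    fun r τ => (measurable_id.sub_const τ) (hG r)
  let E : ℕ → {E : Set ℝ // MeasurableSet E ∧ E ⊆ Set.Ioc 0 (2 * π)} := fun r =>
    Nat.rec ⟨Set.Ioc 0 (2 * π), measurableSet_Ioc, subset_rfl⟩
      (fun r E => ⟨E.1 \ {x | x - t r E ∈ G r}, E.2.1.diff (hm r _),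
        Set.diff_subset.trans E.2.2⟩) r
  have hE : ∀ r, (E (r + 1)).1 = (E r).1 \ {x | x - t r (E r) ∈ G r} := fun r => rfl
  have hE0 : (E 0).1 = Set.Ioc 0 (2 * π) := rfl
  have hvol : ∀ r, volume (E r).1 ≤ ENNReal.ofReal (15 / 16) ^ r * volume (E 0).1 := by
    intro r
    induction r with
    | zero => simp
    | succ r ih =>
      rw [hE r]
      refine (ht r (E r)).trans ?_
      rw [pow_succ', mul_assoc]
      gcongr
  refine ⟨fun r => t r (E r), ?_⟩
  rw [ae_iff]
  refine TransBAux.null_of_per (fun x => ?_) ?_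
  · simp only [Set.mem_setOf_eq]
    refine not_congr (exists_congr fun r => ?_)
    rw [← hp r (x - t r (E r)), add_sub_right_comm]
  · have hsub : ∀ r, {a | ¬∃ r, a - t r (E r) ∈ G r} ∩ Set.Ioc 0 (2 * π) ⊆ (E r).1 := by
      intro r
      induction r with
      | zero => exact Set.inter_subset_right
      | succ r ih =>
        intro x hx
        rw [hE r]
        exact ⟨ih hx, fun hc => hx.1 ⟨r, hc⟩⟩
    have hlt : ENNReal.ofReal (15 / 16) < 1 := by
      rw [ENNReal.ofReal_lt_one]; norm_num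
    have hfin : volume (E 0).1 ≠ ⊤ := by
      rw [hE0, Real.volume_Ioc]; exact ENNReal.ofReal_ne_top
    have hlim := ENNReal.Tendsto.mul_const (ENNReal.tendsto_pow_atTop_nhds_zero_of_lt_one hlt)
      (Or.inr hfin)
    rw [zero_mul] at hlim
    refine le_antisymm ?_ (zero_le)
    exact ge_of_tendsto' hlim fun r => (measure_mono (hsub r)).trans (hvol r)

end Vale.Agent.P091
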