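import Vale.Agent.P091.Stm

namespace Vale.Agent.P091

open MeasureTheory Real Filter Topology

theorem triA_pf : TriAStmt := by
  intro δ hδ _
  have hπ := Real.pi_pos
  refine ⟨?_, fun y => ?_, fun y => ?_, fun y => ?_, ?_⟩
  · unfold tri
    exact continuous_const.mul (continuous_const.max
      (continuous_const.sub (Real.continuous_arccos.comp Real.continuous_cos)))
  · simp only [tri, Real.cos_add_two_pi]
  · exact mul_nonneg (by positivity) (le_max_left _ _)
  · unfold tri
    have h1 : max 0 (δ - Real.arccos (Real.cos y)) ≤ δ :=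
      max_le hδ.le (by linarith [Real.arccos_nonneg (Real.cos y)])
    calc 2 * π / δ ^ 2 * max 0 (δ - Real.arccos (Real.cos y)) ≤ 2 * π / δ ^ 2 * δ :=
          mul_le_mul_of_nonneg_left h1 (by positivity)
      _ = 2 * π / δ := by field_simp
  · have hsub : {y | tri δ y ≠ 0} ∩ Set.Ioc 0 (2 * π) ⊆
        Set.Ioo 0 δ ∪ Set.Ioc (2 * π - δ) (2 * π) := by
      rintro y ⟨hy, h0, h2⟩
      have h3 : Real.arccos (Real.cos y) < δ := by
        by_contra hc
        apply hy
        unfold tri
        rw [max_eq_left (by linarith), mul_zero]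
      rcases le_total y π with h | h
      · rw [Real.arccos_cos h0.le h] at h3
        exact Or.inl ⟨h0, h3⟩
      · rw [← Real.cos_two_pi_sub, Real.arccos_cos (by linarith) (by linarith)] at h3
        exact Or.inr ⟨by linarith, h2⟩
    refine (measure_mono hsub).trans ((measure_union_le _ _).trans (le_of_eq ?_))
    rw [Real.volume_Ioo, Real.volume_Ioc, ← ENNReal.ofReal_add (by linarith) (by linarith)]
    congr 1
    ring

end Vale.Agent.P091
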