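import Vale.Agent.P091.Stm

/-! Fourier coefficients of the triangular bump. -/

namespace Vale.Agent.P091

open Real intervalIntegral

namespace TriBAux

theorem fold {δ : ℝ} (h0 : 0 < δ) (h1 : δ ≤ 1) {F : ℝ → ℂ} {G : ℝ → ℝ} (hF : Continuous F)
    (hp : Function.Periodic F (2 * π)) (hG : ∀ y, F y + F (-y) = G y) :
    ∫ y in (0 : ℝ)..(2 * π), (tri δ y : ℂ) * F y =
      ((2 * π / δ ^ 2 * ∫ y in (0 : ℝ)..δ, (δ - y) * G y : ℝ) : ℂ) := by
  have c : Continuous fun y => (tri δ y : ℂ) * F y := by
    have := Real.continuous_arccos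
    unfold tri
    fun_prop
  have p : Function.Periodic (fun y => (tri δ y : ℂ) * F y) (2 * π) := fun y => by
    simp only [tri, Real.cos_add_two_pi, hp y]
  have d : δ ≤ π := by linarith [Real.pi_gt_three]
  have c2 : Continuous fun y => (tri δ y : ℂ) * F y + (tri δ (-y) : ℂ) * F (-y) :=
    c.add (c.comp continuous_neg)
  have e : ∀ y ∈ Set.Icc 0 π, (tri δ y : ℂ) * F y + (tri δ (-y) : ℂ) * F (-y) =
      ((2 * π / δ ^ 2 * (max 0 (δ - y) * G y) : ℝ) : ℂ) := fun y hy => by
    simp only [tri, Real.cos_neg, Real.arccos_cos hy.1 hy.2]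
    rw [← mul_add, hG, ← mul_assoc, Complex.ofReal_mul _ (G y)]
  have a := p.intervalIntegral_add_eq 0 (-π)
  have b := integral_comp_neg (a := 0) (b := π) fun y => (tri δ y : ℂ) * F y
  rw [zero_add, show -π + 2 * π = π by ring] at a
  rw [neg_zero] at b
  rw [a, ← integral_add_adjacent_intervals (c.intervalIntegrable (-π) 0)
    (c.intervalIntegrable 0 π), ← b, add_comm, ← integral_add (c.intervalIntegrable _ _)
    (g := fun y => (tri δ (-y) : ℂ) * F (-y)) ((c.comp continuous_neg).intervalIntegrable _ _),
    ← integral_add_adjacent_intervals (c2.intervalIntegrable 0 δ) (c2.intervalIntegrable δ π),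
    integral_congr (a := δ) (g := fun _ => 0) fun y hy => by
      rw [Set.uIcc_of_le d] at hy
      rw [e y ⟨h0.le.trans hy.1, hy.2⟩, max_eq_left (by linarith [hy.1])]
      simp,
    integral_zero, add_zero, ← integral_const_mul, ← integral_ofReal]
  refine integral_congr fun y hy => ?_
  rw [Set.uIcc_of_le h0.le] at hy
  rw [e y ⟨hy.1, hy.2.trans d⟩, max_eq_right (by linarith [hy.2])]

end TriBAux

theorem triB_pf : TriBStmt := by
  intro δ h0 h1
  constructor
  · have := TriBAux.fold h0 h1 (F := fun _ => 1) (G := fun _ => 2) continuous_const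
      (fun _ => rfl) fun _ => by norm_num
    simp only [mul_one] at this
    rw [integral_ofReal, Complex.ofReal_inj] at this
    rw [this, integral_mul_const, integral_sub (by simp) (by simp), integral_id]
    simp
    field_simp
    ring
  · intro k hk
    have k0 : (k : ℝ) ≠ 0 := by exact_mod_cast hk
    have i : ∫ y in (0 : ℝ)..δ, (δ - y) * (2 * Real.cos (k * y)) =
        2 * (1 - Real.cos (k * δ)) / k ^ 2 := by
      rw [integral_eq_sub_of_hasDerivAt
        (f := fun y => (δ - y) * (2 * Real.sin (k * y) / k) - 2 * Real.cos (k * y) / k ^ 2)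
        (fun y _ => ?_) (Continuous.intervalIntegrable (by fun_prop) _ _)]
      · simp
        ring
      · have a := (hasDerivAt_id y).const_mul (k : ℝ)
        refine ((((hasDerivAt_id y).const_sub δ).mul ((a.sin.const_mul 2).div_const k)).sub
          ((a.cos.const_mul 2).div_const (k ^ 2))).congr_deriv ?_
        simp only [id]
        field_simp
        ring
    rw [coef, TriBAux.fold h0 h1 (G := fun y => 2 * Real.cos (k * y)) (by fun_prop)
      (fun y => ?_) fun y => ?_, i, ← Complex.ofReal_mul]
    · congr 1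
      field_simp
    · rw [show -((k : ℂ) * ((y + 2 * π : ℝ) : ℂ) * Complex.I) =
        -(k * y * Complex.I) + (-k : ℤ) * (2 * π * Complex.I) by push_cast; ring, Complex.exp_add,
        Complex.exp_int_mul_two_pi_mul_I, mul_one]
    · push_cast
      rw [Complex.two_cos, add_comm]
      congr 2 <;> ring

end Vale.Agent.P091
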