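import Vale.Agent.P091.Stm

namespace Vale.Agent.P091

open MeasureTheory Real Filter Topology

namespace TriCAux

lemma ker_nonneg (t : ℝ) : 0 ≤ 2 * (1 - Real.cos t) / t ^ 2 := by
  have := Real.cos_le_one t
  apply div_nonneg _ (sq_nonneg t)
  linarith

lemma ker_le_one (t : ℝ) (ht : t ≠ 0) : 2 * (1 - Real.cos t) / t ^ 2 ≤ 1 := by
  have h := Real.one_sub_sq_div_two_le_cos (x := t)
  have h2 : 0 < t ^ 2 := by positivity
  rw [div_le_one h2]
  linarith

lemma ker_ge (t : ℝ) (ht : t ≠ 0) : 1 - |t| ≤ 2 * (1 - Real.cos t) / t ^ 2 := by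
  by_cases h1 : |t| ≤ 1
  · have hb := Real.cos_bound h1
    have h2 : 0 < t ^ 2 := by positivity
    have h4 : |t| ^ 4 = t ^ 2 * t ^ 2 := by
      have : |t| ^ 4 = (|t| ^ 2) ^ 2 := by ring
      rw [this, sq_abs]; ring
    have hsq : t ^ 2 ≤ |t| := by
      have h0 : 0 ≤ |t| := abs_nonneg t
      have : t ^ 2 = |t| * |t| := by rw [← sq_abs]; ring
      rw [this]
      nlinarith
    rw [le_div_iff₀ h2]
    have hb2 := (abs_le.mp hb).2
    rw [h4] at hb2
    have h5 : t ^ 2 * t ^ 2 ≤ |t| * t ^ 2 := mul_le_mul_of_nonneg_right hsq h2.le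
    have h6 : 0 ≤ |t| * t ^ 2 := mul_nonneg (abs_nonneg t) h2.le
    nlinarith
  · have := ker_nonneg t
    have h1' : 1 < |t| := not_le.mp h1
    linarith

lemma ker_le_div (t : ℝ) (ht : t ≠ 0) : 2 * (1 - Real.cos t) / t ^ 2 ≤ 4 / t ^ 2 := by
  have h := Real.neg_one_le_cos t
  have h2 : 0 < t ^ 2 := by positivity
  apply div_le_div_of_nonneg_right _ h2.le
  linarith

lemma coef_zero (δ : ℝ) (h : (∫ y in (0 : ℝ)..(2 * π), tri δ y) = 2 * π) :
    coef (fun y => (tri δ y : ℂ)) 0 = 1 := by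
  unfold coef
  simp only [Int.cast_zero, zero_mul, neg_zero, Complex.exp_zero, mul_one]
  rw [intervalIntegral.integral_ofReal, h, ← Complex.ofReal_mul]
  have hp : (2 * π : ℝ) ≠ 0 := by positivity
  rw [one_div, inv_mul_cancel₀ hp, Complex.ofReal_one]

end TriCAux

open TriCAux in
theorem triC_pf (h : TriBStmt) : TriCStmt := by
  intro δ hδ hδ1
  obtain ⟨hint, hk⟩ := h δ hδ hδ1
  have h0 := coef_zero δ hint
  refine ⟨fun k => ?_, ?_⟩
  · by_cases hk0 : k = 0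
    · subst hk0
      rw [h0]
      simp
    · have hkr : (k : ℝ) ≠ 0 := Int.cast_ne_zero.mpr hk0
      have ht : (k : ℝ) * δ ≠ 0 := mul_ne_zero hkr hδ.ne'
      rw [hk k hk0, ← Complex.ofReal_one, ← Complex.ofReal_sub, Complex.norm_real,
        Real.norm_eq_abs]
      have a1 := ker_le_one _ ht
      have a2 := ker_ge _ ht
      have a3 : |(k : ℝ) * δ| = |(k : ℝ)| * δ := by rw [abs_mul, abs_of_pos hδ]
      rw [a3] at a2
      have a4 : 0 ≤ |(k : ℝ)| * δ := mul_nonneg (abs_nonneg _) hδ.le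
      rw [abs_le]
      constructor <;> linarith
  · have hs : Summable (fun n : ℤ => 1 / (n : ℝ) ^ 2) :=
      Real.summable_one_div_int_pow.mpr (by norm_num)
    have hs2 : Summable (fun n : ℤ => (4 / δ ^ 2) * (1 / (n : ℝ) ^ 2)) := hs.mul_left _
    refine ⟨1 + ∑' n : ℤ, (4 / δ ^ 2) * (1 / (n : ℝ) ^ 2), fun N => ?_⟩
    have hb : ∀ k : ℤ, ‖coef (fun y => (tri δ y : ℂ)) k‖ ≤
        (if k = 0 then (1 : ℝ) else 0) + (4 / δ ^ 2) * (1 / (k : ℝ) ^ 2) := by
      intro k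
      by_cases hk0 : k = 0
      · subst hk0
        rw [h0]
        simp
      · have hkr : (k : ℝ) ≠ 0 := Int.cast_ne_zero.mpr hk0
        have ht : (k : ℝ) * δ ≠ 0 := mul_ne_zero hkr hδ.ne'
        rw [hk k hk0, Complex.norm_real, Real.norm_eq_abs, abs_of_nonneg (ker_nonneg _),
          if_neg hk0, zero_add]
        have a1 := ker_le_div _ ht
        have a2 : 4 / ((k : ℝ) * δ) ^ 2 = (4 / δ ^ 2) * (1 / (k : ℝ) ^ 2) := by
          field_simp
        rw [← a2]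
        exact a1
    calc ∑ k ∈ Finset.Icc (-(N : ℤ)) (N : ℤ), ‖coef (fun y => (tri δ y : ℂ)) k‖
        ≤ ∑ k ∈ Finset.Icc (-(N : ℤ)) (N : ℤ),
            ((if k = 0 then (1 : ℝ) else 0) + (4 / δ ^ 2) * (1 / (k : ℝ) ^ 2)) :=
          Finset.sum_le_sum (fun k _ => hb k)
      _ = ∑ k ∈ Finset.Icc (-(N : ℤ)) (N : ℤ), (if k = 0 then (1 : ℝ) else 0)
            + ∑ k ∈ Finset.Icc (-(N : ℤ)) (N : ℤ), (4 / δ ^ 2) * (1 / (k : ℝ) ^ 2) :=
          Finset.sum_add_distrib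
      _ ≤ 1 + ∑' n : ℤ, (4 / δ ^ 2) * (1 / (n : ℝ) ^ 2) := by
          apply add_le_add
          · rw [Finset.sum_ite_eq']
            split_ifs <;> norm_num
          · apply hs2.sum_le_tsum
            intro k _
            positivity

end Vale.Agent.P091
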