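import Vale.Agent.P091.MainA
import Vale.Agent.P091.LowA
import Vale.Agent.P091.TriB
import Vale.Agent.P091.Bits
import Vale.Agent.P091.FinA1
import Vale.Agent.P091.FinA2
import Vale.Agent.P091.Avg
import Vale.Agent.P091.TransA
import Vale.Agent.P091.Atom
import Vale.Agent.P091.Step
import Vale.Agent.P091.FinB
import Vale.Agent.P091.Low
import Vale.Agent.P091.GoodA
import Vale.Agent.P091.Gs
import Vale.Agent.P091.Dir
import Vale.Agent.P091.TransB
import Vale.Agent.P091.AvB
import Vale.Agent.P091.Good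
import Vale.Agent.P091.AvA
import Vale.Agent.P091.TriC
import Vale.Agent.P091.Harm
import Vale.Agent.P091.Seq
import Vale.Agent.P091.FinB1
import Vale.Agent.P091.BitsA
import Vale.Agent.P091.TriA
import Vale.Agent.P091.StepA
import Vale.Agent.P091.PhiB

namespace Vale.Agent.P091

open MeasureTheory Real Filter Topology

theorem atom_all : AtomStmt :=
  atom_pf (good_pf (goodA_pf (bits_pf bitsA_pf) avg_pf harm_pf))
    (low_pf dir_pf (lowA_pf harm_pf)) (avA_pf triA_pf triB_pf)
    (avB_pf triA_pf (triC_pf triB_pf)) gs_pf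

theorem main_all (φ : ℝ → ℝ) (hφ : Hyp φ) :
    ∃ f : ℝ → ℂ, Measurable f ∧ Function.Periodic f (2 * π) ∧
      IntervalIntegrable f volume 0 (2 * π) ∧
      (∫⁻ x in Set.Ioc 0 (2 * π), ENNReal.ofReal (φ ‖f x‖)) < ⊤ ∧
      ∀ᵐ x : ℝ, ¬ BddAbove (Set.range fun N : ℕ => ‖S f N x‖) :=
  main_of (seq_pf (step_pf atom_all stepA_pf scale_pf phiB_pf))
    (trans_pf (transB_pf transA_pf)) finA1_pf (finA2_pf finA1_pf)
    (finB_pf finB1_pf finB2_pf) φ hφ

end Vale.Agent.P091
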