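import Vale.Agent.P091.Stm

namespace Vale.Agent.P091

open MeasureTheory Real Filter Topology

theorem main_of (h1 : SeqStmt) (h2 : TransStmt) (h3 : FinA1Stmt) (h4 : FinA2Stmt) (h5 : FinBStmt)
    (φ : ℝ → ℝ) (hφ : Hyp φ) :
    ∃ f : ℝ → ℂ, Measurable f ∧ Function.Periodic f (2 * π) ∧
      IntervalIntegrable f volume 0 (2 * π) ∧
      (∫⁻ x in Set.Ioc 0 (2 * π), ENNReal.ofReal (φ ‖f x‖)) < ⊤ ∧
      ∀ᵐ x : ℝ, ¬ BddAbove (Set.range fun N : ℕ => ‖S f N x‖) := by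
  obtain ⟨P, η, hc⟩ := h1 φ hφ
  obtain ⟨τ, hτ⟩ := h2 (fun r => (P r).G) (fun r => (hc r).2.2.2.1.2.2.2.2.2.1)
    (fun r => (hc r).2.2.2.1.2.2.2.2.2.2.1) (fun r => (hc r).2.2.2.1.2.2.2.2.2.2.2)
  obtain ⟨a1, a2, a3, -⟩ := h3 φ P η τ hc
  refine ⟨fun x => (ff P τ x : ℂ), Complex.measurable_ofReal.comp a1, fun x => ?_, a3, ?_, ?_⟩
  · simp only [a2 x]
  · have := h5 φ P η τ hφ hc
    have e : ∀ x, ‖(ff P τ x : ℂ)‖ = ff P τ x := fun x => by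
      rw [Complex.norm_real, Real.norm_of_nonneg]
      exact ENNReal.toReal_nonneg
    simpa only [e] using this
  · filter_upwards [hτ] with x hx
    exact h4 φ P η τ hc x hx

end Vale.Agent.P091
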