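import Vale.Agent.P091.StmE

namespace Vale.Agent.P091

open MeasureTheory Real Filter Topology

namespace NodeAux

theorem bd (j q : ℕ) (hq : 0 < q) :
    ((j / q : ℕ) : ℝ) * q ≤ j ∧ (j : ℝ) ≤ ((j / q : ℕ) + 1) * q := by
  have h1 := Nat.div_add_mod' j q
  have h2 := Nat.mod_lt j hq
  constructor
  · exact_mod_cast Nat.div_mul_le_self j q
  · have : j ≤ (j / q + 1) * q := by rw [add_mul, one_mul]; omega
    exact_mod_cast this

theorem card_le (T : Finset ℕ) (q b : ℕ) (hq : 0 < q) :
    (T.filter fun j => j / q = b).card ≤ q := by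
  have : (T.filter fun j => j / q = b) ⊆ Finset.Ico (b * q) (b * q + q) := fun j hj => by
    obtain ⟨-, rfl⟩ := Finset.mem_filter.1 hj
    have h1 := Nat.div_add_mod' j q
    have h2 := Nat.mod_lt j hq
    rw [Finset.mem_Ico]
    omega
  simpa using Finset.card_le_card this

theorem far (i j q : ℕ) (hq : 0 < q) :
    (|((i / q : ℕ) : ℝ) - (j / q : ℕ)| - 1) * q ≤ |(i : ℝ) - j| := by
  obtain ⟨a1, a2⟩ := bd i q hq
  obtain ⟨b1, b2⟩ := bd j q hq
  rcases abs_cases (((i / q : ℕ) : ℝ) - (j / q : ℕ)) with h | h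
  · rw [h.1]
    refine le_trans ?_ (le_abs_self _)
    linarith
  · rw [h.1]
    refine le_trans ?_ (neg_le_abs _)
    linarith

theorem two_le {a b : ℕ} (h : b ≠ a) (h1 : Nat.dist a b ≠ 1) : (2 : ℝ) ≤ |(a : ℝ) - b| := by
  unfold Nat.dist at h1
  rcases le_total a b with l | l
  · have : a + 2 ≤ b := by omega
    have : (a : ℝ) + 2 ≤ b := by exact_mod_cast this
    exact le_trans (by linarith) (neg_le_abs _)
  · have : b + 2 ≤ a := by omega
    have : (b : ℝ) + 2 ≤ a := by exact_mod_cast this
    exact le_trans (by linarith) (le_abs_self _)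

end NodeAux

open NodeAux in
theorem node_pf (h : HarmStmt) : NodeStmt := by
  intro K k j0 b hK hj hb
  have hq : 0 < 2 ^ k := by positivity
  unfold wt
  split_ifs with h1
  · refine le_trans ?_ (le_add_of_nonneg_right (by positivity))
    refine le_trans (Finset.sum_le_sum_of_subset_of_nonneg (fun j hj' => ?_)
      fun _ _ _ => by positivity) (h K j0 hK hj).2
    obtain ⟨h2, h3⟩ := Finset.mem_filter.1 hj'
    refine Finset.mem_erase.2 ⟨?_, h2⟩
    rintro rfl
    exact hb h3.symm
  · have h2 := two_le hb h1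
    generalize 2 ^ k = q at *
    set d := |((j0 / q : ℕ) : ℝ) - b| with hd
    have hq' : (0 : ℝ) < q := by exact_mod_cast hq
    have h3 : 0 < (d - 1) * q := mul_pos (by linarith) hq'
    have h4 : ∀ j ∈ (Finset.range (2 ^ K)).filter (fun j => j / q = b),
        1 / |(j0 : ℝ) - j| ≤ 1 / ((d - 1) * q) := fun j hj' => by
      have h5 := far j0 j q hq
      rw [(Finset.mem_filter.1 hj').2] at h5
      exact one_div_le_one_div_of_le h3 h5
    refine (Finset.sum_le_card_nsmul _ _ _ h4).trans ?_
    have h6 : (((Finset.range (2 ^ K)).filter fun j => j / q = b).card : ℝ) ≤ q := by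
      exact_mod_cast card_le _ q b hq
    rw [nsmul_eq_mul, zero_add]
    refine (mul_le_mul_of_nonneg_right h6 (by positivity)).trans ?_
    have h7 : (q : ℝ) * (1 / ((d - 1) * q)) = 1 / (d - 1) := by
      have : d - 1 ≠ 0 := by linarith
      field_simp
    rw [h7, div_le_div_iff₀ (by linarith) (by linarith)]
    linarith

theorem wt_pf (h : HarmStmt) : WtStmt := by
  intro K a hK ha
  unfold wt
  rw [Finset.sum_add_distrib, ← Finset.sum_filter, Finset.sum_const, nsmul_eq_mul]
  have h1 : (((Finset.range (2 ^ K)).erase a).filter fun b => Nat.dist a b = 1).card ≤ 2 := by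
    refine le_trans (Finset.card_le_card (t := {a + 1, a - 1}) fun b hb => ?_) Finset.card_le_two
    have := (Finset.mem_filter.1 hb).2
    unfold Nat.dist at this
    simp only [Finset.mem_insert, Finset.mem_singleton]
    omega
  have h2 : ((((Finset.range (2 ^ K)).erase a).filter fun b => Nat.dist a b = 1).card : ℝ) ≤ 2 := by
    exact_mod_cast h1
  have h3 : ∑ b ∈ (Finset.range (2 ^ K)).erase a, 2 / |(a : ℝ) - b| =
      2 * ∑ b ∈ (Finset.range (2 ^ K)).erase a, 1 / |(a : ℝ) - b| := by
    rw [Finset.mul_sum]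
    exact Finset.sum_congr rfl fun b _ => by ring
  have h4 := mul_le_mul_of_nonneg_right h2 (by positivity : (0 : ℝ) ≤ 4 * K)
  rw [h3]
  linarith [(h K a hK ha).2]

end Vale.Agent.P091
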