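import Vale.Agent.P091.StmE

/-! Approximation of the Dirichlet kernels away from the nearest point. -/

namespace Vale.Agent.P091

open MeasureTheory Real Filter Topology

theorem term_pf (h : DirStmt) : TermStmt := by
  intro n m D z hn d0 d1
  have n0 : (0 : ℝ) < n := by exact_mod_cast hn
  have k := h (2 * n * m) (π * ((D : ℝ) + z) / n)
    (div_ne_zero (mul_ne_zero pi_ne_zero d0) n0.ne') (by
      rw [abs_div, abs_mul, abs_of_pos pi_pos, abs_of_pos n0, div_le_iff₀ n0]
      exact mul_le_mul_of_nonneg_left d1 pi_pos.le)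
  have e : ((2 * n * m : ℕ) : ℝ) * (π * ((D : ℝ) + z) / n) =
      2 * π * m * z + ((m * D : ℤ) : ℝ) * (2 * π) := by
    push_cast
    field_simp
    ring
  rw [e, Real.sin_add_int_mul_two_pi] at k
  have e2 : 2 / π * Real.sin (2 * π * m * z) / ((D : ℝ) + z) =
      1 / n * (2 * Real.sin (2 * π * m * z) / (π * ((D : ℝ) + z) / n)) := by
    field_simp
  rw [e2, Complex.ofReal_mul, ← mul_sub, norm_mul, Complex.norm_real,
    Real.norm_of_nonneg (by positivity)]
  exact (mul_le_mul_of_nonneg_left k (by positivity)).trans_eq (by ring)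

theorem rest_pf (h : TermStmt) : RestStmt := by
  intro K j0 m s y _ _ h1 hs hy
  have p : 0 < 2 ^ K := by positivity
  have h0 : j0 < 2 ^ K := by omega
  have k : ∀ j ∈ (Finset.range (2 ^ K)).erase j0, ‖((1 / 2 ^ K : ℝ) : ℂ) *
      Dk (2 * 2 ^ K * m) (π * (j0 + y) / 2 ^ K - π * (j + s j) / 2 ^ K) -
      ((2 / π * Real.sin (2 * π * m * (y - s j)) / ((j0 : ℝ) - j + (y - s j)) : ℝ) : ℂ)‖ ≤
      3 / 2 ^ K := fun j hj => by
    obtain ⟨n1, n2⟩ := Finset.mem_erase.1 hj
    have a0 : (j0 : ℝ) + 1 ≤ (2 ^ K : ℕ) := by exact_mod_cast h0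
    have a1 : (j : ℝ) + 1 ≤ (2 ^ K : ℕ) := by exact_mod_cast Finset.mem_range.1 n2
    have b0 : (0 : ℝ) ≤ j0 := Nat.cast_nonneg _
    have b1 : (0 : ℝ) ≤ j := Nat.cast_nonneg _
    obtain ⟨c0, c1⟩ := abs_le.1 (hs j)
    obtain ⟨c2, c3⟩ := abs_le.1 hy
    have e : (((j0 : ℤ) - j : ℤ) : ℝ) = (j0 : ℝ) - j := by push_cast; rfl
    have := h (2 ^ K) m ((j0 : ℤ) - j) (y - s j) p (by
      rw [e]
      rcases lt_or_gt_of_ne n1 with g | g
      · have : (j : ℝ) + 1 ≤ j0 := by exact_mod_cast g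
        linarith
      · have : (j0 : ℝ) + 1 ≤ j := by exact_mod_cast g
        linarith) (by
      rw [e]
      exact abs_le.2 ⟨by linarith, by linarith⟩)
    rw [e, Nat.cast_pow, Nat.cast_ofNat] at this
    rwa [show π * (j0 + y) / 2 ^ K - π * (j + s j) / 2 ^ K =
      π * ((j0 : ℝ) - j + (y - s j)) / 2 ^ K by ring]
  have k2 := (norm_sum_le _ _).trans (Finset.sum_le_sum k)
  rw [Finset.sum_sub_distrib, ← Finset.mul_sum, ← Complex.ofReal_sum, Finset.sum_const,
    nsmul_eq_mul] at k2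
  refine k2.trans ?_
  have c : (((Finset.range (2 ^ K)).erase j0).card : ℝ) ≤ 2 ^ K := by
    exact_mod_cast Finset.card_erase_le.trans (Finset.card_range _).le
  exact (mul_le_mul_of_nonneg_right c (by positivity)).trans_eq
    (mul_div_cancel₀ _ (by positivity))

end Vale.Agent.P091
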