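import Vale.Agent.P091.StmE
import Vale.Agent.P091.Seq

namespace Vale.Agent.P091

open MeasureTheory Real Filter Topology

open SeqAux in
theorem seqE_pf (h : StepEStmt) : SeqEStmt := by
  intro φ hφ
  have h1 : ∀ η F T : ℝ, ∃ a : Pack, 0 < η → a.G = G0 ∧
      Base a ∧ Small η a ∧ Phi φ η |F| a ∧ Big T a := by
    intro η F T
    by_cases hη : 0 < η
    · obtain ⟨a, ha⟩ := h φ hφ η |F| T hη (abs_nonneg F)
      exact ⟨a, fun _ => ha⟩
    · exact ⟨⟨fun _ => 0, 0, 0, 0, ∅⟩, fun h' => absurd h' hη⟩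
  choose st hst using h1
  have hp : ∀ r, Base (pk st r) ∧ Small (et st r) (pk st r) ∧
      Phi φ (et st r) |(stt st r).1| (pk st r) ∧
      Big ((r : ℝ) + 1 + (stt st r).2.1) (pk st r) := fun r => (hst _ _ _ (et_pos st r)).2
  have hA : ∀ r, 0 ≤ (pk st r).A := fun r =>
    le_trans ((hp r).1.2.2.1 0) ((hp r).1.2.2.2.1 0)
  refine ⟨pk st, et st, fun r => (hst _ _ _ (et_pos st r)).1, fun r => ?_⟩
  obtain ⟨hb, hs, hph, hbig⟩ := hp r
  have e := stt_eq st r
  have e1 : (stt st r).1 = ∑ s ∈ Finset.range r, (pk st s).A := by rw [e]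
  have e2 : (stt st r).2.1 = ∑ s ∈ Finset.range r, (pk st s).B := by rw [e]
  have e3 : (stt st r).2.2 = ∑ s ∈ Finset.range r, (2 * ((pk st s).Nm : ℝ) + 1) := by rw [e]
  have hq : (0 : ℝ) < (1 / 2) ^ r := by positivity
  have hd : (0 : ℝ) < 1 + |(stt st r).2.2| := by positivity
  refine ⟨et_pos st r, ?_, ?_, hb, hs, ?_, ?_⟩
  · unfold et
    rw [div_le_iff₀ hd]
    nlinarith [abs_nonneg (stt st r).2.2]
  · intro s hs'
    have hle : 2 * ((pk st s).Nm : ℝ) + 1 ≤ (stt st r).2.2 := by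
      rw [e3]
      exact Finset.single_le_sum (f := fun s => 2 * ((pk st s).Nm : ℝ) + 1)
        (fun i _ => by positivity) (Finset.mem_range.mpr hs')
    unfold et
    rw [div_mul_eq_mul_div, div_le_iff₀ hd]
    have : 2 * ((pk st s).Nm : ℝ) + 1 ≤ 1 + |(stt st r).2.2| := by
      linarith [le_abs_self (stt st r).2.2]
    exact mul_le_mul_of_nonneg_left this hq.le
  · rw [e1, abs_of_nonneg (Finset.sum_nonneg fun i _ => hA i)] at hph
    exact hph
  · rw [e2] at hbig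
    exact hbig

end Vale.Agent.P091
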