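import Vale.Agent.P091.StmE

namespace Vale.Agent.P091

open MeasureTheory Real Filter Topology

namespace SmallTAux

theorem one {K D y s t : ℝ} (hK : 0 < K) (hD : 1 ≤ |D|) (he : |y - s| ≤ 51 / 100) (ht0 : 0 ≤ t)
    (ht : t ≤ K) (hs : |s| ≤ 1 / (100 * K ^ 2)) :
    |(2 / π) * Real.sin (2 * π * t * (y - s)) / (D + (y - s)) -
      (2 / π) * Real.sin (2 * π * t * y) * (1 / (D + (y - s)))| ≤ 4 / (49 * K) * (1 / |D|) := by
  have hp := Real.pi_pos
  have h1 : |D| ≤ |D + (y - s)| + |y - s| := by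
    have := abs_sub (D + (y - s)) (y - s)
    rwa [add_sub_cancel_right] at this
  have h2 : 49 / 100 * |D| ≤ |D + (y - s)| := by linarith
  have h3 : t * |s| ≤ 1 / (100 * K) := by
    refine (mul_le_mul ht hs (abs_nonneg _) hK.le).trans (le_of_eq ?_)
    field_simp
  have h4 : |Real.sin (2 * π * t * (y - s)) - Real.sin (2 * π * t * y)| ≤
      2 * π * (1 / (100 * K)) := by
    refine (Real.abs_sin_sub_sin_le _ _).trans ?_
    have e : 2 * π * t * (y - s) - 2 * π * t * y = -(2 * π * t * s) := by ring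
    rw [e, abs_neg, abs_mul, abs_of_nonneg (by positivity : 0 ≤ 2 * π * t), mul_assoc]
    exact mul_le_mul_of_nonneg_left h3 (by positivity)
  have e : (2 / π) * Real.sin (2 * π * t * (y - s)) / (D + (y - s)) -
      (2 / π) * Real.sin (2 * π * t * y) * (1 / (D + (y - s))) =
      (2 / π) * (Real.sin (2 * π * t * (y - s)) - Real.sin (2 * π * t * y)) / (D + (y - s)) := by
    ring
  have hD0 : 0 < |D| := by linarith
  rw [e, abs_div, abs_mul, abs_of_pos (by positivity : 0 < 2 / π)]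
  calc 2 / π * |Real.sin (2 * π * t * (y - s)) - Real.sin (2 * π * t * y)| / |D + (y - s)|
      ≤ 2 / π * (2 * π * (1 / (100 * K))) / (49 / 100 * |D|) := by gcongr
    _ = 4 / (49 * K) * (1 / |D|) := by
      field_simp
      norm_num

theorem far {a b : ℕ} (h : b ≠ a) : 1 ≤ |(a : ℝ) - b| := by
  have h1 : (1 : ℤ) ≤ |(a : ℤ) - b| := Int.one_le_abs (by omega)
  exact_mod_cast h1

end SmallTAux

open SmallTAux in
theorem smallT_pf (h1 : HarmStmt) (h2 : CancStmt) : SmallTStmt := by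
  intro K j0 t s y hK ha hb hs hy ht
  have hK2 : (2 : ℝ) ≤ K := by exact_mod_cast hK
  have hK0 : (0 : ℝ) < K := by linarith
  have hj : j0 < 2 ^ K := by
    have := Nat.two_pow_pos K
    omega
  have he : ∀ j, |y - s j| ≤ 51 / 100 := fun j => by
    have e1 := abs_sub y (s j)
    have e2 : 1 / (100 * (K : ℝ) ^ 2) ≤ 1 / 100 :=
      one_div_le_one_div_of_le (by norm_num) (by nlinarith)
    linarith [hs j]
  have c1 := h2 K j0 (fun j => y - s j) hK ha hb he
  have c2 := (h1 K j0 hK hj).2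
  have c3 : |∑ j ∈ (Finset.range (2 ^ K)).erase j0,
        (2 / π) * Real.sin (2 * π * t * (y - s j)) / ((j0 : ℝ) - j + (y - s j)) -
      (2 / π) * Real.sin (2 * π * t * y) *
        ∑ j ∈ (Finset.range (2 ^ K)).erase j0, 1 / ((j0 : ℝ) - j + (y - s j))| ≤ 1 := by
    rw [Finset.mul_sum, ← Finset.sum_sub_distrib]
    refine (Finset.abs_sum_le_sum_abs _ _).trans ((Finset.sum_le_sum fun j hj' =>
      one hK0 (far (Finset.ne_of_mem_erase hj')) (he j) (Nat.cast_nonneg t) (Nat.cast_le.2 ht)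
        (hs j)).trans ?_)
    rw [← Finset.mul_sum]
    refine (mul_le_mul_of_nonneg_left c2 (by positivity)).trans ?_
    rw [div_mul_eq_mul_div, div_le_one (by positivity)]
    linarith
  have c4 : |(2 / π) * Real.sin (2 * π * t * y) *
      ∑ j ∈ (Finset.range (2 ^ K)).erase j0, 1 / ((j0 : ℝ) - j + (y - s j))| ≤ 2 / 3 * 1 * 10 := by
    have hp := Real.pi_gt_three
    rw [abs_mul, abs_mul, abs_of_pos (by positivity : 0 < 2 / π)]
    gcongr
    exact Real.abs_sin_le_one _
  have c5 := abs_sub_abs_le_abs_sub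
    (∑ j ∈ (Finset.range (2 ^ K)).erase j0,
      (2 / π) * Real.sin (2 * π * t * (y - s j)) / ((j0 : ℝ) - j + (y - s j)))
    ((2 / π) * Real.sin (2 * π * t * y) *
      ∑ j ∈ (Finset.range (2 ^ K)).erase j0, 1 / ((j0 : ℝ) - j + (y - s j)))
  linarith

end Vale.Agent.P091
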