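import Vale.Agent.P091.Main
import Vale.Agent.P091.StepE
import Vale.Agent.P091.SeqE
import Vale.Agent.P091.LowE1
import Vale.Agent.P091.GoodE2
import Vale.Agent.P091.Bits2
import Vale.Agent.P091.Col
import Vale.Agent.P091.Canc
import Vale.Agent.P091.AtomF
import Vale.Agent.P091.LowE3
import Vale.Agent.P091.Node
import Vale.Agent.P091.G0
import Vale.Agent.P091.Rest
import Vale.Agent.P091.SmallT
import Vale.Agent.P091.GoodE1
import Vale.Agent.P091.GoodE
import Vale.Agent.P091.LowE2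

namespace Vale.Agent.P091

open MeasureTheory Real Filter Topology

theorem atomE_all : AtomEStmt :=
  atomF_pf
    (goodE_pf (goodE2_pf (bits2_pf bitsA_pf)
      (goodE1_pf col_pf (node_pf harm_pf) (wt_pf harm_pf)) harm_pf))
    (lowE2_pf (term_pf dir_pf) (rest_pf (term_pf dir_pf)) (lowE1_pf harm_pf canc_pf))
    (lowE3_pf (rest_pf (term_pf dir_pf)) (smallT_pf harm_pf canc_pf))
    (avA_pf triA_pf triB_pf) (avB_pf triA_pf (triC_pf triB_pf)) g0_pf

theorem mainE_all (φ : ℝ → ℝ) (hφ : Hyp φ) :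
    ∃ f : ℝ → ℝ, Measurable f ∧ Function.Periodic f (2 * π) ∧ (∀ x, 0 ≤ f x) ∧
      IntervalIntegrable f volume 0 (2 * π) ∧
      (∫⁻ x in Set.Ioc 0 (2 * π), ENNReal.ofReal (φ |f x|)) < ⊤ ∧
      ∀ x : ℝ, ¬ BddAbove (Set.range fun N : ℕ => ‖S (fun y => (f y : ℂ)) N x‖) := by
  obtain ⟨P, η, hG, hc⟩ := seqE_pf (stepE_pf atomE_all stepA_pf scale_pf phiB_pf) φ hφ
  obtain ⟨a1, a2, a3, -⟩ := finA1_pf φ P η (fun r => (r : ℝ) * (π / 2)) hc
  have h0 : ∀ x, 0 ≤ ff P (fun r => (r : ℝ) * (π / 2)) x := fun x => ENNReal.toReal_nonneg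
  refine ⟨ff P fun r => (r : ℝ) * (π / 2), a1, a2, h0, ?_, ?_, fun x => ?_⟩
  · have := a3.norm
    simpa only [Complex.norm_real, Real.norm_of_nonneg (h0 _)] using this
  · have := finB_pf finB1_pf finB2_pf φ P η (fun r => (r : ℝ) * (π / 2)) hφ hc
    simpa only [abs_of_nonneg (h0 _)] using this
  · refine finA2_pf finA1_pf φ P η _ hc x ?_
    simpa only [hG] using g0_pf.2.2.2.1 x

end Vale.Agent.P091
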