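import Vale.Agent.P091.Bas

namespace Vale.Agent.P091

open MeasureTheory Real Filter Topology

/-! ### Binary tree construction -/

def bit (k j : ℕ) : ℕ := (j / 2 ^ k) % 2

def MM (K i0 : ℕ) (ω : ℕ × ℕ → ℕ) (j0 : ℕ) : ℕ :=
  ∑ k ∈ Finset.Icc 1 K, 2 ^ (i0 + ω (k, j0 / 2 ^ k))

noncomputable def ss (K i0 : ℕ) (ω : ℕ × ℕ → ℕ) (j : ℕ) : ℝ :=
  (1 / 2) * ∑ k ∈ Finset.Icc 1 K,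
    ((bit (k - 1) j : ℝ) - (bit k j : ℝ)) / 2 ^ (i0 + ω (k, j / 2 ^ k))

noncomputable def er (a b : ℕ) : ℝ := if a ≤ b then π * 2 ^ a / 2 ^ b else 0

noncomputable def sg (j0 j : ℕ) : ℂ := if j < j0 then 1 else -1

noncomputable def dev (M : ℕ) (s : ℝ) (j0 j : ℕ) : ℝ :=
  ‖Complex.exp (((-(2 * π * M * s) : ℝ) : ℂ) * Complex.I) - sg j0 j‖

def BitsAStmt : Prop := ∀ K j0 j : ℕ, j0 < 2 ^ K → j < 2 ^ K → j ≠ j0 →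
  (∑ k ∈ Finset.Icc 1 K,
    if j0 / 2 ^ k = j / 2 ^ k then ((bit (k - 1) j : ℤ) - (bit k j : ℤ)) else 0)
    = if j < j0 then 0 else 1

def BitsStmt : Prop := ∀ (K i0 : ℕ) (ω : ℕ × ℕ → ℕ) (j0 j : ℕ), j0 < 2 ^ K → j < 2 ^ K → j ≠ j0 →
  dev (MM K i0 ω j0) (ss K i0 ω j) j0 j ≤
    ∑ k ∈ Finset.Icc 1 K, ∑ k' ∈ Finset.Icc 1 K,
      if (k, j0 / 2 ^ k) = (k', j / 2 ^ k') then 0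
      else er (ω (k, j0 / 2 ^ k)) (ω (k', j / 2 ^ k'))

def AvgStmt : Prop := ∀ (m : ℕ) (ι : Type) (T : Finset ι) (w : ι → ℝ) (p q : ι → ℕ × ℕ),
  1 ≤ m → (∀ i ∈ T, 0 ≤ w i) → (∀ i ∈ T, p i ≠ q i) →
  ∃ ω : ℕ × ℕ → ℕ, (∀ z, ω z < m) ∧
    ∑ i ∈ T, w i * er (ω (p i)) (ω (q i)) ≤ (2 * π / m) * ∑ i ∈ T, w i

def HarmStmt : Prop := ∀ K j0 : ℕ, 2 ≤ K → j0 < 2 ^ K →
  (K : ℝ) / 4 ≤ ∑ j ∈ (Finset.range (2 ^ K)).erase j0, 1 / |(j0 : ℝ) - j| ∧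
  ∑ j ∈ (Finset.range (2 ^ K)).erase j0, 1 / |(j0 : ℝ) - j| ≤ 4 * K

def GoodAStmt : Prop := ∀ K : ℕ, 2 ≤ K → ∃ ω : ℕ × ℕ → ℕ, (∀ z, ω z < 11000 * K ^ 2) ∧
  ∑ j0 ∈ Finset.range (2 ^ K), ∑ j ∈ (Finset.range (2 ^ K)).erase j0,
    dev (MM K (K + 12) ω j0) (ss K (K + 12) ω j) j0 j / |(j0 : ℝ) - j| ≤ 2 ^ K * ((K : ℝ) / 400)

def GoodStmt : Prop := ∀ K : ℕ, 2 ≤ K → ∃ (M : ℕ → ℕ) (s : ℕ → ℝ) (J : Finset ℕ),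
  J ⊆ Finset.range (2 ^ K) ∧ 2 ^ K ≤ 2 * J.card ∧ (∀ j, M j < 2 ^ (12000 * K ^ 2)) ∧
  (∀ j, |s j| ≤ 1 / 4000) ∧
  ∀ j0 ∈ J, ∑ j ∈ (Finset.range (2 ^ K)).erase j0,
    dev (M j0) (s j) j0 j / |(j0 : ℝ) - j| ≤ (K : ℝ) / 200

/-! ### Dirichlet kernel lower bound -/

noncomputable def Dk (N : ℕ) (u : ℝ) : ℂ :=
  ∑ k ∈ Finset.Icc (-(N : ℤ)) (N : ℤ), Complex.exp ((k : ℂ) * (u : ℂ) * Complex.I)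

def DirStmt : Prop := ∀ (N : ℕ) (u : ℝ), u ≠ 0 → |u| ≤ π →
  ‖Dk N u - ((2 * Real.sin (N * u) / u : ℝ) : ℂ)‖ ≤ 3

def LowAStmt : Prop := ∀ (K j0 M : ℕ) (s : ℕ → ℝ) (y : ℝ), 2 ≤ K → j0 < 2 ^ K →
  (∀ j, |s j| ≤ 1 / 4000) → 1 / 8 ≤ y → y ≤ 3 / 8 →
  ∑ j ∈ (Finset.range (2 ^ K)).erase j0, dev M (s j) j0 j / |(j0 : ℝ) - j| ≤ (K : ℝ) / 200 →
  ∃ t : ℕ, t ≤ 1 ∧ (K : ℝ) / 100 ≤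
    |∑ j ∈ (Finset.range (2 ^ K)).erase j0,
      (2 / π) * Real.sin (2 * π * ((M : ℝ) + t) * (y - s j)) / ((j0 : ℝ) - j + y - s j)|

def LowStmt : Prop := ∀ (K j0 M : ℕ) (s : ℕ → ℝ) (y : ℝ), 2 ≤ K → j0 < 2 ^ K →
  (∀ j, |s j| ≤ 1 / 4000) → 1 / 8 ≤ y → y ≤ 3 / 8 →
  ∑ j ∈ (Finset.range (2 ^ K)).erase j0, dev M (s j) j0 j / |(j0 : ℝ) - j| ≤ (K : ℝ) / 200 →
  ∃ t : ℕ, t ≤ 1 ∧ (K : ℝ) / 100 - 20 ≤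
    ‖((1 / 2 ^ K : ℝ) : ℂ) * ∑ j ∈ Finset.range (2 ^ K),
      Dk (2 * 2 ^ K * (M + t)) (π * (j0 + y) / 2 ^ K - π * (j + s j) / 2 ^ K)‖

/-! ### The triangular bump and its averages -/

noncomputable def tri (δ y : ℝ) : ℝ := (2 * π / δ ^ 2) * max 0 (δ - Real.arccos (Real.cos y))

def TriAStmt : Prop := ∀ δ : ℝ, 0 < δ → δ ≤ 1 →
  Continuous (tri δ) ∧ Function.Periodic (tri δ) (2 * π) ∧ (∀ y, 0 ≤ tri δ y) ∧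
  (∀ y, tri δ y ≤ 2 * π / δ) ∧
  volume ({y | tri δ y ≠ 0} ∩ Set.Ioc 0 (2 * π)) ≤ ENNReal.ofReal (2 * δ)

def TriBStmt : Prop := ∀ δ : ℝ, 0 < δ → δ ≤ 1 →
  (∫ y in (0 : ℝ)..(2 * π), tri δ y) = 2 * π ∧
  ∀ k : ℤ, k ≠ 0 → coef (fun y => (tri δ y : ℂ)) k
    = ((2 * (1 - Real.cos (k * δ)) / (k * δ) ^ 2 : ℝ) : ℂ)

def TriCStmt : Prop := ∀ δ : ℝ, 0 < δ → δ ≤ 1 →
  (∀ k : ℤ, ‖coef (fun y => (tri δ y : ℂ)) k - 1‖ ≤ |(k : ℝ)| * δ) ∧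
  ∃ B : ℝ, ∀ N : ℕ, ∑ k ∈ Finset.Icc (-(N : ℤ)) (N : ℤ), ‖coef (fun y => (tri δ y : ℂ)) k‖ ≤ B

noncomputable def av (n : ℕ) (p : ℕ → ℝ) (δ x : ℝ) : ℝ :=
  (1 / n) * ∑ j ∈ Finset.range n, tri δ (x - p j)

def AvAStmt : Prop := ∀ (n : ℕ) (p : ℕ → ℝ) (δ : ℝ), 1 ≤ n → 0 < δ → δ ≤ 1 →
  Continuous (av n p δ) ∧ Function.Periodic (av n p δ) (2 * π) ∧ (∀ x, 0 ≤ av n p δ x) ∧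
  (∀ x, av n p δ x ≤ 2 * π / δ) ∧ (∫ x in (0 : ℝ)..(2 * π), av n p δ x) = 2 * π ∧
  volume ({x | av n p δ x ≠ 0} ∩ Set.Ioc 0 (2 * π)) ≤ ENNReal.ofReal (2 * n * δ)

def AvBStmt : Prop := ∀ (n : ℕ) (p : ℕ → ℝ) (δ : ℝ), 1 ≤ n → 0 < δ → δ ≤ 1 →
  (∃ B : ℝ, ∀ (N : ℕ) (x : ℝ), ‖S (fun x => (av n p δ x : ℂ)) N x‖ ≤ B) ∧
  ∀ (N : ℕ) (x : ℝ), ‖S (fun x => (av n p δ x : ℂ)) N x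
    - ((1 / n : ℝ) : ℂ) * ∑ j ∈ Finset.range n, Dk N (x - p j)‖ ≤ 3 * (N : ℝ) ^ 2 * δ

def gs (K : ℕ) (J : Finset ℕ) : Set ℝ :=
  {x | ∃ j0 ∈ J, ∃ y : ℝ, 1 / 8 ≤ y ∧ y ≤ 3 / 8 ∧
    ∃ m : ℤ, x = π * (j0 + y) / 2 ^ K + m * (2 * π)}

def GsStmt : Prop := ∀ (K : ℕ) (J : Finset ℕ), J ⊆ Finset.range (2 ^ K) → 2 ^ K ≤ 2 * J.card →
  MeasurableSet (gs K J) ∧ (∀ x, x + 2 * π ∈ gs K J ↔ x ∈ gs K J) ∧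
  ENNReal.ofReal (π / 8) ≤ volume (gs K J ∩ Set.Ioc 0 (2 * π))

/-! ### Atoms -/

structure Pack where
  h : ℝ → ℝ
  A : ℝ
  B : ℝ
  Nm : ℕ
  G : Set ℝ

def Base (a : Pack) : Prop :=
  Continuous a.h ∧ Function.Periodic a.h (2 * π) ∧ (∀ x, 0 ≤ a.h x) ∧ (∀ x, a.h x ≤ a.A) ∧
  (∀ (N : ℕ) (x : ℝ), ‖S (fun x => (a.h x : ℂ)) N x‖ ≤ a.B) ∧ MeasurableSet a.G ∧
  (∀ x, x + 2 * π ∈ a.G ↔ x ∈ a.G) ∧ ENNReal.ofReal (π / 8) ≤ volume (a.G ∩ Set.Ioc 0 (2 * π))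

def Small (η : ℝ) (a : Pack) : Prop :=
  (∫ x in (0 : ℝ)..(2 * π), a.h x) ≤ η ∧
  volume ({x | a.h x ≠ 0} ∩ Set.Ioc 0 (2 * π)) ≤ ENNReal.ofReal η

def Big (T : ℝ) (a : Pack) : Prop :=
  ∀ x ∈ a.G, ∃ N : ℕ, N ≤ a.Nm ∧ T ≤ ‖S (fun x => (a.h x : ℂ)) N x‖

def Phi (φ : ℝ → ℝ) (η F : ℝ) (a : Pack) : Prop :=
  ∫⁻ x in {x | a.h x ≠ 0} ∩ Set.Ioc 0 (2 * π), ENNReal.ofReal (φ (F + a.h x)) ≤ ENNReal.ofReal η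

def Hyp (φ : ℝ → ℝ) : Prop :=
  MonotoneOn φ (Set.Ici 0) ∧ (∀ u, 0 ≤ u → 0 ≤ φ u) ∧
  Tendsto (fun u => φ u / (u * √(Real.log u))) atTop (𝓝 0)

def AtomStmt : Prop := ∀ K : ℕ, 2 ≤ K → ∃ a : Pack, Base a ∧
  a.A ≤ Real.exp (40000 * (K : ℝ) ^ 2) ∧ (∫ x in (0 : ℝ)..(2 * π), a.h x) ≤ 2 * π ∧
  volume ({x | a.h x ≠ 0} ∩ Set.Ioc 0 (2 * π)) ≤ ENNReal.ofReal (1 / (K : ℝ)) ∧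
  Big ((K : ℝ) / 100 - 21) a

def StepAStmt : Prop := ∀ φ : ℝ → ℝ, Hyp φ → ∀ ε F : ℝ, 0 < ε → 0 ≤ F →
  ∃ Q : ℝ, 0 ≤ Q ∧ ∀ L v : ℝ, 0 ≤ L → 0 ≤ v → 2 * v ≤ Real.exp (L ^ 2) →
    φ (F + v) ≤ Q + ε * L * v

def ScaleStmt : Prop := ∀ (a : Pack) (c T : ℝ), 0 < c → Base a → Big T a →
  Base ⟨fun x => c * a.h x, c * a.A, c * a.B, a.Nm, a.G⟩ ∧
  Big (c * T) ⟨fun x => c * a.h x, c * a.A, c * a.B, a.Nm, a.G⟩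

def PhiBStmt : Prop := ∀ (φ : ℝ → ℝ) (a : Pack) (F Q c η₁ η₂ : ℝ), Base a → 0 ≤ Q → 0 ≤ c →
  0 ≤ η₁ → 0 ≤ η₂ → (∀ x, φ (F + a.h x) ≤ Q + c * a.h x) →
  volume ({x | a.h x ≠ 0} ∩ Set.Ioc 0 (2 * π)) ≤ ENNReal.ofReal η₁ →
  (∫ x in (0 : ℝ)..(2 * π), a.h x) ≤ η₂ → Phi φ (Q * η₁ + c * η₂) F a

def StepStmt : Prop := ∀ φ : ℝ → ℝ, Hyp φ → ∀ η F T : ℝ, 0 < η → 0 ≤ F →
  ∃ a : Pack, Base a ∧ Small η a ∧ Phi φ η F a ∧ Big T a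

def Chain (φ : ℝ → ℝ) (P : ℕ → Pack) (η : ℕ → ℝ) : Prop := ∀ r : ℕ,
  0 < η r ∧ η r ≤ (1 / 2) ^ r ∧ (∀ s < r, η r * (2 * ((P s).Nm : ℝ) + 1) ≤ (1 / 2) ^ r) ∧
  Base (P r) ∧ Small (η r) (P r) ∧ Phi φ (η r) (∑ s ∈ Finset.range r, (P s).A) (P r) ∧
  Big ((r : ℝ) + 1 + ∑ s ∈ Finset.range r, (P s).B) (P r)

def SeqStmt : Prop := ∀ φ : ℝ → ℝ, Hyp φ → ∃ (P : ℕ → Pack) (η : ℕ → ℝ), Chain φ P η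

noncomputable def ff (P : ℕ → Pack) (τ : ℕ → ℝ) (x : ℝ) : ℝ :=
  (∑' r, ENNReal.ofReal ((P r).h (x - τ r))).toReal

def FinA1Stmt : Prop := ∀ (φ : ℝ → ℝ) (P : ℕ → Pack) (η τ : ℕ → ℝ), Chain φ P η →
  Measurable (ff P τ) ∧ Function.Periodic (ff P τ) (2 * π) ∧
  IntervalIntegrable (fun x => (ff P τ x : ℂ)) volume 0 (2 * π) ∧
  ∀ k : ℤ, HasSum (fun r => coef (fun x => ((P r).h (x - τ r) : ℂ)) k)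
    (coef (fun x => (ff P τ x : ℂ)) k)

def FinA2Stmt : Prop := ∀ (φ : ℝ → ℝ) (P : ℕ → Pack) (η τ : ℕ → ℝ), Chain φ P η →
  ∀ x : ℝ, (∃ᶠ r in atTop, x - τ r ∈ (P r).G) →
    ¬ BddAbove (Set.range fun N : ℕ => ‖S (fun x => (ff P τ x : ℂ)) N x‖)

def FinB1Stmt : Prop := ∀ (φ : ℝ → ℝ) (P : ℕ → Pack) (η τ : ℕ → ℝ), Hyp φ → Chain φ P η →
  ∀ x : ℝ, (∀ᶠ r in atTop, (P r).h (x - τ r) = 0) →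
    ENNReal.ofReal (φ (ff P τ x)) ≤ ENNReal.ofReal (φ 0) +
      ∑' r, {y | (P r).h y ≠ 0}.indicator
        (fun y => ENNReal.ofReal (φ (∑ s ∈ Finset.range r, (P s).A + (P r).h y))) (x - τ r)

def FinB2Stmt : Prop := ∀ (φ : ℝ → ℝ) (P : ℕ → Pack) (η τ : ℕ → ℝ), Chain φ P η →
  ∀ᵐ x ∂(volume.restrict (Set.Ioc 0 (2 * π))), ∀ᶠ r in atTop, (P r).h (x - τ r) = 0

def FinBStmt : Prop := ∀ (φ : ℝ → ℝ) (P : ℕ → Pack) (η τ : ℕ → ℝ), Hyp φ → Chain φ P η →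
  ∫⁻ x in Set.Ioc 0 (2 * π), ENNReal.ofReal (φ (ff P τ x)) < ⊤

def TransAStmt : Prop := ∀ E G : Set ℝ, MeasurableSet E → MeasurableSet G →
  (∀ x, x + 2 * π ∈ G ↔ x ∈ G) → ENNReal.ofReal (π / 8) ≤ volume (G ∩ Set.Ioc 0 (2 * π)) →
  E ⊆ Set.Ioc 0 (2 * π) →
  ∃ τ : ℝ, volume (E \ {x | x - τ ∈ G}) ≤ ENNReal.ofReal (15 / 16) * volume E

def TransBStmt : Prop := ∀ G : ℕ → Set ℝ, (∀ r, MeasurableSet (G r)) →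
  (∀ r x, x + 2 * π ∈ G r ↔ x ∈ G r) →
  (∀ r, ENNReal.ofReal (π / 8) ≤ volume (G r ∩ Set.Ioc 0 (2 * π))) →
  ∃ τ : ℕ → ℝ, ∀ᵐ x : ℝ, ∃ r, x - τ r ∈ G r

def TransStmt : Prop := ∀ G : ℕ → Set ℝ, (∀ r, MeasurableSet (G r)) →
  (∀ r x, x + 2 * π ∈ G r ↔ x ∈ G r) →
  (∀ r, ENNReal.ofReal (π / 8) ≤ volume (G r ∩ Set.Ioc 0 (2 * π))) →
  ∃ τ : ℕ → ℝ, ∀ᵐ x : ℝ, ∃ᶠ r in atTop, x - τ r ∈ G r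

end Vale.Agent.P091
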