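import Vale.Agent.P091.Stm

namespace Vale.Agent.P091

open MeasureTheory Real Filter Topology

noncomputable def er2 (a b : ℕ) : ℝ := if a ≤ b + 1 then (π / 2) * 2 ^ a / 2 ^ b else 0

noncomputable def sq (j0 j : ℕ) : ℂ := if j < j0 then 1 else -Complex.I

noncomputable def dq (M : ℕ) (s : ℝ) (j0 j : ℕ) : ℝ :=
  ‖Complex.exp (((-(2 * π * M * s) : ℝ) : ℂ) * Complex.I) - sq j0 j‖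

noncomputable def wt (K a b : ℕ) : ℝ :=
  (if Nat.dist a b = 1 then 4 * (K : ℝ) else 0) + 2 / |(a : ℝ) - b|

def Bits2Stmt : Prop := ∀ (K i0 : ℕ) (ω : ℕ × ℕ → ℕ) (j0 j : ℕ), j0 < 2 ^ K → j < 2 ^ K → j ≠ j0 →
  dq (MM K i0 ω j0) (ss K (i0 + 1) ω j) j0 j ≤
    ∑ k ∈ Finset.Icc 1 K, ∑ k' ∈ Finset.Icc 1 K,
      if (k, j0 / 2 ^ k) = (k', j / 2 ^ k') then 0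
      else er2 (ω (k, j0 / 2 ^ k)) (ω (k', j / 2 ^ k'))

def ColStmt : Prop := ∀ (m : ℕ) (T : Finset ℕ) (w : ℕ → ℕ → ℝ), 1 ≤ m → (∀ a b, 0 ≤ w a b) →
  (∀ a b, w a b = w b a) → ∃ c : ℕ → ℕ, (∀ a, c a < m) ∧ ∀ a ∈ T,
    ∑ b ∈ T.erase a, w a b * (1 / 2) ^ Nat.dist (c a) (c b) ≤ (3 / m) * ∑ b ∈ T.erase a, w a b

def NodeStmt : Prop := ∀ K k j0 b : ℕ, 2 ≤ K → j0 < 2 ^ K → b ≠ j0 / 2 ^ k →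
  ∑ j ∈ (Finset.range (2 ^ K)).filter (fun j => j / 2 ^ k = b), 1 / |(j0 : ℝ) - j|
    ≤ wt K (j0 / 2 ^ k) b

def WtStmt : Prop := ∀ K a : ℕ, 2 ≤ K → a < 2 ^ K →
  ∑ b ∈ (Finset.range (2 ^ K)).erase a, wt K a b ≤ 16 * K

def GoodE1Stmt : Prop := ∀ K : ℕ, 2 ≤ K → ∃ c : ℕ → ℕ, (∀ a, c a < 121000 * K) ∧
  ∀ k j0 : ℕ, j0 < 2 ^ K →
    ∑ j ∈ (Finset.range (2 ^ K)).filter (fun j => j / 2 ^ k ≠ j0 / 2 ^ k),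
      (1 / 2 : ℝ) ^ Nat.dist (c (j0 / 2 ^ k)) (c (j / 2 ^ k)) / |(j0 : ℝ) - j| ≤ 48 / 121000

def GoodE2Stmt : Prop := ∀ K : ℕ, 2 ≤ K → ∃ ω : ℕ × ℕ → ℕ,
  (∀ k a, k ≤ K → ω (k, a) < 363000 * K ^ 2) ∧ ∀ j0 : ℕ, j0 < 2 ^ K →
    ∑ j ∈ (Finset.range (2 ^ K)).erase j0,
      dq (MM K (3 * K + 7) ω j0) (ss K (3 * K + 7 + 1) ω j) j0 j / |(j0 : ℝ) - j| ≤ (K : ℝ) / 200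

def GoodEStmt : Prop := ∀ K : ℕ, 2 ≤ K → ∃ (M : ℕ → ℕ) (s : ℕ → ℝ),
  (∀ j, M j < 2 ^ (364000 * K ^ 2)) ∧ (∀ j, |s j| ≤ 1 / (100 * (K : ℝ) ^ 2)) ∧
  ∀ j0 : ℕ, j0 < 2 ^ K → ∑ j ∈ (Finset.range (2 ^ K)).erase j0,
    dq (M j0) (s j) j0 j / |(j0 : ℝ) - j| ≤ (K : ℝ) / 200

def CancStmt : Prop := ∀ (K j0 : ℕ) (e : ℕ → ℝ), 2 ≤ K → 2 ^ K ≤ 4 * j0 → 4 * j0 ≤ 3 * 2 ^ K →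
  (∀ j, |e j| ≤ 51 / 100) →
  |∑ j ∈ (Finset.range (2 ^ K)).erase j0, 1 / ((j0 : ℝ) - j + e j)| ≤ 10

def TermStmt : Prop := ∀ (n m : ℕ) (D : ℤ) (e : ℝ), 1 ≤ n → (D : ℝ) + e ≠ 0 → |(D : ℝ) + e| ≤ n →
  ‖((1 / n : ℝ) : ℂ) * Dk (2 * n * m) (π * ((D : ℝ) + e) / n) -
    ((2 / π * Real.sin (2 * π * m * e) / ((D : ℝ) + e) : ℝ) : ℂ)‖ ≤ 3 / n

def RestStmt : Prop := ∀ (K j0 m : ℕ) (s : ℕ → ℝ) (y : ℝ), 2 ≤ K → 2 ^ K ≤ 4 * j0 →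
  4 * j0 ≤ 3 * 2 ^ K → (∀ j, |s j| ≤ 1 / 100) → |y| ≤ 1 / 2 →
  ‖((1 / 2 ^ K : ℝ) : ℂ) * ∑ j ∈ (Finset.range (2 ^ K)).erase j0,
      Dk (2 * 2 ^ K * m) (π * (j0 + y) / 2 ^ K - π * (j + s j) / 2 ^ K) -
    ((∑ j ∈ (Finset.range (2 ^ K)).erase j0,
      (2 / π) * Real.sin (2 * π * m * (y - s j)) / ((j0 : ℝ) - j + (y - s j)) : ℝ) : ℂ)‖ ≤ 3

def LowE1Stmt : Prop := ∀ (K j0 M : ℕ) (s : ℕ → ℝ) (y : ℝ), 2 ≤ K → 2 ^ K ≤ 4 * j0 →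
  4 * j0 ≤ 3 * 2 ^ K → (∀ j, |s j| ≤ 1 / 100) → |y| ≤ 1 / 2 →
  ∑ j ∈ (Finset.range (2 ^ K)).erase j0, dq M (s j) j0 j / |(j0 : ℝ) - j| ≤ (K : ℝ) / 200 →
  ∃ m : ℕ, m ≤ 2 * M ∧ (K : ℝ) / 60 - 10 ≤
    |∑ j ∈ (Finset.range (2 ^ K)).erase j0,
      (2 / π) * Real.sin (2 * π * m * (y - s j)) / ((j0 : ℝ) - j + (y - s j))|

def LowE2Stmt : Prop := ∀ (K j0 M : ℕ) (s : ℕ → ℝ) (y : ℝ), 2 ≤ K → 2 ^ K ≤ 4 * j0 →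
  4 * j0 ≤ 3 * 2 ^ K → (∀ j, |s j| ≤ 1 / 100) → |y| ≤ 1 / 2 →
  ∑ j ∈ (Finset.range (2 ^ K)).erase j0, dq M (s j) j0 j / |(j0 : ℝ) - j| ≤ (K : ℝ) / 200 →
  100 / (K : ℝ) ≤ |y - s j0| →
  ∃ m : ℕ, m ≤ 2 * M ∧ (K : ℝ) / 300 - 20 ≤
    ‖((1 / 2 ^ K : ℝ) : ℂ) * ∑ j ∈ Finset.range (2 ^ K),
      Dk (2 * 2 ^ K * m) (π * (j0 + y) / 2 ^ K - π * (j + s j) / 2 ^ K)‖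

def SmallTStmt : Prop := ∀ (K j0 t : ℕ) (s : ℕ → ℝ) (y : ℝ), 2 ≤ K → 2 ^ K ≤ 4 * j0 →
  4 * j0 ≤ 3 * 2 ^ K → (∀ j, |s j| ≤ 1 / (100 * (K : ℝ) ^ 2)) → |y| ≤ 1 / 2 → t ≤ K →
  |∑ j ∈ (Finset.range (2 ^ K)).erase j0,
      (2 / π) * Real.sin (2 * π * t * (y - s j)) / ((j0 : ℝ) - j + (y - s j))| ≤ 8

def LowE3Stmt : Prop := ∀ (K j0 : ℕ) (s : ℕ → ℝ) (y : ℝ), 2 ≤ K → 2 ^ K ≤ 4 * j0 →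
  4 * j0 ≤ 3 * 2 ^ K → (∀ j, |s j| ≤ 1 / (100 * (K : ℝ) ^ 2)) → |y| ≤ 1 / 2 →
  |y - s j0| ≤ 100 / (K : ℝ) →
  ∃ m : ℕ, m ≤ K ∧ (K : ℝ) / 300 - 20 ≤
    ‖((1 / 2 ^ K : ℝ) : ℂ) * ∑ j ∈ Finset.range (2 ^ K),
      Dk (2 * 2 ^ K * m) (π * (j0 + y) / 2 ^ K - π * (j + s j) / 2 ^ K)‖

def G0 : Set ℝ := {x | ∃ m : ℤ, π / 4 ≤ x - m * (2 * π) ∧ x - m * (2 * π) ≤ 3 * π / 4}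

def G0Stmt : Prop :=
  MeasurableSet G0 ∧ (∀ x, x + 2 * π ∈ G0 ↔ x ∈ G0) ∧
  ENNReal.ofReal (π / 8) ≤ volume (G0 ∩ Set.Ioc 0 (2 * π)) ∧
  (∀ x : ℝ, ∃ᶠ r : ℕ in atTop, x - (r : ℝ) * (π / 2) ∈ G0) ∧
  ∀ K : ℕ, 2 ≤ K → ∀ x ∈ G0, ∃ (j0 : ℕ) (y : ℝ) (m : ℤ), 2 ^ K ≤ 4 * j0 ∧ 4 * j0 ≤ 3 * 2 ^ K ∧
    |y| ≤ 1 / 2 ∧ x = π * (j0 + y) / 2 ^ K + m * (2 * π)

def AtomEStmt : Prop := ∀ K : ℕ, 2 ≤ K → ∃ a : Pack, Base a ∧ a.G = G0 ∧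
  a.A ≤ Real.exp (1000000 * (K : ℝ) ^ 2) ∧ (∫ x in (0 : ℝ)..(2 * π), a.h x) ≤ 2 * π ∧
  volume ({x | a.h x ≠ 0} ∩ Set.Ioc 0 (2 * π)) ≤ ENNReal.ofReal (1 / (K : ℝ)) ∧
  Big ((K : ℝ) / 300 - 21) a

def StepEStmt : Prop := ∀ φ : ℝ → ℝ, Hyp φ → ∀ η F T : ℝ, 0 < η → 0 ≤ F →
  ∃ a : Pack, a.G = G0 ∧ Base a ∧ Small η a ∧ Phi φ η F a ∧ Big T a

def SeqEStmt : Prop := ∀ φ : ℝ → ℝ, Hyp φ →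
  ∃ (P : ℕ → Pack) (η : ℕ → ℝ), (∀ r, (P r).G = G0) ∧ Chain φ P η

end Vale.Agent.P091
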